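import Vale.Agent.Lib.P064N.Emb

/-!
The thresholds from the near-critical embedding bound.
-/

open Finset

namespace Vale.Agent.Lib.P064N

open Vale.Agent.Lib.P064

open scoped Classical

lemma good_mono {V : Type} {H : SimpleGraph V} {n : ℕ} {q q' : ℝ} (hG : GoodDensity n q H)
    (hq0 : 0 < q) (hqq : q ≤ q') : GoodDensity n q' H := by
  intro β _ U hc hne
  have h1 := hG β U hc hne
  refine h1.trans ?_
  apply mul_le_mul_of_nonneg_left _ (Nat.cast_nonneg _)
  exact pow_le_pow_left₀ hq0.le hqq _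

lemma two_le_exp_one : (2 : ℝ) ≤ Real.exp 1 := by
  have := Real.add_one_le_exp (1 : ℝ)
  linarith

lemma exp_one_le_three : Real.exp 1 ≤ 3 := by
  have := Real.exp_one_lt_d9
  linarith

/-- The numerical bound of the loss. -/
lemma nearL_bound {x Q Λ : ℝ} (hx : 100 ≤ x) (hQ2 : x / 2 ≤ Q) (hQx : Q ≤ x - 1) (hΛ1 : 1 ≤ Λ)
    (hℓ : x + 1 - Q ≤ 4 * Λ) :
    nearL x Q (1 / (16 * (x + 1 - Q + 1))) (Real.exp 1) ≤
      240 * Real.exp 1 ^ 2 * Λ * Real.exp (11 * Λ * Real.log x / x) + x / Real.exp (x - Q) := by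
  have hx0 : 0 < x := by linarith
  have hQ0 : 0 < Q := by linarith
  have hlogx : 0 ≤ Real.log x := Real.log_nonneg (by linarith)
  obtain ⟨ℓ, hℓdef⟩ : ∃ ℓ, ℓ = x + 1 - Q := ⟨_, rfl⟩
  rw [← hℓdef] at hℓ ⊢
  have hℓ2 : 2 ≤ ℓ := by linarith
  obtain ⟨τ₀, hτdef⟩ : ∃ τ₀, τ₀ = 1 / (16 * (ℓ + 1)) := ⟨_, rfl⟩
  rw [← hτdef]
  have hτ0 : 0 < τ₀ := by
    rw [hτdef]
    positivity
  obtain ⟨Xp, hXp⟩ : ∃ Xp, Xp = Real.exp (11 * Λ * Real.log x / x) := ⟨_, rfl⟩
  rw [← hXp]
  have hXp1 : 1 ≤ Xp := by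
    rw [hXp]
    exact Real.one_le_exp (by positivity)
  have hE2 := two_le_exp_one
  unfold nearL
  rw [← hℓdef, Real.log_exp, div_one]
  have h1 : x / Q + 1 ≤ 3 := by
    have : x / Q ≤ 2 := by
      rw [div_le_iff₀ hQ0]
      linarith
    linarith
  have h2 : 1 / τ₀ ≤ 80 * Λ := by
    rw [hτdef, one_div_one_div]
    linarith
  have h3 : (x / Q + 1) / τ₀ ≤ 240 * Λ := by
    have h4 : (x / Q + 1) / τ₀ = (x / Q + 1) * (1 / τ₀) := by ring
    rw [h4]
    have h5 : 0 < 1 / τ₀ := by positivity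
    calc (x / Q + 1) * (1 / τ₀) ≤ 3 * (80 * Λ) := mul_le_mul h1 h2 h5.le (by norm_num)
      _ = _ := by ring
  have h7 : Real.exp ((4 / 3) * (ℓ / Q) * Real.log x) ≤ Xp := by
    rw [hXp]
    apply Real.exp_le_exp.2
    have h8 : ℓ / Q ≤ 8 * Λ / x := by
      rw [div_le_div_iff₀ hQ0 hx0]
      have h9 : ℓ * x ≤ (4 * Λ) * x := mul_le_mul_of_nonneg_right hℓ hx0.le
      have h10 : 8 * Λ * (x / 2) ≤ 8 * Λ * Q :=
        mul_le_mul_of_nonneg_left hQ2 (by positivity)
      have h11 : 8 * Λ * (x / 2) = (4 * Λ) * x := by ring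
      linarith
    have h9 : (4 / 3) * (ℓ / Q) * Real.log x ≤ (4 / 3) * (8 * Λ / x) * Real.log x := by
      gcongr
    refine h9.trans ?_
    have h10 : (4 / 3) * (8 * Λ / x) * Real.log x = (32 / 3) * (Λ * Real.log x / x) := by ring
    have h11 : 11 * Λ * Real.log x / x = 11 * (Λ * Real.log x / x) := by ring
    rw [h10, h11]
    have h12 : 0 ≤ Λ * Real.log x / x := by positivity
    linarith
  have h13 : Real.exp ((16 / 3) * τ₀ * ℓ) ≤ Real.exp 1 := by
    apply Real.exp_le_exp.2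
    rw [hτdef]
    have h14 : (16 / 3) * (1 / (16 * (ℓ + 1))) * ℓ = (1 / 3) * (ℓ / (ℓ + 1)) := by
      field_simp
    rw [h14]
    have h15 : ℓ / (ℓ + 1) ≤ 1 := by
      rw [div_le_one (by linarith)]
      linarith
    linarith
  have hA0 : 0 ≤ 240 * Real.exp 1 ^ 2 * Λ * Xp := by positivity
  have hA3 : 0 ≤ x / Real.exp (x - Q) := by positivity
  apply max_le
  · have hpos : 0 ≤ (x / Q + 1) / τ₀ := by positivity
    have : (x / Q + 1) / τ₀ * Real.exp 1 * Real.exp ((4 / 3) * (ℓ / Q) * Real.log x) *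
        Real.exp ((16 / 3) * τ₀ * ℓ) ≤ (240 * Λ) * Real.exp 1 * Xp * Real.exp 1 := by
      gcongr
    have h20 : (240 * Λ) * Real.exp 1 * Xp * Real.exp 1 = 240 * Real.exp 1 ^ 2 * Λ * Xp := by ring
    linarith
  · linarith

/-- The product of the logarithm with the density. -/
lemma lambda_q {x n p q E Λ Xp : ℝ} (hx : 1 ≤ x) (hy : Real.log x ≤ x) (hn0 : 0 < n) (hp : 0 < p)
    (hE : E = Real.exp 1) (hq : q = max (4 * p) (E / n))
    (hΛdef : Λ = Real.log (E + n * p)) (hΛ0 : 0 ≤ Λ)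
    (hXp : Xp = Real.exp (11 * Λ * Real.log x / x)) (hXp1 : 1 ≤ Xp) :
    Λ * Xp * q ≤ 4 * (p * Λ * Xp) + Real.exp 30 * (x / n) := by
  have hx0 : 0 < x := by linarith
  have hE2 : 2 ≤ E := by rw [hE]; exact two_le_exp_one
  have hE3 : E ≤ 3 := by rw [hE]; exact exp_one_le_three
  by_cases hcase : E / n ≤ 4 * p
  · have h1 : q = 4 * p := by
      rw [hq]
      exact max_eq_left hcase
    rw [h1]
    have h2 : 0 ≤ Real.exp 30 * (x / n) := by positivity
    have h3 : Λ * Xp * (4 * p) = 4 * (p * Λ * Xp) := by ring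
    linarith
  · push Not at hcase
    have h1 : q = E / n := by
      rw [hq]
      exact max_eq_right hcase.le
    have h2 : n * p ≤ E := by
      have h3 : 4 * p * n ≤ E := by
        rw [lt_div_iff₀ hn0] at hcase
        exact hcase.le
      have h4 : 0 < n * p := by positivity
      linarith
    have hΛ2 : Λ ≤ 2 := by
      rw [hΛdef]
      rw [Real.log_le_iff_le_exp (by positivity)]
      have h4 : Real.exp 2 = E * E := by
        rw [hE, ← Real.exp_add]
        norm_num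
      rw [h4]
      nlinarith
    have hX : Xp ≤ Real.exp 22 := by
      rw [hXp]
      apply Real.exp_le_exp.2
      rw [div_le_iff₀ hx0]
      have h5 : 11 * Λ * Real.log x ≤ 11 * 2 * x := by
        have hlogx : 0 ≤ Real.log x := Real.log_nonneg hx
        have : Λ * Real.log x ≤ 2 * x := mul_le_mul hΛ2 hy hlogx (by norm_num)
        linarith
      linarith
    have h5 : Λ * Xp * q = (Λ * Xp * E) / n := by
      rw [h1]
      ring
    rw [h5]
    have h6 : Λ * Xp * E ≤ Real.exp 30 * x := by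
      have h7 : (8 : ℝ) ≤ Real.exp 8 := by
        have h9 := Real.add_one_le_exp (7 : ℝ)
        have h10 : Real.exp 7 ≤ Real.exp 8 := Real.exp_le_exp.2 (by norm_num)
        linarith
      have h10 : Real.exp 30 = Real.exp 8 * Real.exp 22 := by
        rw [← Real.exp_add]
        norm_num
      have h11 : Λ * E ≤ 8 := by nlinarith
      have h12 : Λ * Xp * E = (Λ * E) * Xp := by ring
      have hp22 : 0 < Real.exp 22 := Real.exp_pos _
      have hle : (Λ * E) * Xp ≤ Real.exp 8 * Real.exp 22 :=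
        mul_le_mul (h11.trans h7) hX (by linarith) (Real.exp_pos _).le
      rw [h12, h10]
      have h13 : Real.exp 8 * Real.exp 22 * 1 ≤ Real.exp 8 * Real.exp 22 * x :=
        mul_le_mul_of_nonneg_left hx (by positivity)
      linarith
    have h13 : (Λ * Xp * E) / n ≤ (Real.exp 30 * x) / n :=
      div_le_div_of_nonneg_right h6 hn0.le
    have h14 : (Real.exp 30 * x) / n = Real.exp 30 * (x / n) := by ring
    have h15 : 0 ≤ 4 * (p * Λ * Xp) := by positivity
    linarith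

/-- Combining the constants. -/
lemma const_combine {S1 S2 E L q xn ΛX : ℝ} (hE : E = Real.exp 1) (h0 : 0 ≤ S1)
    (hL : L ≤ 240 * E ^ 2 * ΛX + S2) (hq0 : 0 ≤ q) (hS2 : S2 * q = xn)
    (hΛq : ΛX * q ≤ 4 * S1 + Real.exp 30 * xn) (hxn : 0 ≤ xn) :
    512 * Real.exp 6 * L * q ≤ Real.exp 60 * (S1 + xn) := by
  have hpow : ∀ k : ℕ, (2 : ℝ) ^ k ≤ Real.exp k := by
    intro k
    have h : Real.exp k = Real.exp 1 ^ k := by
      rw [← Real.exp_nat_mul]
      simp
    rw [h]
    exact pow_le_pow_left₀ (by norm_num) two_le_exp_one k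
  have h1 : L * q ≤ (240 * E ^ 2 * ΛX + S2) * q := mul_le_mul_of_nonneg_right hL hq0
  have h2 : (240 * E ^ 2 * ΛX + S2) * q = 240 * E ^ 2 * (ΛX * q) + xn := by
    rw [add_mul, hS2]
    ring
  have hE3 : E ^ 2 = Real.exp 2 := by
    rw [hE, ← Real.exp_nat_mul]
    norm_num
  have hE2 : 240 * E ^ 2 ≤ Real.exp 10 := by
    have h4 : (240 : ℝ) ≤ Real.exp 8 := by
      have := hpow 8
      norm_num at this
      linarith
    have h5 : Real.exp 10 = Real.exp 8 * Real.exp 2 := by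
      rw [← Real.exp_add]
      norm_num
    rw [hE3, h5]
    exact mul_le_mul_of_nonneg_right h4 (Real.exp_pos _).le
  have h512 : (512 : ℝ) ≤ Real.exp 9 := by
    have := hpow 9
    norm_num at this
    linarith
  have hS : 4 ≤ Real.exp 30 := by
    have := hpow 30
    norm_num at this
    linarith
  have h6 : ΛX * q ≤ Real.exp 30 * (S1 + xn) := by
    have : 4 * S1 ≤ Real.exp 30 * S1 := mul_le_mul_of_nonneg_right hS h0
    rw [mul_add]
    linarith
  have hsum : 0 ≤ S1 + xn := by linarith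
  have hE0 : 0 ≤ 240 * E ^ 2 := by positivity
  have h7 : 240 * E ^ 2 * (ΛX * q) ≤ 240 * E ^ 2 * (Real.exp 30 * (S1 + xn)) :=
    mul_le_mul_of_nonneg_left h6 hE0
  have h8 : 240 * E ^ 2 * (Real.exp 30 * (S1 + xn)) ≤ Real.exp 10 * (Real.exp 30 * (S1 + xn)) :=
    mul_le_mul_of_nonneg_right hE2 (by positivity)
  have h9 : Real.exp 10 * (Real.exp 30 * (S1 + xn)) = Real.exp 40 * (S1 + xn) := by
    rw [← mul_assoc, ← Real.exp_add]
    norm_num
  have hexp1 : (1 : ℝ) ≤ Real.exp 40 := Real.one_le_exp (by norm_num)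
  have h10 : xn ≤ Real.exp 40 * (S1 + xn) := by
    have : 1 * (S1 + xn) ≤ Real.exp 40 * (S1 + xn) := mul_le_mul_of_nonneg_right hexp1 hsum
    linarith
  have h11 : L * q ≤ 2 * (Real.exp 40 * (S1 + xn)) := by linarith
  have h12 : 512 * Real.exp 6 ≤ Real.exp 15 := by
    have h5 : Real.exp 15 = Real.exp 9 * Real.exp 6 := by
      rw [← Real.exp_add]
      norm_num
    rw [h5]
    exact mul_le_mul_of_nonneg_right h512 (Real.exp_pos _).le
  have h2e : (2 : ℝ) ≤ Real.exp 5 := by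
    have := hpow 5
    norm_num at this
    linarith
  calc 512 * Real.exp 6 * L * q = 512 * Real.exp 6 * (L * q) := by ring
    _ ≤ 512 * Real.exp 6 * (2 * (Real.exp 40 * (S1 + xn))) :=
        mul_le_mul_of_nonneg_left h11 (by positivity)
    _ ≤ Real.exp 15 * (Real.exp 5 * (Real.exp 40 * (S1 + xn))) := by
        apply mul_le_mul h12 _ (by positivity) (by positivity)
        exact mul_le_mul_of_nonneg_right h2e (by positivity)
    _ = Real.exp 60 * (S1 + xn) := by
        rw [← mul_assoc, ← mul_assoc, ← Real.exp_add, ← Real.exp_add]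
        norm_num

variable {V : Type} [Fintype V] {H : SimpleGraph V} {n : ℕ}

/-- From `p_E` to a good density with `q ≥ 4 p_E`. -/
lemma good_of_pE (hn : 2 ≤ n) (hV : Fintype.card V ≤ n) (hH : H ≠ ⊥) {q : ℝ}
    (hq : 4 * pE n H ≤ q) : GoodDensity n q H := by
  obtain ⟨ι⟩ : Nonempty (V ↪ Fin n) :=
    Function.Embedding.nonempty_of_card_le (by simpa using hV)
  have hE0 := pE_pos hn hV hH
  have hlt : pE n H < 2 * pE n H := by linarith
  obtain ⟨p, ⟨h0, h1, hp⟩, hp2⟩ := exists_lt_of_csInf_lt (pE_set_nonempty (H := H) ι) hlt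
  have hpE : pE n H ≤ p := csInf_le ⟨0, fun _ hy => hy.1⟩ ⟨h0, h1, hp⟩
  have hp0 : 0 < p := by linarith
  have hG : GoodDensity n (2 * p) H := good_of_subgraphs h0 h1 hp
  exact good_mono hG (by positivity) (by linarith)

/-- The properties of the density `q = max (4 p) (e / n)`. -/
lemma density_facts {x N p q E Q K Λ : ℝ} (hx : 100 ≤ x) (hN : N = Real.exp x) (hp : 0 < p)
    (hs : 8 * p * Real.sqrt N ≤ 1) (hE : E = Real.exp 1) (hq : q = max (4 * p) (E / N))
    (hQ : Q = - Real.log q) (hK : K = N * q) (hΛdef : Λ = Real.log (E + N * p)) :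
    0 < q ∧ q ≤ Real.exp (-1) ∧ x / 2 ≤ Q ∧ Q ≤ x - 1 ∧ x + 1 - Q ≤ 4 * Λ ∧ 1 ≤ Λ := by
  have hN0 : 0 < N := by rw [hN]; exact Real.exp_pos _
  have hx0 : 0 < x := by linarith
  have hE2 : 2 ≤ E := by rw [hE]; exact two_le_exp_one
  have hE3 : E ≤ 3 := by rw [hE]; exact exp_one_le_three
  have hq1 : 4 * p ≤ q := by rw [hq]; exact le_max_left _ _
  have hq2 : E / N ≤ q := by rw [hq]; exact le_max_right _ _
  have hq0 : 0 < q := lt_of_lt_of_le (by positivity) hq1
  have hsq : Real.sqrt N * Real.sqrt N = N := Real.mul_self_sqrt hN0.le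
  have hsq0 : 0 < Real.sqrt N := Real.sqrt_pos.2 hN0
  have hsqlarge : 8 ≤ Real.sqrt N := by
    have h1 : (64 : ℝ) ≤ N := by
      rw [hN]
      have h2 := Real.add_one_le_exp x
      linarith
    apply Real.le_sqrt_of_sq_le
    linarith
  have hqs : q * Real.sqrt N ≤ 1 := by
    rw [hq]
    apply (max_mul_of_nonneg _ _ hsq0.le).le.trans
    apply max_le
    · have h0 : 4 * p * Real.sqrt N = (8 * p * Real.sqrt N) / 2 := by ring
      have h1 : 0 < 8 * p * Real.sqrt N := by positivity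
      rw [h0]
      linarith
    · have h1 : E / N * Real.sqrt N = E / Real.sqrt N := by
        calc E / N * Real.sqrt N = E / (Real.sqrt N * Real.sqrt N) * Real.sqrt N := by rw [hsq]
          _ = E / Real.sqrt N := by field_simp
      rw [h1, div_le_one hsq0]
      linarith
  have hqsmall : q ≤ 1 / 8 := by
    have h1 : q * 8 ≤ q * Real.sqrt N := mul_le_mul_of_nonneg_left hsqlarge hq0.le
    linarith
  have hqe : q ≤ Real.exp (-1) := by
    have h1 : (1 : ℝ) / 8 ≤ Real.exp (-1) := by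
      rw [Real.exp_neg, one_div]
      apply inv_anti₀ (Real.exp_pos 1)
      rw [← hE]
      linarith
    linarith
  have hKE : E ≤ K := by
    rw [hK]
    have := mul_le_mul_of_nonneg_left hq2 hN0.le
    have h2 : N * (E / N) = E := by field_simp
    linarith
  have hK0 : 0 < K := by linarith
  have hlogN : Real.log N = x := by rw [hN, Real.log_exp]
  have hlogK : Real.log K = x - Q := by
    rw [hK, Real.log_mul hN0.ne' hq0.ne', hlogN, hQ]
    ring
  have hlK1 : 1 ≤ Real.log K := by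
    have := Real.log_le_log (by positivity) hKE
    rw [hE, Real.log_exp] at this
    exact this
  have hQ2 : x / 2 ≤ Q := by
    have h1 : Real.log (q * Real.sqrt N) ≤ 0 := Real.log_nonpos (by positivity) hqs
    rw [Real.log_mul hq0.ne' hsq0.ne', Real.log_sqrt hN0.le, hlogN] at h1
    rw [hQ]
    linarith
  have hnp : 0 < N * p := by positivity
  have hΛ1 : 1 ≤ Λ := by
    rw [hΛdef, hE]
    have h1 : Real.exp 1 ≤ Real.exp 1 + N * p := by linarith
    have h2 := Real.log_le_log (Real.exp_pos 1) h1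
    rwa [Real.log_exp] at h2
  have hKup : K ≤ 4 * (E + N * p) := by
    rw [hK, hq]
    apply (mul_max_of_nonneg _ _ hN0.le).le.trans
    apply max_le
    · nlinarith
    · have h2 : N * (E / N) = E := by field_simp
      rw [h2]
      nlinarith
  have hℓ : x + 1 - Q ≤ 4 * Λ := by
    have h1 := Real.log_le_log hK0 hKup
    rw [Real.log_mul (by norm_num) (by positivity), hlogK, ← hΛdef] at h1
    have h2 : Real.log 4 ≤ 2 := by
      have h3 : Real.log 4 = 2 * Real.log 2 := by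
        rw [show (4 : ℝ) = 2 ^ 2 by norm_num, Real.log_pow]
        norm_num
      have := Real.log_two_lt_d9
      rw [h3]
      linarith
    linarith
  exact ⟨hq0, hqe, hQ2, by linarith, hℓ, hΛ1⟩

/-- The core bound for large `n`. -/
theorem near_core (hn : 2 ≤ n) (hV : Fintype.card V ≤ n) (hH : H ≠ ⊥)
    (hx : 100 ≤ Real.log n) (hs : 8 * pE n H * Real.sqrt n ≤ 1) :
    ∃ Θ : ℝ, 0 < Θ ∧ EmbBound n H Θ ∧
      Θ ≤ Real.exp 60 * (pE n H * Real.log (Real.exp 1 + n * pE n H) *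
        Real.exp (11 * Real.log (Real.exp 1 + n * pE n H) * Real.log (Real.log n) / Real.log n) +
        Real.log n / n) := by
  have hE0 := pE_pos hn hV hH
  have hn2 : (2 : ℝ) ≤ n := by exact_mod_cast hn
  have hn0 : (0 : ℝ) < n := by linarith
  obtain ⟨x, hxdef⟩ : ∃ x, x = Real.log n := ⟨_, rfl⟩
  rw [← hxdef] at hx ⊢
  obtain ⟨p, hpdef⟩ : ∃ p, p = pE n H := ⟨_, rfl⟩
  rw [← hpdef] at hs hE0 ⊢
  have hx0 : 0 < x := by linarith
  have hnexp : (n : ℝ) = Real.exp x := by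
    rw [hxdef, Real.exp_log hn0]
  obtain ⟨E, hEdef⟩ : ∃ E, E = Real.exp 1 := ⟨_, rfl⟩
  rw [← hEdef]
  obtain ⟨q, hqdef⟩ : ∃ q, q = max (4 * p) (E / n) := ⟨_, rfl⟩
  obtain ⟨Q, hQdef⟩ : ∃ Q, Q = - Real.log q := ⟨_, rfl⟩
  obtain ⟨K, hKdef⟩ : ∃ K, K = n * q := ⟨_, rfl⟩
  obtain ⟨Λ, hΛdef⟩ : ∃ Λ, Λ = Real.log (E + n * p) := ⟨_, rfl⟩
  rw [← hΛdef]
  obtain ⟨hq0, hqe, hQ2, hQx, hℓ, hΛ1⟩ := density_facts hx hnexp hE0 hs hEdef hqdef hQdef hKdef hΛdef
  have hq1 : 4 * p ≤ q := by rw [hqdef]; exact le_max_left _ _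
  have hG : GoodDensity n q H := good_of_pE hn hV hH (by rw [← hpdef]; exact hq1)
  obtain ⟨τ₀, hτdef⟩ : ∃ τ₀, τ₀ = 1 / (16 * (x + 1 - Q + 1)) := ⟨_, rfl⟩
  have hℓ2 : 0 ≤ x + 1 - Q := by linarith
  have hτ0 : 0 < τ₀ := by
    rw [hτdef]
    positivity
  have hτ1 : τ₀ ≤ 1 / 16 := by
    rw [hτdef]
    apply one_div_le_one_div_of_le (by norm_num)
    linarith
  have hEb := embBound_near hn hV hq0 hqe hG (by rw [← hxdef]; linarith)
    (by rw [← hxdef, ← hQdef]; linarith) hτ0 hτ1 (le_refl (Real.exp 1))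
  rw [← hxdef, ← hQdef] at hEb
  have hL := nearL_bound hx hQ2 hQx hΛ1 hℓ
  rw [← hτdef] at hL
  have hL0 : 0 < nearL x Q τ₀ (Real.exp 1) := by
    unfold nearL
    apply lt_max_of_lt_right
    rw [Real.log_exp]
    positivity
  refine ⟨_, by positivity, hEb, ?_⟩
  have hlogx : Real.log x ≤ x := by
    have := Real.log_le_sub_one_of_pos hx0
    linarith
  have hXp1 : 1 ≤ Real.exp (11 * Λ * Real.log x / x) := by
    apply Real.one_le_exp
    have := Real.log_nonneg (show (1 : ℝ) ≤ x by linarith)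
    positivity
  have hΛq := lambda_q (by linarith) hlogx hn0 hE0 hEdef hqdef hΛdef (by linarith) rfl hXp1
  have hK0 : 0 < K := by
    rw [hKdef]
    positivity
  have hexpK : Real.exp (x - Q) = K := by
    have h1 : x - Q = Real.log K := by
      rw [hKdef, Real.log_mul hn0.ne' hq0.ne', ← hxdef, hQdef]
      ring
    rw [h1, Real.exp_log hK0]
  rw [hexpK] at hL
  have hS2 : x / K * q = x / n := by
    rw [hKdef]
    field_simp
  have hS1 : 0 ≤ p * Λ * Real.exp (11 * Λ * Real.log x / x) := by positivity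
  have hxn : 0 ≤ x / n := by positivity
  have hL' : nearL x Q τ₀ (Real.exp 1) ≤ 240 * Real.exp 1 ^ 2 *
      (Λ * Real.exp (11 * Λ * Real.log x / x)) + x / K := by
    have h1 : 240 * Real.exp 1 ^ 2 * (Λ * Real.exp (11 * Λ * Real.log x / x)) =
        240 * Real.exp 1 ^ 2 * Λ * Real.exp (11 * Λ * Real.log x / x) := by ring
    rw [h1]
    exact hL
  exact const_combine rfl hS1 hL' hq0.le hS2 hΛq hxn

end Vale.Agent.Lib.P064N
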