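import Vale.Agent.Lib.P064N.Main

/-!
The embedding bound with heavy arcs.
-/

open Finset

namespace Vale.Agent.Lib.P064N

open Vale.Agent.Lib.P064

open scoped Classical

/-- The loss per edge. -/
noncomputable def nearL (x Q τ₀ B : ℝ) : ℝ :=
  max (((x / Q + 1) / τ₀) * B * Real.exp ((4 / 3) * ((x + 1 - Q) / Q) * Real.log x) *
      Real.exp ((16 / 3) * τ₀ * (x + 1 - Q)))
    ((x / Real.log B) / Real.exp (x - Q))

variable {V : Type} [Fintype V] {H : SimpleGraph V} {n : ℕ} {q : ℝ}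

/-- The weights for the block argument. -/
theorem exists_weights (hn : 1 ≤ n) (hq0 : 0 < q) (hqe : q ≤ Real.exp (-1))
    (hG : GoodDensity n q H) {τ₀ : ℝ} (hτ₀ : 0 < τ₀) (hτ₁ : τ₀ ≤ 1 / 16) :
    ∃ (w : V → V → ℕ) (M c T : ℕ), 1 ≤ M ∧ 1 ≤ T ∧
      (∀ a b, H.Adj a b → w a b + w b a = M) ∧ (∀ a, ∑ b, w a b ≤ c) ∧
      (T : ℝ) / M ≤ 2 * τ₀ ∧
      (c : ℝ) / M * (- Real.log q) ≤ Real.log n + 1 ∧
      ((c / T : ℕ) : ℝ) ≤ (Real.log n / (- Real.log q) + 1) / τ₀ := by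
  have hn1 : (1 : ℝ) ≤ n := by exact_mod_cast hn
  have hn0 : (0 : ℝ) < n := by linarith
  have hL0 : 0 ≤ Real.log n := Real.log_nonneg hn1
  set Q := - Real.log q with hQ
  have hq1 : q ≤ 1 := hqe.trans (by
    rw [Real.exp_le_one_iff]; norm_num)
  have hQ1 : 1 ≤ Q := by
    have := Real.log_le_log hq0 hqe
    rw [Real.log_exp] at this
    rw [hQ]
    linarith
  have hQ0 : 0 < Q := by linarith
  set M := ⌈Q + 1 / τ₀⌉₊ with hM
  have hinv : 16 ≤ 1 / τ₀ := by
    rw [le_div_iff₀ hτ₀]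
    linarith
  have hQM : Q + 1 / τ₀ ≤ M := Nat.le_ceil _
  have hM1 : 1 ≤ M := by
    have : (1 : ℝ) ≤ M := by linarith
    exact_mod_cast this
  have hMpos : (0 : ℝ) < M := by linarith
  have hτM : 1 ≤ τ₀ * M := by
    have h1 : 1 / τ₀ ≤ M := by linarith
    rw [div_le_iff₀ hτ₀] at h1
    linarith
  set T := ⌈τ₀ * M⌉₊ with hT
  have hT1 : τ₀ * M ≤ T := Nat.le_ceil _
  have hT2 : (T : ℝ) < τ₀ * M + 1 := Nat.ceil_lt_add_one (by positivity)
  have hT1' : 1 ≤ T := by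
    have : (1 : ℝ) ≤ T := by linarith
    exact_mod_cast this
  set c := ⌈(M : ℝ) * Real.log n / Q⌉₊ with hc
  have hc1 : (M : ℝ) * Real.log n / Q ≤ c := Nat.le_ceil _
  have hc2 : (c : ℝ) < (M : ℝ) * Real.log n / Q + 1 :=
    Nat.ceil_lt_add_one (by positivity)
  have hc3 : (M : ℝ) * Real.log n ≤ c * Q := by
    rwa [div_le_iff₀ hQ0] at hc1
  have hc4 : (c : ℝ) * Q ≤ (M : ℝ) * Real.log n + Q := by
    have : (M : ℝ) * Real.log n / Q + 1 = ((M : ℝ) * Real.log n + Q) / Q := by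
      field_simp
    rw [this, lt_div_iff₀ hQ0] at hc2
    exact hc2.le
  have hall : ∀ T : Finset (Sym2 V), (∀ e ∈ T, e ∈ H.edgeSet) →
      M * T.card ≤ c * (T.biUnion fun e => e.toFinset).card := by
    intro T hT
    by_cases hne : T.Nonempty
    · have h1 := density_of_good hG hq0 hq1 T hT hne
      set w := (T.biUnion fun e => e.toFinset).card with hw
      have h2 : (T.card : ℝ) * Q ≤ w * Real.log n := by
        have h3 := Real.log_le_log (by norm_num) h1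
        rw [Real.log_one, Real.log_mul (by positivity) (by positivity), Real.log_pow,
          Real.log_pow] at h3
        rw [hQ]
        linarith
      have h4 : (M : ℝ) * T.card ≤ c * w := by
        have h5 : ((M : ℝ) * T.card) * Q ≤ (c * w) * Q := by
          calc ((M : ℝ) * T.card) * Q = M * (T.card * Q) := by ring
            _ ≤ M * (w * Real.log n) := mul_le_mul_of_nonneg_left h2 hMpos.le
            _ = w * (M * Real.log n) := by ring
            _ ≤ w * (c * Q) := mul_le_mul_of_nonneg_left hc3 (Nat.cast_nonneg _)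
            _ = _ := by ring
        exact le_of_mul_le_mul_right h5 hQ0
      exact_mod_cast h4
    · rw [Finset.not_nonempty_iff_eq_empty] at hne
      subst hne
      simp
  obtain ⟨w, hw, hs⟩ := orient_weights H M c hall
  refine ⟨w, M, c, T, hM1, hT1', hw, hs, ?_, ?_, ?_⟩
  · rw [div_le_iff₀ hMpos]
    have : (1 : ℝ) ≤ τ₀ * M := hτM
    nlinarith
  · have hQM' : Q ≤ M := by
      have : 0 < 1 / τ₀ := by positivity
      linarith
    rw [div_mul_eq_mul_div, div_le_iff₀ hMpos]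
    nlinarith
  · have hTpos : (0 : ℝ) < T := by
      have : (1 : ℝ) ≤ T := by exact_mod_cast hT1'
      linarith
    have h1 : ((c / T : ℕ) : ℝ) ≤ (c : ℝ) / T := Nat.cast_div_le
    refine h1.trans ?_
    rw [div_le_div_iff₀ hTpos hτ₀]
    have hcM : (c : ℝ) ≤ (Real.log n / Q + 1) * M := by
      have h2 : (M : ℝ) * Real.log n / Q = Real.log n / Q * M := by ring
      have h3 : (1 : ℝ) ≤ M := by exact_mod_cast hM1
      nlinarith
    have h4 : 0 ≤ Real.log n / Q + 1 := by positivity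
    calc (c : ℝ) * τ₀ ≤ ((Real.log n / Q + 1) * M) * τ₀ :=
          mul_le_mul_of_nonneg_right hcM hτ₀.le
      _ = (Real.log n / Q + 1) * (τ₀ * M) := by ring
      _ ≤ (Real.log n / Q + 1) * T := mul_le_mul_of_nonneg_left hT1 h4

/-- The embedding bound with heavy arcs. -/
theorem embBound_near (hn : 2 ≤ n) (hV : Fintype.card V ≤ n) (hq0 : 0 < q)
    (hqe : q ≤ Real.exp (-1)) (hG : GoodDensity n q H) (hx : 1 ≤ Real.log n)
    (hQx : - Real.log q ≤ Real.log n) {τ₀ B : ℝ} (hτ₀ : 0 < τ₀) (hτ₁ : τ₀ ≤ 1 / 16)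
    (hB : Real.exp 1 ≤ B) :
    EmbBound n H (512 * Real.exp 6 * nearL (Real.log n) (- Real.log q) τ₀ B * q) := by
  intro β _ F hiso hvn
  have hn2 : (2 : ℝ) ≤ n := by exact_mod_cast hn
  have hn1 : (1 : ℝ) ≤ n := by linarith
  have hn0 : (0 : ℝ) < n := by linarith
  have hn' : 1 ≤ n := by omega
  have hq1 : q ≤ 1 := hqe.trans (by
    rw [Real.exp_le_one_iff]; norm_num)
  obtain ⟨w, M, c, T, hM, hT, hw, hs, hτ, hacc, hc'⟩ :=
    exists_weights (H := H) hn' hq0 hqe hG hτ₀ hτ₁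
  have hQ1 : 1 ≤ - Real.log q := by
    have := Real.log_le_log hq0 hqe
    rw [Real.log_exp] at this
    linarith
  have hQ0 : 0 < - Real.log q := by linarith
  obtain ⟨x, hxdef⟩ : ∃ x, x = Real.log n := ⟨_, rfl⟩
  obtain ⟨Q, hQdef⟩ : ∃ Q, Q = - Real.log q := ⟨_, rfl⟩
  rw [← hxdef] at hx hQx hacc hc' ⊢
  rw [← hQdef] at hQx hacc hc' hQ1 hQ0 ⊢
  have hx0 : 0 < x := by linarith
  have hB1 : (1 : ℝ) ≤ B := (Real.one_le_exp (by norm_num)).trans hB
  have hB0 : 0 < B := by linarith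
  obtain ⟨L, hLdef⟩ : ∃ L, L = nearL x Q τ₀ B := ⟨_, rfl⟩
  rw [← hLdef]
  have hMpos : (0 : ℝ) < M := by
    have : (1 : ℝ) ≤ M := by exact_mod_cast hM
    linarith
  have hτ0' : (T : ℝ) / M ≤ 1 / 8 := by linarith
  have hC₀ : 1 ≤ (x / Q + 1) / τ₀ := by
    rw [le_div_iff₀ hτ₀]
    have : 0 ≤ x / Q := by positivity
    linarith
  have hℓ : 0 ≤ x + 1 - Q := by linarith
  have hL1 : (x / Q + 1) / τ₀ * B * Real.exp ((4 / 3) * ((x + 1 - Q) / Q) * Real.log x) *
      Real.exp ((8 / 3) * ((T : ℝ) / M) * (x + 1 - Q)) ≤ L := by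
    rw [hLdef]
    refine le_trans ?_ (le_max_left _ _)
    have h1 : (8 / 3) * ((T : ℝ) / M) * (x + 1 - Q) ≤ (16 / 3) * τ₀ * (x + 1 - Q) := by
      apply mul_le_mul_of_nonneg_right _ hℓ
      linarith
    have h2 := Real.exp_le_exp.2 h1
    apply mul_le_mul_of_nonneg_left h2
    positivity
  have hL2 : x / Real.log B ≤ L * Real.exp (x - Q) := by
    rw [hLdef]
    have h1 : (x / Real.log B) / Real.exp (x - Q) ≤ nearL x Q τ₀ B := le_max_right _ _
    rwa [div_le_iff₀ (Real.exp_pos _)] at h1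
  have hL1' : 1 ≤ L := by
    refine le_trans ?_ hL1
    have h3 : (1 : ℝ) ≤ Real.exp ((4 / 3) * ((x + 1 - Q) / Q) * Real.log x) :=
      Real.one_le_exp (by
        have := Real.log_nonneg hx
        positivity)
    have h4 : (1 : ℝ) ≤ Real.exp ((8 / 3) * ((T : ℝ) / M) * (x + 1 - Q)) :=
      Real.one_le_exp (by positivity)
    have h5 : (1 : ℝ) ≤ (x / Q + 1) / τ₀ * B := by nlinarith
    calc (1 : ℝ) = 1 * 1 * 1 := by norm_num
      _ ≤ _ := by gcongr
  obtain ⟨K, hKdef⟩ : ∃ K, K = 2 * L := ⟨_, rfl⟩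
  have hK1 : 1 ≤ K := by linarith
  have hK0 : (0 : ℝ) < K := by linarith
  subst hxdef hQdef
  have hmain := emb_bound_near (F := F) hG hq0 hq1 hn hV hM hT hw hs hx hQ0 hQx hτ0' hacc hB hC₀ hc' hL1
    hL2 hKdef hK1
  refine hmain.trans ?_
  set e := (eIn F univ).card with he
  set v := Fintype.card β with hv
  have hve : v ≤ 2 * e := (vertices_le_darts hiso).trans darts_card_le
  have hnd := pow_le_exp_descFactorial hvn
  set d : ℝ := (n.descFactorial v : ℝ) with hd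
  have hd0 : 0 ≤ d := Nat.cast_nonneg _
  set E := Real.exp 1 with hE
  have hE1 : 1 ≤ E := Real.one_le_exp (by norm_num)
  have h2 : Real.exp 2 = E ^ 2 := by
    rw [hE, ← Real.exp_nat_mul]
    norm_num
  have h6 : Real.exp 6 = E ^ 6 := by
    rw [hE, ← Real.exp_nat_mul]
    norm_num
  rw [h2, h6]
  have hb : (1 : ℝ) ≤ 8 * E ^ 3 := by
    have : (1 : ℝ) ≤ E ^ 3 := one_le_pow₀ hE1
    linarith
  have hpow : (8 * E ^ 3) ^ v ≤ (8 * E ^ 3) ^ (2 * e) := pow_le_pow_right₀ hb hve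
  have e0 : (0 : ℝ) ≤ E := by linarith
  calc 4 ^ e * ((8 * E ^ 2) ^ v * K ^ e * ((n : ℝ) ^ v * q ^ e))
      ≤ 4 ^ e * ((8 * E ^ 2) ^ v * K ^ e * ((E ^ v * d) * q ^ e)) := by
        gcongr
    _ = (8 * E ^ 3) ^ v * (4 ^ e * K ^ e * q ^ e * d) := by
        have : (8 * E ^ 3) ^ v = (8 * E ^ 2) ^ v * E ^ v := by
          rw [← mul_pow]
          ring_nf
        rw [this]
        ring
    _ ≤ (8 * E ^ 3) ^ (2 * e) * (4 ^ e * K ^ e * q ^ e * d) := by
        gcongr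
    _ = (256 * E ^ 6 * K * q) ^ e * d := by
        have h8 : (256 * E ^ 6 * K * q) ^ e =
            (8 * E ^ 3) ^ (2 * e) * 4 ^ e * K ^ e * q ^ e := by
          rw [pow_mul (8 * E ^ 3) 2 e, ← mul_pow, ← mul_pow, ← mul_pow]
          congr 1
          ring
        rw [h8]
        ring
    _ = _ := by
        congr 2
        rw [hKdef]
        ring

end Vale.Agent.Lib.P064N
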