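import Mathlib

/-!
Real arithmetic for the global bound: the loss factor `G = (log log n) ^ (1/16)`.
-/

namespace Vale.Agent.Lib.P064N

/-- The gain factor. -/
noncomputable def gainG (y : ℝ) : ℝ := y ^ ((1 : ℝ) / 16)

lemma gainG_pos {y : ℝ} (hy : 0 < y) : 0 < gainG y := Real.rpow_pos_of_pos hy _

lemma gainG_eq_exp {y : ℝ} (hy : 0 < y) : gainG y = Real.exp (Real.log y / 16) := by
  unfold gainG
  rw [Real.rpow_def_of_pos hy]
  congr 1
  ring

lemma gainG_le_self {y : ℝ} (hy : 1 ≤ y) : gainG y ≤ y := by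
  unfold gainG
  calc y ^ ((1 : ℝ) / 16) ≤ y ^ (1 : ℝ) :=
        Real.rpow_le_rpow_of_exponent_le hy (by norm_num)
    _ = y := Real.rpow_one y

lemma one_le_gainG {y : ℝ} (hy : 1 ≤ y) : 1 ≤ gainG y := by
  unfold gainG
  exact Real.one_le_rpow hy (by norm_num)

lemma gainG_le_exp {y : ℝ} (hy : 0 < y) : gainG y ≤ Real.exp (y / 16) := by
  rw [gainG_eq_exp hy]
  apply Real.exp_le_exp.2
  have := Real.log_le_sub_one_of_pos hy
  linarith

/-- `G ≤ x` for `x = exp y ≥ 1`, in the form used for small `n`. -/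
lemma gainG_le_of_log {x : ℝ} (hx : 1 < x) : gainG (Real.log x) ≤ x := by
  have hy : 0 < Real.log x := Real.log_pos hx
  have h1 : Real.log x ≤ x - 1 := Real.log_le_sub_one_of_pos (by linarith)
  by_cases h : 1 ≤ Real.log x
  · have := gainG_le_self h
    linarith
  · push Not at h
    have h2 : gainG (Real.log x) ≤ 1 := by
      unfold gainG
      exact Real.rpow_le_one hy.le h.le (by norm_num)
    linarith

/-- The estimate of the first range: the first term of `nearL`. -/
lemma first_term_bound {x y Q ℓ τ B : ℝ} (hy : 8 ≤ y) (hxy : x = Real.exp y) (hQ2 : x / 2 ≤ Q)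
    (hℓdef : ℓ = x + 1 - Q) (hℓ0 : 0 ≤ ℓ) (hℓ : ℓ ≤ 3 + y / 8) (hτ : τ = 1 / 16)
    (hB : B = Real.exp (y / 8)) :
    ((x / Q + 1) / τ) * B * Real.exp ((4 / 3) * (ℓ / Q) * y) * Real.exp ((16 / 3) * τ * ℓ) ≤
      48 * Real.exp 4 * Real.exp (y / 6) := by
  have hx0 : 0 < x := by rw [hxy]; exact Real.exp_pos y
  have hQ0 : 0 < Q := by linarith
  have hy0 : 0 < y := by linarith
  have hquad : y ^ 2 / 2 ≤ x := by
    rw [hxy]
    have := Real.quadratic_le_exp_of_nonneg hy0.le
    nlinarith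
  have h1 : x / Q + 1 ≤ 3 := by
    have : x / Q ≤ 2 := by
      rw [div_le_iff₀ hQ0]
      linarith
    linarith
  have h1' : 0 ≤ x / Q + 1 := by positivity
  have h2 : (4 / 3) * (ℓ / Q) * y ≤ 3 := by
    have h3 : ℓ / Q ≤ (3 + y / 8) / (x / 2) := by
      apply div_le_div₀ (by positivity) hℓ (by positivity) hQ2
    have h4 : (3 + y / 8) * y ≤ y ^ 2 / 2 := by nlinarith
    have h5 : (3 + y / 8) / (x / 2) * y ≤ 2 := by
      have h6 : (3 + y / 8) / (x / 2) * y = ((3 + y / 8) * y) / (x / 2) := by ring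
      rw [h6, div_le_iff₀ (by positivity)]
      nlinarith
    have h7 : ℓ / Q * y ≤ 2 :=
      (mul_le_mul_of_nonneg_right h3 hy0.le).trans h5
    have h8 : (4 / 3) * (ℓ / Q) * y = (4 / 3) * (ℓ / Q * y) := by ring
    rw [h8]
    linarith
  have h3 : (16 / 3) * τ * ℓ ≤ 1 + y / 24 := by
    rw [hτ]
    nlinarith
  have h4 : Real.exp ((4 / 3) * (ℓ / Q) * y) ≤ Real.exp 3 := Real.exp_le_exp.2 h2
  have h5 : Real.exp ((16 / 3) * τ * ℓ) ≤ Real.exp (1 + y / 24) := Real.exp_le_exp.2 h3
  have hτ' : (x / Q + 1) / τ ≤ 48 := by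
    rw [hτ]
    have : (x / Q + 1) / (1 / 16) = 16 * (x / Q + 1) := by ring
    rw [this]
    linarith
  have hτ0 : 0 ≤ (x / Q + 1) / τ := by
    rw [hτ]
    positivity
  have hBpos : 0 < B := by rw [hB]; exact Real.exp_pos _
  calc ((x / Q + 1) / τ) * B * Real.exp ((4 / 3) * (ℓ / Q) * y) * Real.exp ((16 / 3) * τ * ℓ)
      ≤ 48 * B * Real.exp 3 * Real.exp (1 + y / 24) := by
        apply mul_le_mul _ h5 (Real.exp_pos _).le (by positivity)
        apply mul_le_mul _ h4 (Real.exp_pos _).le (by positivity)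
        exact mul_le_mul_of_nonneg_right hτ' hBpos.le
    _ = 48 * Real.exp 4 * Real.exp (y / 6) := by
        rw [hB]
        have h6 : Real.exp (y / 8) * Real.exp 3 * Real.exp (1 + y / 24) =
            Real.exp 4 * Real.exp (y / 6) := by
          rw [← Real.exp_add, ← Real.exp_add, ← Real.exp_add]
          congr 1
          ring
        calc 48 * Real.exp (y / 8) * Real.exp 3 * Real.exp (1 + y / 24)
            = 48 * (Real.exp (y / 8) * Real.exp 3 * Real.exp (1 + y / 24)) := by ring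
          _ = 48 * Real.exp 4 * Real.exp (y / 6) := by rw [h6]; ring

/-- `exp (y / 6) ≤ x / G`. -/
lemma exp_sixth_le {x y : ℝ} (hy : 1 ≤ y) (hxy : x = Real.exp y) :
    Real.exp (y / 6) ≤ x / gainG y := by
  have hy0 : 0 < y := by linarith
  have hG := gainG_pos hy0
  rw [le_div_iff₀ hG]
  calc Real.exp (y / 6) * gainG y ≤ Real.exp (y / 6) * Real.exp (y / 16) :=
        mul_le_mul_of_nonneg_left (gainG_le_exp hy0) (Real.exp_pos _).le
    _ = Real.exp (y / 6 + y / 16) := by rw [Real.exp_add]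
    _ ≤ x := by
        rw [hxy]
        apply Real.exp_le_exp.2
        linarith

/-- The range with `Λ y` large: the sharp factor. -/
lemma sharp_factor {x y y' p N Λ a : ℝ} (hy : 64 ≤ y) (hxy : x = Real.exp y) (hy' : y' = Real.log y)
    (hN : N = Real.exp x) (hp : 0 < p) (hp1 : p ≤ 1) (hΛ : Λ = Real.log (Real.exp 1 + N * p))
    (hR3 : x * y' < 16 * Λ * y) (ha : a = Real.log (1 / p) / x) :
    (1 + x) ^ (min 1 a) ≤ 2 * Real.exp 1 * (x / gainG y) := by
  have hy0 : 0 < y := by linarith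
  have hx0 : 0 < x := by rw [hxy]; exact Real.exp_pos y
  have hN0 : 0 < N := by rw [hN]; exact Real.exp_pos x
  have hquad : y ^ 2 / 2 ≤ x := by
    rw [hxy]
    have := Real.quadratic_le_exp_of_nonneg hy0.le
    nlinarith
  have hx1 : 1 ≤ x := by nlinarith
  have hlogx : Real.log x = y := by rw [hxy, Real.log_exp]
  have hxyle : y ≤ x := by nlinarith
  have hy'1 : 1 ≤ y' := by
    rw [hy']
    have h1 : Real.log (Real.exp 1) ≤ Real.log y :=
      Real.log_le_log (Real.exp_pos 1) (by have := Real.exp_one_lt_d9; linarith)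
    rwa [Real.log_exp] at h1
  have hΛ2 : 2 ≤ Λ := by
    -- from `x * y' < 16 Λ y` and `x ≥ y² / 2 ≥ 32 y`
    have h1 : 32 * y ≤ x := by nlinarith
    have h2 : 32 * y * 1 ≤ x * y' := mul_le_mul h1 hy'1 (by norm_num) hx0.le
    have h3 : 32 * y < 16 * Λ * y := by linarith
    have h4 : 32 < 16 * Λ := by
      by_contra h
      push Not at h
      nlinarith
    linarith
  have hNp : 2 ≤ N * p := by
    have h1 : Real.exp 2 ≤ Real.exp Λ := Real.exp_le_exp.2 hΛ2
    have hpos : 0 < Real.exp 1 + N * p := by positivity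
    have h2 : Real.exp Λ = Real.exp 1 + N * p := by rw [hΛ, Real.exp_log hpos]
    have h3 : Real.exp 2 = Real.exp 1 * Real.exp 1 := by rw [← Real.exp_add]; norm_num
    have h4 : (2.7 : ℝ) ≤ Real.exp 1 := by have := Real.exp_one_gt_d9; linarith
    have h5 : Real.exp 1 < 2.72 := by have := Real.exp_one_lt_d9; linarith
    nlinarith
  obtain ⟨t, ht⟩ : ∃ t, t = Real.log (N * p) := ⟨_, rfl⟩
  have hNp0 : 0 < N * p := by positivity
  have ht1 : Λ ≤ 1 + t := by
    have h1 : Real.exp 1 + N * p ≤ Real.exp 1 * (N * p) := by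
      have h4 : (2.7 : ℝ) ≤ Real.exp 1 := by have := Real.exp_one_gt_d9; linarith
      nlinarith
    have h2 := Real.log_le_log (by positivity) h1
    rw [← hΛ, Real.log_mul (Real.exp_pos 1).ne' hNp0.ne', Real.log_exp, ← ht] at h2
    exact h2
  have ht0 : 0 ≤ t := by
    rw [ht]
    exact Real.log_nonneg (by linarith)
  have hlogp : Real.log (1 / p) = x - t := by
    rw [ht, Real.log_mul hN0.ne' hp.ne', hN, Real.log_exp, one_div, Real.log_inv]
    ring
  have ha' : a = 1 - t / x := by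
    rw [ha, hlogp]
    field_simp
  have hbase : 1 ≤ 1 + x := by linarith
  have hmin : min 1 a ≤ 1 - t / x := by
    rw [ha']
    exact min_le_right _ _
  have h1 : (1 + x) ^ (min 1 a) ≤ (1 + x) ^ (1 - t / x) :=
    Real.rpow_le_rpow_of_exponent_le hbase hmin
  have h2 : (1 + x) ^ (1 - t / x) = (1 + x) * (1 + x) ^ (- (t / x)) := by
    rw [sub_eq_add_neg, Real.rpow_add (by linarith), Real.rpow_one]
  have h3 : (1 + x) ^ (- (t / x)) ≤ x ^ (- (t / x)) := by
    apply Real.rpow_le_rpow_of_nonpos hx0 (by linarith)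
    have : 0 ≤ t / x := by positivity
    linarith
  have h4 : x ^ (- (t / x)) = Real.exp (- (t * y / x)) := by
    rw [Real.rpow_def_of_pos hx0, hlogx]
    congr 1
    ring
  have h5 : - (t * y / x) ≤ 1 - Real.log y / 16 := by
    have h6 : (Λ - 1) * y ≤ t * y := mul_le_mul_of_nonneg_right (by linarith) hy0.le
    have h7 : t * y / x ≥ (Λ - 1) * y / x := div_le_div_of_nonneg_right h6 hx0.le
    have h8 : y / x ≤ 1 := (div_le_one hx0).2 hxyle
    have h9 : y' / 16 ≤ Λ * y / x := by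
      rw [le_div_iff₀ hx0]
      nlinarith
    have h10 : (Λ - 1) * y / x = Λ * y / x - y / x := by ring
    rw [← hy']
    linarith
  have h6 : Real.exp (- (t * y / x)) ≤ Real.exp 1 * (1 / gainG y) := by
    have h7 : Real.exp (- (t * y / x)) ≤ Real.exp (1 - Real.log y / 16) := Real.exp_le_exp.2 h5
    have h8 : Real.exp (1 - Real.log y / 16) = Real.exp 1 * (1 / gainG y) := by
      rw [gainG_eq_exp hy0, sub_eq_add_neg, Real.exp_add, Real.exp_neg, one_div]
    linarith
  have hG := gainG_pos hy0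
  calc (1 + x) ^ (min 1 a) ≤ (1 + x) * (1 + x) ^ (- (t / x)) := by rw [← h2]; exact h1
    _ ≤ (2 * x) * (Real.exp 1 * (1 / gainG y)) := by
        apply mul_le_mul (by linarith) _ (by positivity) (by positivity)
        exact h3.trans (by rw [h4]; exact h6)
    _ = 2 * Real.exp 1 * (x / gainG y) := by ring

/-- The middle range: the bracket of `near_thresholds`. -/
lemma middle_factor {x y y' p N Λ : ℝ} (hy : 64 ≤ y) (hxy : x = Real.exp y) (hy' : y' = Real.log y)
    (hN : N = Real.exp x) (hp : 0 < p) (hΛ0 : 0 ≤ Λ)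
    (hR2 : 16 * Λ * y ≤ x * y') (hlarge : Real.exp (y / 8) ≤ N * p) :
    p * Λ * x ^ (11 * Λ / x) + x / N ≤ 2 * (p * (x / gainG y)) := by
  have hy0 : 0 < y := by linarith
  have hx0 : 0 < x := by rw [hxy]; exact Real.exp_pos y
  have hN0 : 0 < N := by rw [hN]; exact Real.exp_pos x
  have hG := gainG_pos hy0
  have hlogx : Real.log x = y := by rw [hxy, Real.log_exp]
  have hy'le : y' ≤ 16 * gainG y ^ 4 := by
    -- `log y = 4 log (y^(1/4)) ≤ 4 y^(1/4)`, and `y^(1/4) = G^4`
    have h1 : gainG y ^ 4 = y ^ ((1 : ℝ) / 4) := by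
      unfold gainG
      rw [← Real.rpow_natCast, ← Real.rpow_mul hy0.le]
      norm_num
    rw [h1, hy']
    have h2 : Real.log (y ^ ((1 : ℝ) / 4)) = (1 / 4) * Real.log y := Real.log_rpow hy0 _
    have h3 := Real.log_le_sub_one_of_pos (Real.rpow_pos_of_pos hy0 ((1 : ℝ) / 4))
    rw [h2] at h3
    have h4 := Real.rpow_pos_of_pos hy0 ((1 : ℝ) / 4)
    linarith
  have hy'0 : 0 ≤ y' := by
    rw [hy']
    exact Real.log_nonneg (by linarith)
  have h1 : x ^ (11 * Λ / x) ≤ Real.exp (11 * y' / 16) := by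
    rw [Real.rpow_def_of_pos hx0, hlogx]
    apply Real.exp_le_exp.2
    have h2 : y * (11 * Λ / x) = 11 * (Λ * y) / x := by ring
    rw [h2, div_le_iff₀ hx0]
    nlinarith
  have h2 : Real.exp (11 * y' / 16) = gainG y ^ 11 := by
    rw [gainG_eq_exp hy0, ← Real.exp_nat_mul, ← hy']
    congr 1
    push_cast
    ring
  have hy1 : y = gainG y ^ 16 := by
    unfold gainG
    rw [← Real.rpow_natCast, ← Real.rpow_mul hy0.le]
    norm_num
  have hG4 : 0 < gainG y ^ 4 := by positivity
  -- `Λ ≤ x y' / (16 y)`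
  have h3 : Λ * gainG y ^ 11 * gainG y ≤ x := by
    have h4 : 16 * Λ * y ≤ x * (16 * gainG y ^ 4) :=
      hR2.trans (mul_le_mul_of_nonneg_left hy'le hx0.le)
    have h5 : Λ * gainG y ^ 16 ≤ x * gainG y ^ 4 := by
      rw [← hy1]
      linarith
    have h6 : Λ * gainG y ^ 16 = (Λ * gainG y ^ 11 * gainG y) * gainG y ^ 4 := by ring
    rw [h6] at h5
    exact le_of_mul_le_mul_right h5 hG4
  have h4 : Λ * x ^ (11 * Λ / x) ≤ x / gainG y := by
    rw [le_div_iff₀ hG]
    calc Λ * x ^ (11 * Λ / x) * gainG y ≤ Λ * gainG y ^ 11 * gainG y := by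
          apply mul_le_mul_of_nonneg_right _ hG.le
          apply mul_le_mul_of_nonneg_left _ hΛ0
          rw [← h2]
          exact h1
      _ ≤ x := h3
  have h5 : x / N ≤ p * (x / gainG y) := by
    have h6 : gainG y ≤ N * p := (gainG_le_exp hy0).trans
      ((Real.exp_le_exp.2 (by linarith)).trans hlarge)
    have h7 : x / N = (x * p) / (N * p) := by field_simp
    have h8 : (x * p) / (N * p) ≤ (x * p) / gainG y :=
      div_le_div_of_nonneg_left (by positivity) hG h6
    have h9 : (x * p) / gainG y = p * (x / gainG y) := by ring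
    rw [h7]
    linarith
  have h6 : p * Λ * x ^ (11 * Λ / x) ≤ p * (x / gainG y) := by
    have h7 : p * Λ * x ^ (11 * Λ / x) = p * (Λ * x ^ (11 * Λ / x)) := by ring
    rw [h7]
    exact mul_le_mul_of_nonneg_left h4 hp.le
  linarith

end Vale.Agent.Lib.P064N
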