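import Vale.Agent.Lib.P064N.Thresh
import Vale.Agent.Lib.P064.SharpFinal
import Vale.Agent.Lib.P064N.GlobalNum

/-!
The global bound: for `p_E ≥ 1 / (3 n)`, a gain of a power of `log log n` over `log n`.
-/

open Finset

namespace Vale.Agent.Lib.P064N

open Vale.Agent.Lib.P064

open scoped Classical

variable {V : Type} [Fintype V] {H : SimpleGraph V} {n : ℕ}

/-- The near critical range: heavy arcs with a large threshold `B`. -/
theorem global_near (hn : 2 ≤ n) (hV : Fintype.card V ≤ n) (hH : H ≠ ⊥)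
    (hy : 64 ≤ Real.log (Real.log n)) (hp3 : 1 / (3 * (n : ℝ)) ≤ pE n H)
    (hlarge : (n : ℝ) * pE n H ≤ Real.exp (Real.log (Real.log n) / 8)) :
    ∃ Θ : ℝ, 0 < Θ ∧ EmbBound n H Θ ∧
      Θ ≤ 512 * Real.exp 6 * (432 * Real.exp 4 + 24) *
        (pE n H * (Real.log n / gainG (Real.log (Real.log n)))) := by
  have hE0 := pE_pos hn hV hH
  have hn2 : (2 : ℝ) ≤ n := by exact_mod_cast hn
  have hn0 : (0 : ℝ) < n := by linarith
  obtain ⟨x, hxdef⟩ : ∃ x, x = Real.log n := ⟨_, rfl⟩
  obtain ⟨y, hydef⟩ : ∃ y, y = Real.log x := ⟨_, rfl⟩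
  obtain ⟨p, hpdef⟩ : ∃ p, p = pE n H := ⟨_, rfl⟩
  rw [← hxdef, ← hydef] at hy hlarge ⊢
  rw [← hpdef] at hp3 hlarge hE0 ⊢
  have hy0 : 0 < y := by linarith
  -- `x = exp y`
  have hx0 : 0 < x := by
    rw [hxdef]
    exact Real.log_pos (by linarith)
  have hxy : x = Real.exp y := by rw [hydef, Real.exp_log hx0]
  have hquad : y ^ 2 / 2 ≤ x := by
    rw [hxy]
    have := Real.quadratic_le_exp_of_nonneg hy0.le
    nlinarith
  have hx100 : 100 ≤ x := by nlinarith
  have hyx : y ≤ x := by nlinarith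
  have hnexp : (n : ℝ) = Real.exp x := by rw [hxdef, Real.exp_log hn0]
  obtain ⟨E, hEdef⟩ : ∃ E, E = Real.exp 1 := ⟨_, rfl⟩
  have hE2 : 2 ≤ E := by rw [hEdef]; exact two_le_exp_one
  have hE3 : E ≤ 3 := by rw [hEdef]; exact exp_one_le_three
  obtain ⟨q, hqdef⟩ : ∃ q, q = max (4 * p) (E / n) := ⟨_, rfl⟩
  have hq1 : 4 * p ≤ q := by rw [hqdef]; exact le_max_left _ _
  have hq2 : E / n ≤ q := by rw [hqdef]; exact le_max_right _ _
  have hq0 : 0 < q := by linarith
  have h1n : 1 / (n : ℝ) ≤ 3 * p := by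
    have h1 : 1 / (3 * (n : ℝ)) = (1 / (n : ℝ)) / 3 := by field_simp
    rw [h1, div_le_iff₀ (by norm_num)] at hp3
    linarith
  have hq9 : q ≤ 9 * p := by
    rw [hqdef]
    apply max_le (by linarith)
    have h1 : E / n = E * (1 / (n : ℝ)) := by ring
    rw [h1]
    have h2 : 0 < 1 / (n : ℝ) := by positivity
    nlinarith
  obtain ⟨K, hKdef⟩ : ∃ K, K = n * q := ⟨_, rfl⟩
  obtain ⟨Q, hQdef⟩ : ∃ Q, Q = - Real.log q := ⟨_, rfl⟩
  have hKE : E ≤ K := by
    rw [hKdef]
    have h1 := mul_le_mul_of_nonneg_left hq2 hn0.le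
    have h2 : (n : ℝ) * (E / n) = E := by field_simp
    linarith
  have hK0 : 0 < K := by linarith
  have hexp1 : 1 ≤ Real.exp (y / 8) := Real.one_le_exp (by linarith)
  have hKup : K ≤ 4 * Real.exp (y / 8) := by
    rw [hKdef, hqdef]
    apply (mul_max_of_nonneg _ _ hn0.le).le.trans
    apply max_le
    · nlinarith
    · have h2 : (n : ℝ) * (E / n) = E := by field_simp
      rw [h2]
      linarith
  have hlogK : Real.log K = x - Q := by
    rw [hKdef, Real.log_mul hn0.ne' hq0.ne', ← hxdef, hQdef]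
    ring
  have hlK1 : 1 ≤ Real.log K := by
    have h1 := Real.log_le_log (by positivity) hKE
    rw [hEdef, Real.log_exp] at h1
    exact h1
  have hlK2 : Real.log K ≤ 2 + y / 8 := by
    have h1 := Real.log_le_log hK0 hKup
    rw [Real.log_mul (by norm_num) (Real.exp_pos _).ne', Real.log_exp] at h1
    have h2 : Real.log 4 ≤ 2 := by
      have h3 : Real.log 4 = 2 * Real.log 2 := by
        rw [show (4 : ℝ) = 2 ^ 2 by norm_num, Real.log_pow]
        norm_num
      have := Real.log_two_lt_d9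
      rw [h3]
      linarith
    linarith
  have hQ2 : x / 2 ≤ Q := by linarith
  have hQx : Q ≤ x - 1 := by linarith
  have hQ1 : 1 ≤ Q := by linarith
  have hqe : q ≤ Real.exp (-1) := by
    have h1 : Real.log q ≤ -1 := by rw [hQdef] at hQ1; linarith
    calc q = Real.exp (Real.log q) := (Real.exp_log hq0).symm
      _ ≤ Real.exp (-1) := Real.exp_le_exp.2 h1
  have hG : GoodDensity n q H := good_of_pE hn hV hH (by rw [← hpdef]; exact hq1)
  obtain ⟨B, hBdef⟩ : ∃ B, B = Real.exp (y / 8) := ⟨_, rfl⟩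
  have hB : Real.exp 1 ≤ B := by
    rw [hBdef]
    apply Real.exp_le_exp.2
    linarith
  have hEb := embBound_near (q := q) hn hV hq0 hqe hG (by rw [← hxdef]; linarith)
    (by rw [← hxdef, ← hQdef]; linarith) (τ₀ := 1 / 16) (by norm_num) (le_refl _) hB
  rw [← hxdef, ← hQdef] at hEb
  have hGp := gainG_pos hy0
  have hGy : gainG y ≤ y := gainG_le_self (by linarith)
  have hlogx : Real.log x = y := hydef.symm
  have hlogB : Real.log B = y / 8 := by rw [hBdef, Real.log_exp]
  have hexpK : Real.exp (x - Q) = K := by rw [← hlogK, Real.exp_log hK0]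
  -- the two terms
  have hA1 : ((x / Q + 1) / (1 / 16)) * B * Real.exp ((4 / 3) * ((x + 1 - Q) / Q) * Real.log x) *
      Real.exp ((16 / 3) * (1 / 16) * (x + 1 - Q)) ≤ 48 * Real.exp 4 * Real.exp (y / 6) := by
    rw [hlogx]
    exact first_term_bound (by linarith) hxy hQ2 rfl (by linarith) (by linarith) rfl hBdef
  have hsix := exp_sixth_le (x := x) (y := y) (by linarith) hxy
  have hE4 : 0 < Real.exp 4 := Real.exp_pos 4
  have hXG : 0 < x / gainG y := by positivity
  have hL1 : ((x / Q + 1) / (1 / 16)) * B * Real.exp ((4 / 3) * ((x + 1 - Q) / Q) * Real.log x) *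
      Real.exp ((16 / 3) * (1 / 16) * (x + 1 - Q)) * q ≤
      (432 * Real.exp 4 + 24) * (p * (x / gainG y)) := by
    have hQ0 : 0 < Q := by linarith
    have hA0 : 0 ≤ ((x / Q + 1) / (1 / 16)) * B *
        Real.exp ((4 / 3) * ((x + 1 - Q) / Q) * Real.log x) *
        Real.exp ((16 / 3) * (1 / 16) * (x + 1 - Q)) := by
      have hB0 : 0 < B := lt_of_lt_of_le (Real.exp_pos 1) hB
      positivity
    calc _ ≤ (48 * Real.exp 4 * (x / gainG y)) * (9 * p) := by
          apply mul_le_mul _ hq9 hq0.le (by positivity)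
          apply hA1.trans
          exact mul_le_mul_of_nonneg_left hsix (by positivity)
      _ = 432 * Real.exp 4 * (p * (x / gainG y)) := by ring
      _ ≤ _ := by
          apply mul_le_mul_of_nonneg_right _ (by positivity)
          linarith
  have hL2 : (x / Real.log B) / Real.exp (x - Q) * q ≤
      (432 * Real.exp 4 + 24) * (p * (x / gainG y)) := by
    rw [hlogB, hexpK]
    have h1 : x / (y / 8) / K * q = 8 * (x / y) * (1 / (n : ℝ)) := by
      rw [hKdef]
      field_simp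
    rw [h1]
    have h2 : x / y ≤ x / gainG y := div_le_div_of_nonneg_left hx0.le hGp hGy
    have h3 : 0 < x / y := by positivity
    calc 8 * (x / y) * (1 / (n : ℝ)) ≤ 8 * (x / gainG y) * (3 * p) := by
          apply mul_le_mul _ h1n (by positivity) (by positivity)
          linarith
      _ = 24 * (p * (x / gainG y)) := by ring
      _ ≤ _ := by
          apply mul_le_mul_of_nonneg_right _ (by positivity)
          linarith
  have hL : nearL x Q (1 / 16) B * q ≤ (432 * Real.exp 4 + 24) * (p * (x / gainG y)) := by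
    unfold nearL
    rcases le_total ((((x / Q + 1) / (1 / 16)) * B *
        Real.exp ((4 / 3) * ((x + 1 - Q) / Q) * Real.log x) *
        Real.exp ((16 / 3) * (1 / 16) * (x + 1 - Q))))
        ((x / Real.log B) / Real.exp (x - Q)) with h | h
    · rw [max_eq_right h]
      exact hL2
    · rw [max_eq_left h]
      exact hL1
  have hL0 : 0 < nearL x Q (1 / 16) B := by
    unfold nearL
    apply lt_max_of_lt_right
    rw [hlogB]
    have : 0 < Real.exp (x - Q) := Real.exp_pos _
    positivity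
  refine ⟨_, by positivity, hEb, ?_⟩
  have h6 : 0 < 512 * Real.exp 6 := by positivity
  calc 512 * Real.exp 6 * nearL x Q (1 / 16) B * q
      = 512 * Real.exp 6 * (nearL x Q (1 / 16) B * q) := by ring
    _ ≤ 512 * Real.exp 6 * ((432 * Real.exp 4 + 24) * (p * (x / gainG y))) :=
        mul_le_mul_of_nonneg_left hL h6.le
    _ = _ := by ring

/-- `8 p √n ≤ 1` from `log (e + n p) ≤ log n / 4`. -/
lemma sqrt_of_lambda {x p N Λ : ℝ} (hc : 100 ≤ x) (hN : N = Real.exp x) (hp : 0 < p)
    (hΛ : Λ = Real.log (Real.exp 1 + N * p)) (hΛ4 : Λ ≤ x / 4) : 8 * p * Real.sqrt N ≤ 1 := by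
  have hN0 : 0 < N := by rw [hN]; exact Real.exp_pos x
  have hsq : Real.sqrt N = Real.exp (x / 2) := by
    rw [hN, Real.sqrt_eq_iff_mul_self_eq (Real.exp_pos _).le (Real.exp_pos _).le,
      ← Real.exp_add]
    congr 1
    ring
  have hnp : 0 < N * p := by positivity
  have h1 : N * p ≤ Real.exp (x / 4) := by
    have h2 : Real.exp Λ = Real.exp 1 + N * p := by
      rw [hΛ, Real.exp_log (by positivity)]
    have h3 : Real.exp Λ ≤ Real.exp (x / 4) := Real.exp_le_exp.2 hΛ4
    have h4 := Real.exp_pos 1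
    linarith
  have h6 : p * Real.sqrt N = (N * p) * Real.exp (- (x / 2)) := by
    rw [hsq]
    have h7 : Real.exp (x / 2) = N * Real.exp (- (x / 2)) := by
      rw [hN, ← Real.exp_add]
      congr 1
      ring
    rw [h7]
    ring
  have h8 : (N * p) * Real.exp (- (x / 2)) ≤ Real.exp (x / 4) * Real.exp (- (x / 2)) :=
    mul_le_mul_of_nonneg_right h1 (Real.exp_pos _).le
  have h9 : Real.exp (x / 4) * Real.exp (- (x / 2)) = Real.exp (- (x / 4)) := by
    rw [← Real.exp_add]
    congr 1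
    ring
  have h10 : 8 * Real.exp (- (x / 4)) ≤ 1 := by
    have h11 : Real.exp (- (x / 4)) * Real.exp (x / 4) = 1 := by
      rw [← Real.exp_add]
      simp
    have h12 : 8 ≤ Real.exp (x / 4) := by
      have := Real.add_one_le_exp (x / 4)
      linarith
    have h13 := Real.exp_pos (- (x / 4))
    nlinarith
  have h14 : 8 * p * Real.sqrt N = 8 * (p * Real.sqrt N) := by ring
  rw [h14, h6]
  linarith

section Cases

variable {x y p : ℝ}

lemma case_small (hn : 3 ≤ n) (hV : Fintype.card V ≤ n) (hH : H ≠ ⊥)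
    (hxdef : x = Real.log n) (hydef : y = Real.log x) (hpdef : p = pE n H)
    (hp3 : 1 / (3 * (n : ℝ)) ≤ p) (hsmall : y < 64) :
    pTilde n H ≤ 3 * Real.exp (Real.exp 64) * (p * (x / gainG y)) ∧
      pc n H ≤ 3 * Real.exp (Real.exp 64) * (p * (x / gainG y)) * x := by
  have hn3 : (3 : ℝ) ≤ n := by exact_mod_cast hn
  have hn0 : (0 : ℝ) < n := by linarith
  have hE0 : 0 < p := by rw [hpdef]; exact pE_pos (by omega) hV hH
  have hx1 : 1 < x := by
    rw [hxdef]
    have h1 : Real.log (Real.exp 1) < Real.log n :=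
      Real.log_lt_log (Real.exp_pos 1) (by have := Real.exp_one_lt_d9; linarith)
    rwa [Real.log_exp] at h1
  have hx0 : 0 < x := by linarith
  have hy0 : 0 < y := by rw [hydef]; exact Real.log_pos hx1
  have hGp := gainG_pos hy0
  have hxy : x = Real.exp y := by rw [hydef, Real.exp_log hx0]
  have hnexp : (n : ℝ) = Real.exp x := by rw [hxdef, Real.exp_log hn0]
  have hxlt : x < Real.exp 64 := by
    rw [hxy]
    exact Real.exp_lt_exp.2 hsmall
  have hnlt : (n : ℝ) ≤ Real.exp (Real.exp 64) := by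
    rw [hnexp]
    exact Real.exp_le_exp.2 hxlt.le
  have h3np : 1 ≤ 3 * n * p := by
    rw [div_le_iff₀ (by positivity)] at hp3
    linarith
  obtain ⟨c0, hc0⟩ : ∃ c0, c0 = 3 * Real.exp (Real.exp 64) := ⟨_, rfl⟩
  rw [← hc0]
  have h1 : 1 ≤ c0 * p := by
    rw [hc0]
    have : 3 * n * p ≤ 3 * Real.exp (Real.exp 64) * p := by
      apply mul_le_mul_of_nonneg_right _ hE0.le
      linarith
    linarith
  have hGx : gainG y ≤ x := by rw [hydef]; exact gainG_le_of_log hx1
  have h2 : 1 ≤ x / gainG y := by rwa [one_le_div hGp]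
  have h3 : 1 ≤ c0 * (p * (x / gainG y)) := by
    have h4 : c0 * (p * (x / gainG y)) = (c0 * p) * (x / gainG y) := by ring
    rw [h4]
    nlinarith
  constructor
  · exact (pTilde_le_one (n := n) (H := H) hV).trans h3
  · have h4 : 1 ≤ c0 * (p * (x / gainG y)) * x := by nlinarith
    exact (pc_le_one (n := n) (H := H) hV).trans h4

lemma case_near (hn : 3 ≤ n) (hV : Fintype.card V ≤ n) (hH : H ≠ ⊥)
    (hxdef : x = Real.log n) (hydef : y = Real.log x) (hpdef : p = pE n H)
    (hp3 : 1 / (3 * (n : ℝ)) ≤ p) (hsmall : 64 ≤ y) (hR1 : (n : ℝ) * p ≤ Real.exp (y / 8)) :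
    pTilde n H ≤ 512 * Real.exp 6 * (432 * Real.exp 4 + 24) * (p * (x / gainG y)) ∧
      pc n H ≤ 512 * (512 * Real.exp 6 * (432 * Real.exp 4 + 24)) * (p * (x / gainG y)) * x := by
  subst hxdef hydef hpdef
  obtain ⟨Θ, hΘ0, hΘ, hΘle⟩ := global_near (H := H) (by omega) hV hH hsmall hp3 hR1
  have h1 := pTilde_le_of_embBound hV hΘ0 hΘ
  have h2 := pc_le_of_embBound (by omega) hV hH hΘ0 hΘ
  constructor
  · exact h1.trans hΘle
  · have hn3 : (3 : ℝ) ≤ n := by exact_mod_cast hn
    have hx0 : 0 < Real.log n := Real.log_pos (by linarith)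
    calc pc n H ≤ 512 * Real.log n * Θ := h2
      _ ≤ 512 * Real.log n * (512 * Real.exp 6 * (432 * Real.exp 4 + 24) *
            (pE n H * (Real.log n / gainG (Real.log (Real.log n))))) :=
          mul_le_mul_of_nonneg_left hΘle (by positivity)
      _ = _ := by ring

lemma case_middle {Cn : ℝ} (hCn : 0 < Cn)
    (hnear : pTilde n H ≤ Cn * (p * Real.log (Real.exp 1 + n * p) *
          x ^ (11 * Real.log (Real.exp 1 + n * p) / x) + x / n) ∧
      pc n H ≤ Cn * x * (p * Real.log (Real.exp 1 + n * p) *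
          x ^ (11 * Real.log (Real.exp 1 + n * p) / x) + x / n))
    (hxy : x = Real.exp y) (hnexp : (n : ℝ) = Real.exp x) (hE0 : 0 < p)
    (hsmall : 64 ≤ y) (hΛ0 : 0 ≤ Real.log (Real.exp 1 + n * p))
    (hR1 : Real.exp (y / 8) ≤ (n : ℝ) * p)
    (hR2 : 16 * Real.log (Real.exp 1 + n * p) * y ≤ x * Real.log y) :
    pTilde n H ≤ 2 * Cn * (p * (x / gainG y)) ∧ pc n H ≤ 2 * Cn * (p * (x / gainG y)) * x := by
  have hx0 : 0 < x := by rw [hxy]; exact Real.exp_pos y
  obtain ⟨h1, h2⟩ := hnear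
  have hb := middle_factor (p := p) (N := n) hsmall hxy rfl hnexp hE0 hΛ0 hR2 hR1
  constructor
  · calc pTilde n H ≤ _ := h1
      _ ≤ Cn * (2 * (p * (x / gainG y))) := mul_le_mul_of_nonneg_left hb hCn.le
      _ = _ := by ring
  · calc pc n H ≤ _ := h2
      _ ≤ Cn * x * (2 * (p * (x / gainG y))) :=
          mul_le_mul_of_nonneg_left hb (by positivity)
      _ = _ := by ring

lemma case_sharp {Cc Ct : ℝ} (hCc : 0 < Cc) (hCt : 0 < Ct)
    (h1 : pTilde n H ≤ Ct * p * (1 + x) ^ (min 1 (Real.log (1 / p) / x)))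
    (h2 : pc n H ≤ Cc * p * x * (1 + x) ^ (min 1 (Real.log (1 / p) / x)))
    (hxy : x = Real.exp y) (hnexp : (n : ℝ) = Real.exp x) (hE0 : 0 < p) (hE1 : p ≤ 1)
    (hsmall : 64 ≤ y)
    (hR2 : x * Real.log y < 16 * Real.log (Real.exp 1 + n * p) * y) :
    pTilde n H ≤ 2 * Real.exp 1 * Ct * (p * (x / gainG y)) ∧
      pc n H ≤ 2 * Real.exp 1 * Cc * (p * (x / gainG y)) * x := by
  have hx0 : 0 < x := by rw [hxy]; exact Real.exp_pos y
  have hb := sharp_factor (p := p) (N := n) hsmall hxy rfl hnexp hE0 hE1 rfl hR2 rfl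
  constructor
  · calc pTilde n H ≤ _ := h1
      _ ≤ Ct * p * (2 * Real.exp 1 * (x / gainG y)) :=
          mul_le_mul_of_nonneg_left hb (by positivity)
      _ = _ := by ring
  · calc pc n H ≤ _ := h2
      _ ≤ Cc * p * x * (2 * Real.exp 1 * (x / gainG y)) :=
          mul_le_mul_of_nonneg_left hb (by positivity)
      _ = _ := by ring

/-- The case split, with one coefficient per case. -/
lemma case_large {Cn Cc Ct : ℝ} (hCn : 0 < Cn) (hCc : 0 < Cc) (hCt : 0 < Ct)
    (hnear : 8 * pE n H * Real.sqrt n ≤ 1 →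
      pTilde n H ≤ Cn * (pE n H * Real.log (Real.exp 1 + n * pE n H) *
          (Real.log n) ^ (11 * Real.log (Real.exp 1 + n * pE n H) / Real.log n) +
          Real.log n / n) ∧
      pc n H ≤ Cn * Real.log n * (pE n H * Real.log (Real.exp 1 + n * pE n H) *
          (Real.log n) ^ (11 * Real.log (Real.exp 1 + n * pE n H) / Real.log n) +
          Real.log n / n))
    (hsc : pc n H ≤ Cc * pE n H * Real.log n *
        (1 + Real.log n) ^ (min 1 (Real.log (1 / pE n H) / Real.log n)))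
    (hst : pTilde n H ≤ Ct * pE n H *
        (1 + Real.log n) ^ (min 1 (Real.log (1 / pE n H) / Real.log n)))
    (hn : 3 ≤ n) (hV : Fintype.card V ≤ n) (hH : H ≠ ⊥)
    (hxdef : x = Real.log n) (hydef : y = Real.log x) (hpdef : p = pE n H)
    (hsmall : 64 ≤ y) (hR1 : Real.exp (y / 8) < (n : ℝ) * p) :
    (pTilde n H ≤ 2 * Cn * (p * (x / gainG y)) ∧ pc n H ≤ 2 * Cn * (p * (x / gainG y)) * x) ∨
    (pTilde n H ≤ 2 * Real.exp 1 * Ct * (p * (x / gainG y)) ∧
      pc n H ≤ 2 * Real.exp 1 * Cc * (p * (x / gainG y)) * x) := by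
  have hn3 : (3 : ℝ) ≤ n := by exact_mod_cast hn
  have hn0 : (0 : ℝ) < n := by linarith
  have hE0 : 0 < p := by rw [hpdef]; exact pE_pos (by omega) hV hH
  have hE1 : p ≤ 1 := by rw [hpdef]; exact pE_le_one hV
  have hx0 : 0 < x := by
    rw [hxdef]
    exact Real.log_pos (by linarith)
  have hy0 : 0 < y := by linarith
  have hxy : x = Real.exp y := by rw [hydef, Real.exp_log hx0]
  have hnexp : (n : ℝ) = Real.exp x := by rw [hxdef, Real.exp_log hn0]
  have hquad : y ^ 2 / 2 ≤ x := by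
    rw [hxy]
    have := Real.quadratic_le_exp_of_nonneg hy0.le
    nlinarith
  have hx100 : 100 ≤ x := by nlinarith
  have hnp0 : 0 < (n : ℝ) * p := by positivity
  have hΛ0 : 0 ≤ Real.log (Real.exp 1 + n * p) := by
    apply Real.log_nonneg
    have h1 : (1 : ℝ) ≤ Real.exp 1 := Real.one_le_exp (by norm_num)
    linarith
  have hy'y : Real.log y ≤ y := by
    have := Real.log_le_sub_one_of_pos hy0
    linarith
  subst hxdef hpdef
  by_cases hR2 : 16 * Real.log (Real.exp 1 + n * pE n H) * y ≤ Real.log n * Real.log y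
  · left
    have hΛ4 : Real.log (Real.exp 1 + n * pE n H) ≤ Real.log n / 4 := by
      have h1 : 16 * Real.log (Real.exp 1 + n * pE n H) * y ≤ Real.log n * y :=
        hR2.trans (mul_le_mul_of_nonneg_left hy'y hx0.le)
      have h2 : 16 * Real.log (Real.exp 1 + n * pE n H) ≤ Real.log n := by
        by_contra h
        push Not at h
        nlinarith
      linarith
    have hs : 8 * pE n H * Real.sqrt n ≤ 1 := sqrt_of_lambda hx100 hnexp hE0 rfl hΛ4
    exact case_middle hCn (hnear hs) hxy hnexp hE0 hsmall hΛ0 hR1.le hR2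
  · push Not at hR2
    right
    exact case_sharp hCc hCt hst hsc hxy hnexp hE0 hE1 hsmall hR2

end Cases

/-- The coefficient form of the global theorem. -/
theorem global_coeff :
    ∃ C : ℝ, 0 < C ∧ ∀ n : ℕ, 3 ≤ n → ∀ (V : Type) [Fintype V] (H : SimpleGraph V),
      Fintype.card V ≤ n → H ≠ ⊥ → 1 / (3 * (n : ℝ)) ≤ pE n H →
      pTilde n H ≤ C * (pE n H * (Real.log n / gainG (Real.log (Real.log n)))) ∧
      pc n H ≤ C * (pE n H * (Real.log n / gainG (Real.log (Real.log n)))) * Real.log n := by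
  obtain ⟨Cn, hCn, hnear⟩ := near_thresholds
  obtain ⟨Cc, hCc, hsc⟩ := pc_le_pE_sharp
  obtain ⟨Ct, hCt, hst⟩ := pTilde_le_pE_sharp
  obtain ⟨c1, hc1⟩ : ∃ c1, c1 = 512 * Real.exp 6 * (432 * Real.exp 4 + 24) := ⟨_, rfl⟩
  have hc1pos : 0 < c1 := by rw [hc1]; positivity
  obtain ⟨c0, hc0⟩ : ∃ c0, c0 = 3 * Real.exp (Real.exp 64) := ⟨_, rfl⟩
  have hc0pos : 0 < c0 := by rw [hc0]; positivity
  have hE1 := Real.exp_pos (1 : ℝ)
  obtain ⟨A, hA⟩ : ∃ A, A = 2 * Real.exp 1 * Cc := ⟨_, rfl⟩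
  obtain ⟨B, hB⟩ : ∃ B, B = 2 * Real.exp 1 * Ct := ⟨_, rfl⟩
  have hA0 : 0 < A := by rw [hA]; positivity
  have hB0 : 0 < B := by rw [hB]; positivity
  refine ⟨c0 + 513 * c1 + 2 * Cn + A + B, by positivity, ?_⟩
  intro n hn V _ H hV hH hp3
  have hn3 : (3 : ℝ) ≤ n := by exact_mod_cast hn
  have hn0 : (0 : ℝ) < n := by linarith
  have hE0 := pE_pos (n := n) (by omega) hV hH
  have hx1 : 1 < Real.log n := by
    have h1 : Real.log (Real.exp 1) < Real.log n :=
      Real.log_lt_log (Real.exp_pos 1) (by have := Real.exp_one_lt_d9; linarith)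
    rwa [Real.log_exp] at h1
  have hy0 : 0 < Real.log (Real.log n) := Real.log_pos hx1
  have hGp := gainG_pos hy0
  have hX : 0 ≤ pE n H * (Real.log n / gainG (Real.log (Real.log n))) := by
    have : 0 < Real.log n := by linarith
    positivity
  have hx0 : 0 ≤ Real.log n := by linarith
  have key : ∀ a, a ≤ c0 + 513 * c1 + 2 * Cn + A + B →
      (pTilde n H ≤ a * (pE n H * (Real.log n / gainG (Real.log (Real.log n)))) ∧
        pc n H ≤ a * (pE n H * (Real.log n / gainG (Real.log (Real.log n)))) * Real.log n) →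
      pTilde n H ≤ (c0 + 513 * c1 + 2 * Cn + A + B) *
          (pE n H * (Real.log n / gainG (Real.log (Real.log n)))) ∧
        pc n H ≤ (c0 + 513 * c1 + 2 * Cn + A + B) *
          (pE n H * (Real.log n / gainG (Real.log (Real.log n)))) * Real.log n := by
    intro a ha ⟨h1, h2⟩
    exact ⟨h1.trans (mul_le_mul_of_nonneg_right ha hX),
      h2.trans (mul_le_mul_of_nonneg_right (mul_le_mul_of_nonneg_right ha hX) hx0)⟩
  by_cases hsmall : Real.log (Real.log n) < 64
  · apply key c0 (by linarith)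
    have := case_small (H := H) hn hV hH rfl rfl rfl hp3 hsmall
    rw [← hc0] at this
    exact this
  push Not at hsmall
  by_cases hR1 : (n : ℝ) * pE n H ≤ Real.exp (Real.log (Real.log n) / 8)
  · have h := case_near (H := H) hn hV hH rfl rfl rfl hp3 hsmall hR1
    rw [← hc1] at h
    apply key (512 * c1) (by linarith)
    refine ⟨h.1.trans ?_, h.2⟩
    apply mul_le_mul_of_nonneg_right _ hX
    linarith
  push Not at hR1
  rcases case_large hCn hCc hCt (hnear n (by omega) V H hV hH) (hsc n (by omega) V H hV hH)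
    (hst n (by omega) V H hV hH) hn hV hH rfl rfl rfl hsmall hR1 with h | h
  · exact key (2 * Cn) (by linarith) h
  · rw [← hA, ← hB] at h
    apply key (A + B) (by linarith)
    refine ⟨h.1.trans ?_, h.2.trans ?_⟩
    · apply mul_le_mul_of_nonneg_right _ hX
      linarith
    · apply mul_le_mul_of_nonneg_right _ hx0
      apply mul_le_mul_of_nonneg_right _ hX
      linarith

/-- The global theorem. -/
theorem global_thresholds :
    ∃ C : ℝ, 0 < C ∧ ∀ n : ℕ, 3 ≤ n → ∀ (V : Type) [Fintype V] (H : SimpleGraph V),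
      Fintype.card V ≤ n → H ≠ ⊥ → 1 / (3 * (n : ℝ)) ≤ pE n H →
      pTilde n H ≤ C * pE n H * Real.log n / (Real.log (Real.log n)) ^ ((1 : ℝ) / 16) ∧
      pc n H ≤ C * pE n H * (Real.log n) ^ 2 / (Real.log (Real.log n)) ^ ((1 : ℝ) / 16) := by
  obtain ⟨C, hC, h⟩ := global_coeff
  refine ⟨C, hC, ?_⟩
  intro n hn V _ H hV hH hp3
  obtain ⟨h1, h2⟩ := h n hn V H hV hH hp3
  unfold gainG at h1 h2
  constructor
  · calc pTilde n H ≤ _ := h1
      _ = _ := by ring
  · calc pc n H ≤ _ := h2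
      _ = _ := by ring

end Vale.Agent.Lib.P064N
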