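import Vale.Agent.Lib.P064N.Thresh

/-!
The global numerics: `tilde p_E ≤ C p_E log n / (log log n)^(1/4)` for `p_E ≥ 1 / (3 n)`.
-/

namespace Vale.Agent.Lib.P064N.G4

open Vale.Agent.Lib.P064

open scoped Classical

/-- The loss at densities `K = n q ≤ (log n)^(1/8)`. -/
lemma nearL_range1 {x y w : ℝ} (hx : x = Real.exp y) (hy8 : 8 ≤ y) (hw0 : 0 ≤ w)
    (hw : w ≤ y / 8) :
    nearL x (x - w) (1 / 16) (Real.exp (y / 8)) ≤ 60 * Real.exp 7 * (x / y) := by
  have hy0 : 0 < y := by linarith
  have hx0 : 0 < x := by rw [hx]; exact Real.exp_pos _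
  have hyx : y ≤ x := by
    rw [hx]
    have := Real.add_one_le_exp y
    linarith
  have hyy : y ^ 2 ≤ 2 * x := by
    rw [hx]
    have := Real.quadratic_le_exp_of_nonneg hy0.le
    nlinarith
  have hlogx : Real.log x = y := by rw [hx, Real.log_exp]
  have hQ : x / 2 ≤ x - w := by linarith
  have hQ0 : 0 < x - w := by linarith
  have hxy0 : 0 < x / y := by positivity
  have hE7 : 1 ≤ Real.exp 7 := Real.one_le_exp (by norm_num)
  unfold nearL
  have e1 : x + 1 - (x - w) = 1 + w := by ring
  have e2 : x - (x - w) = w := by ring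
  rw [e1, e2, hlogx, Real.log_exp]
  apply max_le
  · have h1 : x / (x - w) + 1 ≤ 3 := by
      have : x / (x - w) ≤ 2 := by
        rw [div_le_iff₀ hQ0]
        linarith
      linarith
    have h2 : (4 / 3) * ((1 + w) / (x - w)) * y ≤ 6 := by
      have h3 : (1 + w) / (x - w) ≤ (1 + w) / (x / 2) :=
        div_le_div_of_nonneg_left (by linarith) (by positivity) hQ
      have h4 : (1 + w) / (x / 2) * y * x = 2 * ((1 + w) * y) := by
        field_simp
      have h5 : (1 + w) * y ≤ y + y ^ 2 / 8 := by nlinarith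
      have h6 : (1 + w) / (x / 2) * y ≤ 9 / 2 := by
        have h7 : (1 + w) / (x / 2) * y * x ≤ 9 / 2 * x := by
          rw [h4]
          nlinarith
        exact le_of_mul_le_mul_right h7 hx0
      have h8 : (4 / 3) * ((1 + w) / (x - w)) * y ≤ (4 / 3) * ((1 + w) / (x / 2) * y) := by
        have : ((1 + w) / (x - w)) * y ≤ ((1 + w) / (x / 2)) * y :=
          mul_le_mul_of_nonneg_right h3 hy0.le
        linarith
      linarith
    have h3 : (16 / 3) * (1 / 16) * (1 + w) ≤ 1 + y / 24 := by linarith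
    have h4 : (x / (x - w) + 1) / (1 / 16) ≤ 48 := by
      rw [div_le_iff₀ (by norm_num)]
      linarith
    have h5 : 0 ≤ (x / (x - w) + 1) / (1 / 16) := by positivity
    have h6 : (x / (x - w) + 1) / (1 / 16) * Real.exp (y / 8) *
        Real.exp ((4 / 3) * ((1 + w) / (x - w)) * y) *
        Real.exp ((16 / 3) * (1 / 16) * (1 + w)) ≤
        48 * Real.exp (y / 8) * Real.exp 6 * Real.exp (1 + y / 24) := by
      gcongr
    have h7 : 48 * Real.exp (y / 8) * Real.exp 6 * Real.exp (1 + y / 24) =
        48 * Real.exp 7 * Real.exp (y / 6) := by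
      have : Real.exp (y / 8) * Real.exp 6 * Real.exp (1 + y / 24) =
          Real.exp 7 * Real.exp (y / 6) := by
        rw [← Real.exp_add, ← Real.exp_add, ← Real.exp_add]
        congr 1
        ring
      calc 48 * Real.exp (y / 8) * Real.exp 6 * Real.exp (1 + y / 24)
          = 48 * (Real.exp (y / 8) * Real.exp 6 * Real.exp (1 + y / 24)) := by ring
        _ = _ := by rw [this]; ring
    have h8 : Real.exp (y / 6) ≤ (5 / 4) * (x / y) := by
      have h9 : y ≤ (5 / 4) * Real.exp (5 * y / 6) := by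
        have := Real.add_one_le_exp (5 * y / 6)
        have h10 : 0 < Real.exp (5 * y / 6) := Real.exp_pos _
        linarith
      have h10 : x = Real.exp (y / 6) * Real.exp (5 * y / 6) := by
        rw [hx, ← Real.exp_add]
        congr 1
        ring
      have h11 : Real.exp (y / 6) * y ≤ (5 / 4) * x := by
        rw [h10]
        have h12 := Real.exp_pos (y / 6)
        nlinarith
      have h14 : (5 / 4) * (x / y) = ((5 / 4) * x) / y := by ring
      rw [h14]
      exact (le_div_iff₀ hy0).2 h11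
    refine h6.trans ?_
    rw [h7]
    have h9 : 48 * Real.exp 7 * Real.exp (y / 6) ≤ 48 * Real.exp 7 * ((5 / 4) * (x / y)) :=
      mul_le_mul_of_nonneg_left h8 (by positivity)
    refine h9.trans ?_
    have : 48 * Real.exp 7 * ((5 / 4) * (x / y)) = 60 * Real.exp 7 * (x / y) := by ring
    linarith
  · have h1 : x / (y / 8) = 8 * (x / y) := by
      field_simp
    rw [h1]
    have h2 : 1 ≤ Real.exp w := Real.one_le_exp hw0
    have h3 : 8 * (x / y) / Real.exp w ≤ 8 * (x / y) := div_le_self (by positivity) h2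
    refine h3.trans ?_
    have h4 : 60 * (x / y) ≤ 60 * Real.exp 7 * (x / y) := by
      have := mul_le_mul_of_nonneg_right hE7 (show (0 : ℝ) ≤ 60 * (x / y) by positivity)
      nlinarith
    linarith

/-- The loss at densities `(log n)^(1/8) ≤ K`, up to the third range. -/
lemma nearL_range2 {x y z w : ℝ} (hx : x = Real.exp y) (hy8 : 8 ≤ y) (hz : z = Real.log y)
    (hw1 : y / 8 ≤ w) (hw : w ≤ 2 + (x / y) * (z / 4)) :
    nearL x (x - w) (1 / (16 * (w + 2))) (Real.exp 1) ≤
      200 * Real.exp 10 * (x / Real.exp (z / 4)) := by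
  have hy0 : 0 < y := by linarith
  have hx0 : 0 < x := by rw [hx]; exact Real.exp_pos _
  have hyx : y ≤ x := by
    rw [hx]
    have := Real.add_one_le_exp y
    linarith
  have hyx1 : y + 1 ≤ x := by
    rw [hx]
    have := Real.add_one_le_exp y
    linarith
  have hlogx : Real.log x = y := by rw [hx, Real.log_exp]
  have hz0 : 0 ≤ z := by
    rw [hz]
    exact Real.log_nonneg (by linarith)
  have hzy : z ≤ y / 2 := by
    have h1 := Real.log_le_sub_one_of_pos (show 0 < y / 2 by positivity)
    have h2 : Real.log (y / 2) = z - Real.log 2 := by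
      rw [Real.log_div hy0.ne' (by norm_num), hz]
    have h3 := Real.log_two_lt_d9
    linarith
  have hey : Real.exp z = y := by
    rw [hz, Real.exp_log hy0]
  have hxy1 : 1 ≤ x / y := by
    rw [le_div_iff₀ hy0]
    linarith
  have hxyz : (x / y) * (z / 4) ≤ x / 8 := by
    have h1 : (x / y) * (z / 4) = (x / 4) * (z / y) := by
      field_simp
    rw [h1]
    have h2 : z / y ≤ 1 / 2 := by
      rw [div_le_iff₀ hy0]
      linarith
    nlinarith
  have hw2 : w ≤ x / 2 := by linarith
  have hw0 : 0 ≤ w := by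
    have : 0 < y / 8 := by positivity
    linarith
  have hQ : x / 2 ≤ x - w := by linarith
  have hQ0 : 0 < x - w := by linarith
  have hTarget0 : 0 < x / Real.exp (z / 4) := by positivity
  have hE10 : 1 ≤ Real.exp 10 := Real.one_le_exp (by norm_num)
  unfold nearL
  have e1 : x + 1 - (x - w) = 1 + w := by ring
  have e2 : x - (x - w) = w := by ring
  rw [e1, e2, hlogx, Real.log_exp, div_one]
  apply max_le
  · have h1 : x / (x - w) + 1 ≤ 3 := by
      have : x / (x - w) ≤ 2 := by
        rw [div_le_iff₀ hQ0]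
        linarith
      linarith
    have h2 : (4 / 3) * ((1 + w) / (x - w)) * y ≤ 8 + (2 / 3) * z := by
      have h3 : (1 + w) / (x - w) ≤ (1 + w) / (x / 2) :=
        div_le_div_of_nonneg_left (by linarith) (by positivity) hQ
      have h4 : (1 + w) / (x / 2) * y * x = 2 * ((1 + w) * y) := by
        field_simp
      have h5 : (1 + w) * y ≤ 3 * x + (z / 4) * x := by
        have h6 : (1 + w) * y ≤ (3 + (x / y) * (z / 4)) * y :=
          mul_le_mul_of_nonneg_right (by linarith) hy0.le
        have h7 : (3 + (x / y) * (z / 4)) * y = 3 * y + (z / 4) * x := by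
          field_simp
        rw [h7] at h6
        nlinarith
      have h6 : (1 + w) / (x / 2) * y ≤ 6 + z / 2 := by
        have h7 : (1 + w) / (x / 2) * y * x ≤ (6 + z / 2) * x := by
          rw [h4]
          nlinarith
        exact le_of_mul_le_mul_right h7 hx0
      have h8 : (4 / 3) * ((1 + w) / (x - w)) * y ≤ (4 / 3) * ((1 + w) / (x / 2) * y) := by
        have : ((1 + w) / (x - w)) * y ≤ ((1 + w) / (x / 2)) * y :=
          mul_le_mul_of_nonneg_right h3 hy0.le
        linarith
      linarith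
    have hw20 : 0 < w + 2 := by linarith
    have h3 : (16 / 3) * (1 / (16 * (w + 2))) * (1 + w) ≤ 1 := by
      have : (16 / 3) * (1 / (16 * (w + 2))) * (1 + w) = (1 / 3) * ((1 + w) / (w + 2)) := by
        field_simp
      rw [this]
      have h4 : (1 + w) / (w + 2) ≤ 1 := by
        rw [div_le_one hw20]
        linarith
      linarith
    have h4 : (x / (x - w) + 1) / (1 / (16 * (w + 2))) ≤ 48 * (w + 2) := by
      have : (x / (x - w) + 1) / (1 / (16 * (w + 2))) = (x / (x - w) + 1) * (16 * (w + 2)) := by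
        field_simp
      rw [this]
      nlinarith
    have h5 : 0 ≤ (x / (x - w) + 1) / (1 / (16 * (w + 2))) := by positivity
    have h6 : (x / (x - w) + 1) / (1 / (16 * (w + 2))) * Real.exp 1 *
        Real.exp ((4 / 3) * ((1 + w) / (x - w)) * y) *
        Real.exp ((16 / 3) * (1 / (16 * (w + 2))) * (1 + w)) ≤
        (48 * (w + 2)) * Real.exp 1 * Real.exp (8 + (2 / 3) * z) * Real.exp 1 := by
      gcongr
    refine h6.trans ?_
    have h7 : (w + 2) ≤ (x / y) * (4 * Real.exp (z / 12)) := by
      have h8 : 1 + z / 12 ≤ Real.exp (z / 12) := by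
        have := Real.add_one_le_exp (z / 12)
        linarith
      have h9 : (x / y) * (4 + z / 4) ≤ (x / y) * (4 * Real.exp (z / 12)) := by
        apply mul_le_mul_of_nonneg_left _ (by positivity)
        nlinarith
      have h10 : w + 2 ≤ (x / y) * (4 + z / 4) := by
        have : 4 ≤ (x / y) * 4 := by linarith
        have e : (x / y) * (4 + z / 4) = (x / y) * 4 + (x / y) * (z / 4) := by ring
        rw [e]
        linarith
      linarith
    have h8 : (x / y) * Real.exp (z / 12) * Real.exp ((2 / 3) * z) = x / Real.exp (z / 4) := by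
      have h9 : Real.exp (z / 12) * Real.exp ((2 / 3) * z) = y / Real.exp (z / 4) := by
        rw [eq_div_iff (Real.exp_pos _).ne', ← Real.exp_add, ← Real.exp_add, ← hey]
        congr 1
        ring
      calc (x / y) * Real.exp (z / 12) * Real.exp ((2 / 3) * z)
          = (x / y) * (Real.exp (z / 12) * Real.exp ((2 / 3) * z)) := by ring
        _ = _ := by rw [h9]; field_simp
    have h9 : Real.exp (8 + (2 / 3) * z) = Real.exp 8 * Real.exp ((2 / 3) * z) := Real.exp_add _ _
    have h10 : Real.exp 10 = Real.exp 1 * Real.exp 1 * Real.exp 8 := by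
      rw [← Real.exp_add, ← Real.exp_add]
      norm_num
    rw [h9]
    calc (48 * (w + 2)) * Real.exp 1 * (Real.exp 8 * Real.exp ((2 / 3) * z)) * Real.exp 1
        = 48 * Real.exp 10 * ((w + 2) * Real.exp ((2 / 3) * z)) := by
          rw [h10]
          ring
      _ ≤ 48 * Real.exp 10 * (((x / y) * (4 * Real.exp (z / 12))) * Real.exp ((2 / 3) * z)) := by
          apply mul_le_mul_of_nonneg_left _ (by positivity)
          exact mul_le_mul_of_nonneg_right h7 (Real.exp_pos _).le
      _ = 192 * Real.exp 10 * ((x / y) * Real.exp (z / 12) * Real.exp ((2 / 3) * z)) := by ring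
      _ = 192 * Real.exp 10 * (x / Real.exp (z / 4)) := by rw [h8]
      _ ≤ 200 * Real.exp 10 * (x / Real.exp (z / 4)) := by
          apply mul_le_mul_of_nonneg_right _ hTarget0.le
          nlinarith
  · have h1 : Real.exp (z / 4) ≤ Real.exp w := by
      apply Real.exp_le_exp.2
      linarith
    have h2 : x / Real.exp w ≤ x / Real.exp (z / 4) :=
      div_le_div_of_nonneg_left hx0.le (Real.exp_pos _) h1
    refine h2.trans ?_
    have h3 : 1 * (x / Real.exp (z / 4)) ≤ 200 * Real.exp 10 * (x / Real.exp (z / 4)) := by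
      apply mul_le_mul_of_nonneg_right _ hTarget0.le
      nlinarith
    linarith

/-- The third range: the sharp bound already gains. -/
lemma sharp_factor {x y z lm : ℝ} (hx : x = Real.exp y) (hy8 : 8 ≤ y) (hz : z = Real.log y)
    (hlm : (x / y) * (z / 4) ≤ lm) :
    (1 + x) ^ (min 1 (1 - lm / x)) ≤ 2 * x / Real.exp (z / 4) := by
  have hy0 : 0 < y := by linarith
  have hx0 : 0 < x := by rw [hx]; exact Real.exp_pos _
  have hyx1 : y + 1 ≤ x := by
    rw [hx]
    have := Real.add_one_le_exp y
    linarith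
  have hz0 : 0 ≤ z := by
    rw [hz]
    exact Real.log_nonneg (by linarith)
  have hx1 : 1 ≤ 1 + x := by linarith
  have h1 : (1 + x) ^ (min 1 (1 - lm / x)) ≤ (1 + x) ^ (1 - lm / x) :=
    Real.rpow_le_rpow_of_exponent_le hx1 (min_le_right _ _)
  refine h1.trans ?_
  have hlog : y ≤ Real.log (1 + x) := by
    have h2 : Real.log x ≤ Real.log (1 + x) := Real.log_le_log hx0 (by linarith)
    rw [hx, Real.log_exp] at h2
    rw [hx]
    exact h2
  have h2 : z / 4 ≤ lm / x * Real.log (1 + x) := by
    have h3 : z / (4 * y) ≤ lm / x := by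
      rw [div_le_div_iff₀ (by positivity) hx0]
      have h4 : (x / y) * (z / 4) * (4 * y) = z * x := by
        field_simp
      have h5 : (x / y) * (z / 4) * (4 * y) ≤ lm * (4 * y) :=
        mul_le_mul_of_nonneg_right hlm (by positivity)
      linarith
    have h4 : z / (4 * y) * y ≤ lm / x * Real.log (1 + x) :=
      mul_le_mul h3 hlog hy0.le (le_trans (by positivity) h3)
    have h5 : z / (4 * y) * y = z / 4 := by
      field_simp
    linarith
  have h0 : 0 < 1 + x := by linarith
  rw [Real.rpow_def_of_pos h0]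
  have h3 : Real.log (1 + x) * (1 - lm / x) ≤ Real.log (1 + x) - z / 4 := by
    nlinarith
  have h4 : Real.exp (Real.log (1 + x) * (1 - lm / x)) ≤ Real.exp (Real.log (1 + x) - z / 4) :=
    Real.exp_le_exp.2 h3
  refine h4.trans ?_
  rw [Real.exp_sub, Real.exp_log h0]
  apply div_le_div_of_nonneg_right _ (Real.exp_pos _).le
  linarith

lemma xyz_le {x y z : ℝ} (hx : x = Real.exp y) (hy8 : 8 ≤ y) (hz : z = Real.log y) :
    (x / y) * (z / 4) ≤ x / 8 := by
  have hy0 : 0 < y := by linarith
  have hx0 : 0 < x := by rw [hx]; exact Real.exp_pos _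
  have hzy : z ≤ y / 2 := by
    have h1 := Real.log_le_sub_one_of_pos (show 0 < y / 2 by positivity)
    have h2 : Real.log (y / 2) = z - Real.log 2 := by
      rw [Real.log_div hy0.ne' (by norm_num), hz]
    have h3 := Real.log_two_lt_d9
    linarith
  have h1 : (x / y) * (z / 4) = (x / 4) * (z / y) := by
    field_simp
  rw [h1]
  have h2 : z / y ≤ 1 / 2 := by
    rw [div_le_iff₀ hy0]
    linarith
  nlinarith

lemma pow_two_le_exp_nat (k : ℕ) : (2 : ℝ) ^ k ≤ Real.exp k := by
  have h : Real.exp k = Real.exp 1 ^ k := by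
    rw [← Real.exp_nat_mul]
    simp
  rw [h]
  exact pow_le_pow_left₀ (by norm_num) two_le_exp_one k

lemma const_21 : 921600 * Real.exp 16 ≤ Real.exp 40 := by
  have h1 := pow_two_le_exp_nat 20
  norm_num at h1
  have h2 : (921600 : ℝ) ≤ Real.exp 20 := by linarith
  have h3 : Real.exp 40 = Real.exp 20 * Real.exp 20 := by
    rw [← Real.exp_add]
    norm_num
  have h4 : Real.exp 16 ≤ Real.exp 20 := Real.exp_le_exp.2 (by norm_num)
  rw [h3]
  exact mul_le_mul h2 h4 (Real.exp_pos _).le (Real.exp_pos _).le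

lemma const_11 : 276480 * Real.exp 13 ≤ Real.exp 40 := by
  have h1 := pow_two_le_exp_nat 20
  norm_num at h1
  have h2 : (276480 : ℝ) ≤ Real.exp 20 := by linarith
  have h3 : Real.exp 40 = Real.exp 20 * Real.exp 20 := by
    rw [← Real.exp_add]
    norm_num
  have h4 : Real.exp 13 ≤ Real.exp 20 := Real.exp_le_exp.2 (by norm_num)
  rw [h3]
  exact mul_le_mul h2 h4 (Real.exp_pos _).le (Real.exp_pos _).le

variable {V : Type} [Fintype V] {H : SimpleGraph V} {n : ℕ}

/-- The embedding bound below the third range. -/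
theorem global_core (hn : 3 ≤ n) (hV : Fintype.card V ≤ n) (hH : H ≠ ⊥)
    (hp : 1 / (3 * (n : ℝ)) ≤ pE n H) (hy8 : 8 ≤ Real.log (Real.log n))
    (hlow : Real.log (n * pE n H) <
      (Real.log n / Real.log (Real.log n)) * (Real.log (Real.log (Real.log n)) / 4)) :
    ∃ Θ : ℝ, 0 < Θ ∧ EmbBound n H Θ ∧
      Θ ≤ Real.exp 40 * (pE n H *
        (Real.log n / Real.exp (Real.log (Real.log (Real.log n)) / 4))) := by
  have hn3 : (3 : ℝ) ≤ n := by exact_mod_cast hn
  have hn0 : (0 : ℝ) < n := by linarith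
  have hE0 := pE_pos (n := n) (by omega) hV hH
  obtain ⟨x, hxdef⟩ : ∃ x, x = Real.log n := ⟨_, rfl⟩
  obtain ⟨y, hydef⟩ : ∃ y, y = Real.log x := ⟨_, rfl⟩
  obtain ⟨z, hzdef⟩ : ∃ z, z = Real.log y := ⟨_, rfl⟩
  rw [← hxdef, ← hydef] at hy8
  rw [← hxdef, ← hydef, ← hzdef] at hlow ⊢
  have hy0 : 0 < y := by linarith
  have hx0 : 0 < x := by
    rw [hxdef]
    exact Real.log_pos (by linarith)
  have hx : x = Real.exp y := by rw [hydef, Real.exp_log hx0]
  have hyx1 : y + 1 ≤ x := by
    rw [hx]
    have := Real.add_one_le_exp y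
    linarith
  have hz0 : 0 ≤ z := by
    rw [hzdef]
    exact Real.log_nonneg (by linarith)
  have hey : Real.exp z = y := by rw [hzdef, Real.exp_log hy0]
  obtain ⟨p, hpdef⟩ : ∃ p, p = pE n H := ⟨_, rfl⟩
  rw [← hpdef] at hp hE0 hlow ⊢
  have hnp : 0 < (n : ℝ) * p := by positivity
  have hnp3 : 1 ≤ 3 * ((n : ℝ) * p) := by
    rw [div_le_iff₀ (by positivity)] at hp
    linarith
  obtain ⟨K, hKdef⟩ : ∃ K, K = max (4 * ((n : ℝ) * p)) (Real.exp 1) := ⟨_, rfl⟩
  have hKe : Real.exp 1 ≤ K := by rw [hKdef]; exact le_max_right _ _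
  have hK4 : 4 * ((n : ℝ) * p) ≤ K := by rw [hKdef]; exact le_max_left _ _
  have hK0 : 0 < K := lt_of_lt_of_le (Real.exp_pos 1) hKe
  have hK9 : K ≤ 9 * ((n : ℝ) * p) := by
    rw [hKdef]
    apply max_le
    · linarith
    · have := exp_one_le_three
      linarith
  obtain ⟨w, hwdef⟩ : ∃ w, w = Real.log K := ⟨_, rfl⟩
  have hw1 : 1 ≤ w := by
    have := Real.log_le_log (Real.exp_pos 1) hKe
    rw [Real.log_exp] at this
    rw [hwdef]
    exact this
  have hxyz := xyz_le hx hy8 hzdef
  have hbar0 : 0 ≤ (x / y) * (z / 4) := by positivity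
  have hw2 : w ≤ 2 + (x / y) * (z / 4) := by
    rw [hwdef]
    by_cases hc : 4 * ((n : ℝ) * p) ≤ Real.exp 1
    · have h1 : K = Real.exp 1 := by rw [hKdef]; exact max_eq_right hc
      rw [h1, Real.log_exp]
      linarith
    · push Not at hc
      have h1 : K = 4 * ((n : ℝ) * p) := by rw [hKdef]; exact max_eq_left hc.le
      rw [h1, Real.log_mul (by norm_num) hnp.ne']
      have h2 : Real.log 4 ≤ 2 := by
        have h3 : Real.log 4 = 2 * Real.log 2 := by
          rw [show (4 : ℝ) = 2 ^ 2 by norm_num, Real.log_pow]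
          norm_num
        have := Real.log_two_lt_d9
        rw [h3]
        linarith
      linarith
  obtain ⟨q, hqdef⟩ : ∃ q, q = K / n := ⟨_, rfl⟩
  have hq0 : 0 < q := by rw [hqdef]; positivity
  have hq4 : 4 * p ≤ q := by
    rw [hqdef, le_div_iff₀ hn0]
    linarith
  have hq9 : q ≤ 9 * p := by
    rw [hqdef, div_le_iff₀ hn0]
    linarith
  have hlogq : - Real.log q = x - w := by
    rw [hqdef, Real.log_div hK0.ne' hn0.ne', hwdef, hxdef]
    ring
  have hqe : q ≤ Real.exp (-1) := by
    have h1 : Real.log q ≤ -1 := by linarith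
    rw [← Real.exp_log hq0]
    exact Real.exp_le_exp.2 h1
  have hG : GoodDensity n q H := good_of_pE (by omega) hV hH (by rw [← hpdef]; exact hq4)
  have hx1 : 1 ≤ Real.log n := by rw [← hxdef]; linarith
  have hQx : - Real.log q ≤ Real.log n := by
    rw [← hxdef, hlogq]
    linarith
  have hT0 : 0 < x / Real.exp (z / 4) := by positivity
  by_cases hc : w ≤ y / 8
  · have hB : Real.exp 1 ≤ Real.exp (y / 8) := Real.exp_le_exp.2 (by linarith)
    have hEb := embBound_near (n := n) (H := H) (by omega) hV hq0 hqe hG hx1 hQx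
      (τ₀ := 1 / 16) (by norm_num) (le_refl _) hB
    rw [← hxdef, hlogq] at hEb
    have hL := nearL_range1 hx hy8 (by linarith) hc
    have hL0 : 0 < nearL x (x - w) (1 / 16) (Real.exp (y / 8)) := by
      unfold nearL
      apply lt_max_of_lt_right
      rw [Real.log_exp]
      positivity
    refine ⟨_, by positivity, hEb, ?_⟩
    have h1 : 512 * Real.exp 6 * nearL x (x - w) (1 / 16) (Real.exp (y / 8)) * q ≤
        512 * Real.exp 6 * (60 * Real.exp 7 * (x / y)) * (9 * p) := by
      gcongr
    refine h1.trans ?_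
    have hey' : Real.exp (z / 4) ≤ y := by
      rw [← hey]
      apply Real.exp_le_exp.2
      linarith
    have h2 : x / y ≤ x / Real.exp (z / 4) :=
      div_le_div_of_nonneg_left hx0.le (Real.exp_pos _) hey'
    have h3 : Real.exp 6 * Real.exp 7 = Real.exp 13 := by
      rw [← Real.exp_add]
      norm_num
    calc 512 * Real.exp 6 * (60 * Real.exp 7 * (x / y)) * (9 * p)
        = (276480 * (Real.exp 6 * Real.exp 7)) * (p * (x / y)) := by ring
      _ = (276480 * Real.exp 13) * (p * (x / y)) := by rw [h3]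
      _ ≤ (276480 * Real.exp 13) * (p * (x / Real.exp (z / 4))) := by
          apply mul_le_mul_of_nonneg_left _ (by positivity)
          exact mul_le_mul_of_nonneg_left h2 hE0.le
      _ ≤ _ := mul_le_mul_of_nonneg_right const_11 (by positivity)
  · push Not at hc
    have hw20 : 0 < w + 2 := by linarith
    have hτ0 : 0 < 1 / (16 * (w + 2)) := by positivity
    have hτ1 : 1 / (16 * (w + 2)) ≤ 1 / 16 := by
      apply one_div_le_one_div_of_le (by norm_num)
      linarith
    have hEb := embBound_near (n := n) (H := H) (by omega) hV hq0 hqe hG hx1 hQx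
      hτ0 hτ1 (le_refl (Real.exp 1))
    rw [← hxdef, hlogq] at hEb
    have hL := nearL_range2 hx hy8 hzdef hc.le hw2
    have hL0 : 0 < nearL x (x - w) (1 / (16 * (w + 2))) (Real.exp 1) := by
      unfold nearL
      apply lt_max_of_lt_right
      rw [Real.log_exp]
      positivity
    refine ⟨_, by positivity, hEb, ?_⟩
    have h1 : 512 * Real.exp 6 * nearL x (x - w) (1 / (16 * (w + 2))) (Real.exp 1) * q ≤
        512 * Real.exp 6 * (200 * Real.exp 10 * (x / Real.exp (z / 4))) * (9 * p) := by
      gcongr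
    refine h1.trans ?_
    have h3 : Real.exp 6 * Real.exp 10 = Real.exp 16 := by
      rw [← Real.exp_add]
      norm_num
    calc 512 * Real.exp 6 * (200 * Real.exp 10 * (x / Real.exp (z / 4))) * (9 * p)
        = (921600 * (Real.exp 6 * Real.exp 10)) * (p * (x / Real.exp (z / 4))) := by ring
      _ = (921600 * Real.exp 16) * (p * (x / Real.exp (z / 4))) := by rw [h3]
      _ ≤ _ := mul_le_mul_of_nonneg_right const_21 (by positivity)

/-- The global bound. -/
theorem global_thresholds :
    ∃ C : ℝ, 0 < C ∧ ∀ n : ℕ, 3 ≤ n → ∀ (V : Type) [Fintype V] (H : SimpleGraph V),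
      Fintype.card V ≤ n → H ≠ ⊥ → 1 / (3 * (n : ℝ)) ≤ pE n H →
      pTilde n H ≤ C * pE n H * Real.log n / (Real.log (Real.log n)) ^ (1 / 4 : ℝ) ∧
      pc n H ≤ C * pE n H * (Real.log n) ^ 2 / (Real.log (Real.log n)) ^ (1 / 4 : ℝ) := by
  obtain ⟨C₁, hC₁, hpc⟩ := pc_le_pE_sharp
  obtain ⟨C₂, hC₂, hpt⟩ := pTilde_le_pE_sharp
  refine ⟨512 * Real.exp 40 + 2 * C₁ + 2 * C₂ + 3 * Real.exp (Real.exp 8), by positivity, ?_⟩
  intro n hn V _ H hV hH hp
  have hn3 : (3 : ℝ) ≤ n := by exact_mod_cast hn
  have hn0 : (0 : ℝ) < n := by linarith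
  have hE0 := pE_pos (n := n) (by omega) hV hH
  obtain ⟨C, hCdef⟩ : ∃ C, C = 512 * Real.exp 40 + 2 * C₁ + 2 * C₂ + 3 * Real.exp (Real.exp 8) :=
    ⟨_, rfl⟩
  rw [← hCdef]
  have hx1 : 1 < Real.log n := by
    have h1 : Real.log (Real.exp 1) < Real.log n :=
      Real.log_lt_log (Real.exp_pos 1) (by have := Real.exp_one_lt_d9; linarith)
    rwa [Real.log_exp] at h1
  have hcore := @global_core V _ H n hn hV hH hp
  have hsharp1 := hpc n (by omega) V H hV hH
  have hsharp2 := hpt n (by omega) V H hV hH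
  have htop1 := pTilde_le_one (n := n) (H := H) hV
  have htop2 := pc_le_one (n := n) (H := H) hV
  obtain ⟨x, hxdef⟩ : ∃ x, x = Real.log n := ⟨_, rfl⟩
  rw [← hxdef] at hx1 hcore hsharp1 hsharp2 ⊢
  have hx0 : 0 < x := by linarith
  have hnx : (n : ℝ) = Real.exp x := by rw [hxdef, Real.exp_log hn0]
  obtain ⟨y, hydef⟩ : ∃ y, y = Real.log x := ⟨_, rfl⟩
  rw [← hydef] at hcore ⊢
  have hy0 : 0 < y := by
    rw [hydef]
    exact Real.log_pos hx1
  obtain ⟨p, hpdef⟩ : ∃ p, p = pE n H := ⟨_, rfl⟩
  rw [← hpdef] at hp hE0 hcore hsharp1 hsharp2 ⊢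
  have hnp3 : 1 ≤ 3 * ((n : ℝ) * p) := by
    rw [div_le_iff₀ (by positivity)] at hp
    linarith
  obtain ⟨T, hTdef⟩ : ∃ T, T = x / y ^ (1 / 4 : ℝ) := ⟨_, rfl⟩
  have hpow0 : 0 < y ^ (1 / 4 : ℝ) := Real.rpow_pos_of_pos hy0 _
  have hT0 : 0 < T := by rw [hTdef]; positivity
  have e1 : C * p * x / y ^ (1 / 4 : ℝ) = C * (p * T) := by rw [hTdef]; ring
  have e2 : C * p * x ^ 2 / y ^ (1 / 4 : ℝ) = C * (p * (x * T)) := by rw [hTdef]; ring
  rw [e1, e2]
  have hpT : 0 < p * T := by positivity
  have hpxT : 0 < p * (x * T) := by positivity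
  have hTx : p * T ≤ p * (x * T) := by
    apply mul_le_mul_of_nonneg_left _ hE0.le
    nlinarith
  have hexp40 : 0 < Real.exp 40 := Real.exp_pos _
  have hexp8 : 0 < Real.exp (Real.exp 8) := Real.exp_pos _
  have hCge : ∀ A : ℝ, 0 ≤ A → (512 * Real.exp 40) * A ≤ C * A := by
    intro A hA
    apply mul_le_mul_of_nonneg_right _ hA
    rw [hCdef]
    nlinarith
  have hCge1 : ∀ A : ℝ, 0 ≤ A → (2 * C₁) * A ≤ C * A := by
    intro A hA
    apply mul_le_mul_of_nonneg_right _ hA
    rw [hCdef]
    nlinarith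
  have hCge2 : ∀ A : ℝ, 0 ≤ A → (2 * C₂) * A ≤ C * A := by
    intro A hA
    apply mul_le_mul_of_nonneg_right _ hA
    rw [hCdef]
    nlinarith
  have hCge3 : ∀ A : ℝ, 0 ≤ A → (3 * Real.exp (Real.exp 8)) * A ≤ C * A := by
    intro A hA
    apply mul_le_mul_of_nonneg_right _ hA
    rw [hCdef]
    nlinarith
  by_cases hy8 : y < 8
  · -- small `n`
    have hxlt : x < Real.exp 8 := by
      rw [← Real.exp_log hx0, ← hydef]
      exact Real.exp_lt_exp.2 hy8
    have hnlt : (n : ℝ) < Real.exp (Real.exp 8) := by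
      rw [hnx]
      exact Real.exp_lt_exp.2 hxlt
    have hT1 : 1 ≤ T := by
      rw [hTdef, le_div_iff₀ hpow0, one_mul]
      have hyx : y ≤ x := by
        rw [hydef]
        have := Real.log_le_sub_one_of_pos hx0
        linarith
      by_cases h1 : y ≤ 1
      · have h2 : y ^ (1 / 4 : ℝ) ≤ 1 := Real.rpow_le_one hy0.le h1 (by norm_num)
        linarith
      · push Not at h1
        have h2 : y ^ (1 / 4 : ℝ) ≤ y ^ (1 : ℝ) :=
          Real.rpow_le_rpow_of_exponent_le h1.le (by norm_num)
        rw [Real.rpow_one] at h2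
        linarith
    have h1 : 1 ≤ 3 * Real.exp (Real.exp 8) * p := by
      have : (n : ℝ) * p ≤ Real.exp (Real.exp 8) * p :=
        mul_le_mul_of_nonneg_right hnlt.le hE0.le
      linarith
    have h2 : 1 ≤ C * (p * T) := by
      have h3 := hCge3 (p * T) hpT.le
      have h4 : 3 * Real.exp (Real.exp 8) * (p * T) = (3 * Real.exp (Real.exp 8) * p) * T := by
        ring
      have h5 : (3 * Real.exp (Real.exp 8) * p) * 1 ≤ (3 * Real.exp (Real.exp 8) * p) * T :=
        mul_le_mul_of_nonneg_left hT1 (by positivity)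
      linarith
    have hC0 : 0 < C := by rw [hCdef]; positivity
    constructor
    · linarith
    · have h3 : C * (p * T) ≤ C * (p * (x * T)) := mul_le_mul_of_nonneg_left hTx hC0.le
      linarith
  · push Not at hy8
    have hx : x = Real.exp y := by rw [hydef, Real.exp_log hx0]
    obtain ⟨z, hzdef⟩ : ∃ z, z = Real.log y := ⟨_, rfl⟩
    rw [← hzdef] at hcore
    have hpowz : y ^ (1 / 4 : ℝ) = Real.exp (z / 4) := by
      rw [Real.rpow_def_of_pos hy0, ← hzdef]
      congr 1
      ring
    rw [hpowz] at hTdef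
    by_cases hlow : Real.log ((n : ℝ) * p) < (x / y) * (z / 4)
    · obtain ⟨Θ, hΘ0, hΘ, hΘle⟩ := hcore hy8 hlow
      rw [← hTdef] at hΘle
      have h1 : pTilde n H ≤ Θ := pTilde_le_of_embBound hV hΘ0 hΘ
      have h2 : pc n H ≤ 512 * Real.log n * Θ := pc_le_of_embBound (by omega) hV hH hΘ0 hΘ
      rw [← hxdef] at h2
      constructor
      · have h3 := hCge (p * T) hpT.le
        have h4 : (512 * Real.exp 40) * (p * T) = 512 * (Real.exp 40 * (p * T)) := by ring
        have h5 : 0 ≤ Real.exp 40 * (p * T) := by positivity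
        linarith
      · have h3 := hCge (p * (x * T)) hpxT.le
        have h4 : 512 * x * Θ ≤ 512 * x * (Real.exp 40 * (p * T)) :=
          mul_le_mul_of_nonneg_left hΘle (by positivity)
        have h5 : 512 * x * (Real.exp 40 * (p * T)) = (512 * Real.exp 40) * (p * (x * T)) := by
          ring
        linarith
    · push Not at hlow
      have hexpo : Real.log (1 / p) / x = 1 - Real.log ((n : ℝ) * p) / x := by
        have h1 : Real.log (1 / p) = x - Real.log ((n : ℝ) * p) := by
          rw [one_div, Real.log_inv, Real.log_mul hn0.ne' hE0.ne', hxdef]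
          ring
        rw [h1]
        field_simp
      have hfac := sharp_factor hx hy8 hzdef hlow
      rw [← hexpo] at hfac
      have hfac' : (1 + x) ^ (min 1 (Real.log (1 / p) / x)) ≤ 2 * T := by
        rw [hTdef]
        calc _ ≤ 2 * x / Real.exp (z / 4) := hfac
          _ = _ := by ring
      constructor
      · have h1 : C₂ * p * (1 + x) ^ (min 1 (Real.log (1 / p) / x)) ≤ C₂ * p * (2 * T) :=
          mul_le_mul_of_nonneg_left hfac' (by positivity)
        have h3 := hCge2 (p * T) hpT.le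
        have h4 : C₂ * p * (2 * T) = (2 * C₂) * (p * T) := by ring
        linarith
      · have h1 : C₁ * p * x * (1 + x) ^ (min 1 (Real.log (1 / p) / x)) ≤ C₁ * p * x * (2 * T) :=
          mul_le_mul_of_nonneg_left hfac' (by positivity)
        have h3 := hCge1 (p * (x * T)) hpxT.le
        have h4 : C₁ * p * x * (2 * T) = (2 * C₁) * (p * (x * T)) := by ring
        linarith

end Vale.Agent.Lib.P064N.G4
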