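import Mathlib

/-!
The numerical heart of the near-critical block bound.
-/

namespace Vale.Agent.Lib.P064N

/-- The number of disjoint copies: either `t ≤ b log n / log B` or `t ≤ e B ρ`. -/
lemma t_bound_B {n : ℝ} (hn : 1 ≤ n) {b t : ℕ} {ρ B : ℝ} (hρ : 0 < ρ) (hB : 1 < B) (ht : 1 ≤ t)
    (hf : (t.factorial : ℝ) ≤ n ^ b * ρ ^ t) :
    (t : ℝ) ≤ b * Real.log n / Real.log B ∨ (t : ℝ) ≤ Real.exp 1 * B * ρ := by
  by_contra hcon
  push Not at hcon
  obtain ⟨h1, h2⟩ := hcon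
  have hnpos : 0 < n := by linarith
  have hB0 : 0 < B := by linarith
  have hlB : 0 < Real.log B := Real.log_pos hB
  have htpos : (0 : ℝ) < t := by exact_mod_cast ht
  have h3 : (t : ℝ) ^ t / t.factorial ≤ Real.exp t := Real.pow_div_factorial_le_exp _ htpos.le t
  have hfac : (0 : ℝ) < t.factorial := by positivity
  have h4 : (t : ℝ) ^ t ≤ Real.exp t * t.factorial := by
    rwa [div_le_iff₀ hfac] at h3
  have h5 : (Real.exp 1 * B * ρ) ^ t ≤ (t : ℝ) ^ t :=
    pow_le_pow_left₀ (by positivity) h2.le t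
  have hρt : 0 < ρ ^ t := by positivity
  have hexp : Real.exp 1 ^ t = Real.exp t := by
    rw [← Real.exp_nat_mul]
    congr 1
    ring
  have h6 : Real.exp t * (B ^ t * ρ ^ t) ≤ Real.exp t * (n ^ b * ρ ^ t) := by
    calc Real.exp t * (B ^ t * ρ ^ t) = (Real.exp 1 * B * ρ) ^ t := by
          rw [mul_pow, mul_pow, hexp]
          ring
      _ ≤ (t : ℝ) ^ t := h5
      _ ≤ Real.exp t * t.factorial := h4
      _ ≤ Real.exp t * (n ^ b * ρ ^ t) := mul_le_mul_of_nonneg_left hf (Real.exp_pos _).le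
  have h7 : B ^ t * ρ ^ t ≤ n ^ b * ρ ^ t := le_of_mul_le_mul_left h6 (Real.exp_pos _)
  have h8 : B ^ t ≤ n ^ b := le_of_mul_le_mul_right h7 hρt
  have h9 := Real.log_le_log (by positivity) h8
  rw [Real.log_pow, Real.log_pow] at h9
  have h10 : (t : ℝ) ≤ b * Real.log n / Real.log B := by
    rw [le_div_iff₀ hlB]
    exact h9
  linarith

lemma sq_le_four_pow' (a : ℕ) : ((a : ℝ)) * a ≤ 4 ^ a := by
  have h : a < 2 ^ a := Nat.lt_two_pow_self
  have h1 : (a : ℝ) ≤ 2 ^ a := by exact_mod_cast h.le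
  have h3 : (4 : ℝ) ^ a = 2 ^ a * 2 ^ a := by
    rw [← mul_pow]
    norm_num
  rw [h3]
  exact mul_le_mul h1 h1 (Nat.cast_nonneg _) (by positivity)

set_option maxHeartbeats 400000 in
/-- The numerical heart.  `a` vertices, `m` new edges, `e` edges inside, `b` core vertices. -/
theorem near_numeric {a b m e t c' : ℕ} {x Q ρ₁ τ B C₀ L ρ : ℝ}
    (ha : 1 ≤ a) (hm : 1 ≤ m) (hab : a + b ≤ m + 1) (hae : a ≤ e + 1) (hem : e ≤ m)
    (hx : 1 ≤ x) (hQ0 : 0 < Q) (hQx : Q ≤ x)
    (hτ0 : 0 ≤ τ) (hτ : τ ≤ 1 / 8)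
    (hcap : (m : ℝ) ≤ ρ₁ * a + τ * ((m : ℝ) - e))
    (hacc : ρ₁ * Q ≤ x + 1)
    (hρ : ρ = Real.exp (a * x - m * Q))
    (hB : Real.exp 1 ≤ B) (hC₀ : 1 ≤ C₀) (hc' : (c' : ℝ) ≤ C₀)
    (hL1 : C₀ * B * Real.exp ((4 / 3) * ((x + 1 - Q) / Q) * Real.log x) *
      Real.exp ((8 / 3) * τ * (x + 1 - Q)) ≤ L)
    (hL2 : x / Real.log B ≤ L * Real.exp (x - Q))
    (ht1 : 1 ≤ t)
    (hdich : (t : ℝ) ≤ b * x / Real.log B ∨ (t : ℝ) ≤ Real.exp 1 * B * ρ) :
    (a : ℝ) * (t * a) * c' ^ (a - 1) ≤ (8 * Real.exp 2) ^ a * (2 * L) ^ m * ρ := by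
  have hE1 : (1 : ℝ) ≤ Real.exp 1 := Real.one_le_exp (by norm_num)
  have hB1 : 1 ≤ B := hE1.trans hB
  have hB0 : 0 < B := by linarith
  have hlB : 1 ≤ Real.log B := by
    have := Real.log_le_log (Real.exp_pos 1) hB
    rwa [Real.log_exp] at this
  have hℓ : 1 ≤ x + 1 - Q := by linarith
  have hlx : 0 ≤ Real.log x := Real.log_nonneg hx
  obtain ⟨ℓ, hℓdef⟩ : ∃ ℓ, ℓ = x + 1 - Q := ⟨_, rfl⟩
  rw [← hℓdef] at hL1 hℓ
  obtain ⟨X, hXdef⟩ : ∃ X, X = Real.exp ((4 / 3) * (ℓ / Q) * Real.log x) := ⟨_, rfl⟩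
  obtain ⟨D, hDdef⟩ : ∃ D, D = (8 / 3) * τ * ℓ := ⟨_, rfl⟩
  rw [← hXdef, ← hDdef] at hL1
  have hℓ0 : 0 ≤ ℓ := by linarith
  have hX1 : 1 ≤ X := by
    rw [hXdef]
    exact Real.one_le_exp (by positivity)
  have hD0 : 0 ≤ D := by
    rw [hDdef]
    positivity
  have hY1 : 1 ≤ Real.exp D := Real.one_le_exp hD0
  have hC0 : 0 < C₀ := by linarith
  have hLC : C₀ * B ≤ L := by
    refine le_trans ?_ hL1
    have h1 : C₀ * B * 1 * 1 ≤ C₀ * B * X * Real.exp D := by gcongr
    simpa using h1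
  have hLXY : C₀ * X * Real.exp D ≤ L := by
    refine le_trans ?_ hL1
    have h1 : C₀ * X * Real.exp D = C₀ * 1 * X * Real.exp D := by ring
    rw [h1]
    gcongr
  have hLB : B ≤ L := by
    have h1 : B ≤ C₀ * B := le_mul_of_one_le_left hB0.le hC₀
    exact h1.trans hLC
  have hL1' : 1 ≤ L := hB1.trans hLB
  have hL0 : 0 < L := by linarith
  have hLc : (c' : ℝ) ≤ L := by
    have h1 : C₀ ≤ C₀ * B := le_mul_of_one_le_right hC0.le hB1
    exact hc'.trans (h1.trans hLC)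
  have hc0 : (0 : ℝ) ≤ c' := Nat.cast_nonneg _
  have hρ0 : 0 < ρ := by
    rw [hρ]
    exact Real.exp_pos _
  have ha0 : (0 : ℝ) < a := by exact_mod_cast ha
  have ham : a ≤ m + 1 := by omega
  have hE2 : Real.exp 2 = Real.exp 1 * Real.exp 1 := by
    rw [← Real.exp_add]
    norm_num
  have h2L : L ^ m ≤ (2 * L) ^ m := by
    apply pow_le_pow_left₀ hL0.le
    linarith
  have hA0 : (0 : ℝ) < (8 * Real.exp 2) ^ a := by positivity
  have hsq := sq_le_four_pow' a
  have h4 : (4 : ℝ) ^ a ≤ 8 ^ a := pow_le_pow_left₀ (by norm_num) (by norm_num) a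
  have hexpa : (1 : ℝ) ≤ Real.exp 2 ^ a := one_le_pow₀ (Real.one_le_exp (by norm_num))
  have h8 : (8 * Real.exp 2) ^ a = 8 ^ a * Real.exp 2 ^ a := mul_pow _ _ _
  have hE2a : Real.exp 1 ≤ Real.exp 2 ^ a := by
    calc Real.exp 1 ≤ Real.exp 2 := Real.exp_le_exp.2 (by norm_num)
      _ = Real.exp 2 ^ 1 := (pow_one _).symm
      _ ≤ Real.exp 2 ^ a := pow_le_pow_right₀ (Real.one_le_exp (by norm_num)) ha
  rcases hdich with hd | hd
  swap
  · -- many copies
    have hBc : B * (c' : ℝ) ^ (a - 1) ≤ L ^ m := by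
      rcases Nat.lt_or_ge a 2 with h1 | h1
      · have ha1 : a = 1 := by omega
        rw [ha1]
        simp only [Nat.sub_self, pow_zero, mul_one]
        calc B ≤ L := hLB
          _ = L ^ 1 := (pow_one _).symm
          _ ≤ L ^ m := pow_le_pow_right₀ hL1' hm
      · have h2 : B ≤ B ^ (a - 1) := by
          calc B = B ^ 1 := (pow_one _).symm
            _ ≤ B ^ (a - 1) := pow_le_pow_right₀ hB1 (by omega)
        have h3 : (c' : ℝ) ^ (a - 1) ≤ C₀ ^ (a - 1) := pow_le_pow_left₀ hc0 hc' _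
        calc B * (c' : ℝ) ^ (a - 1) ≤ B ^ (a - 1) * C₀ ^ (a - 1) :=
              mul_le_mul h2 h3 (by positivity) (by positivity)
          _ = (C₀ * B) ^ (a - 1) := by rw [mul_pow]; ring
          _ ≤ L ^ (a - 1) := pow_le_pow_left₀ (by positivity) hLC _
          _ ≤ L ^ m := pow_le_pow_right₀ hL1' (by omega)
    have h1 : (a : ℝ) * (t * a) * c' ^ (a - 1) ≤ (a : ℝ) * ((Real.exp 1 * B * ρ) * a) * c' ^ (a - 1) := by
      gcongr
    refine h1.trans ?_
    have h2 : (a : ℝ) * ((Real.exp 1 * B * ρ) * a) * c' ^ (a - 1) =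
        ((a : ℝ) * a * Real.exp 1) * (B * (c' : ℝ) ^ (a - 1)) * ρ := by ring
    rw [h2]
    have h3 : (a : ℝ) * a * Real.exp 1 ≤ (8 * Real.exp 2) ^ a := by
      rw [h8]
      exact mul_le_mul (hsq.trans h4) hE2a (by positivity) (by positivity)
    have h5 : B * (c' : ℝ) ^ (a - 1) ≤ (2 * L) ^ m := hBc.trans h2L
    exact mul_le_mul_of_nonneg_right (mul_le_mul h3 h5 (by positivity) (by positivity)) hρ0.le
  -- few copies
  have hb1 : 1 ≤ b := by
    by_contra hb
    have hb0 : b = 0 := by omega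
    rw [hb0] at hd
    have : (1 : ℝ) ≤ t := by exact_mod_cast ht1
    simp only [Nat.cast_zero, zero_mul, zero_div] at hd
    linarith
  have hma : a ≤ m := by omega
  have hmcast : (a : ℝ) ≤ m := by exact_mod_cast hma
  have hem' : (e : ℝ) ≤ m := by exact_mod_cast hem
  have hae' : (a : ℝ) ≤ e + 1 := by exact_mod_cast hae
  obtain ⟨r, hrdef⟩ : ∃ r, r = ρ₁ - 1 := ⟨_, rfl⟩
  have hρ₁ : ρ₁ = 1 + r := by rw [hrdef]; ring
  obtain ⟨b', hb'⟩ : ∃ b', b' = (m : ℝ) - e := ⟨_, rfl⟩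
  have hb'0 : 0 ≤ b' := by rw [hb']; linarith
  rw [← hb', hρ₁] at hcap
  have hb'bd : (1 - τ) * b' ≤ r * a + 1 := by
    have hm' : (m : ℝ) = e + b' := by rw [hb']; ring
    rw [hm'] at hcap
    have h1 : (1 + r) * a = a + r * a := by ring
    have h2 : (1 - τ) * b' = b' - τ * b' := by ring
    rw [h2]
    linarith
  have h78 : 7 / 8 * b' ≤ (1 - τ) * b' := by
    have h1 : τ * b' ≤ 1 / 8 * b' := mul_le_mul_of_nonneg_right hτ hb'0
    have h2 : (1 - τ) * b' = b' - τ * b' := by ring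
    rw [h2]
    linarith
  by_cases hbig : 3 / 4 ≤ r * a
  · -- a big block
    have hrpos : 0 < r := by
      by_contra hr
      push Not at hr
      have := mul_nonpos_of_nonpos_of_nonneg hr ha0.le
      linarith
    have hb'2 : b' ≤ (8 / 3) * (r * a) := by linarith
    have hrQ : r * Q ≤ ℓ := by
      rw [hℓdef, hrdef]
      have h1 : (ρ₁ - 1) * Q = ρ₁ * Q - Q := by ring
      rw [h1]
      linarith
    have hlogρ : -(a : ℝ) * (1 + D) ≤ a * x - m * Q := by
      have h1 : (m : ℝ) * Q ≤ ((1 + r) * a + τ * b') * Q :=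
        mul_le_mul_of_nonneg_right hcap hQ0.le
      have h2 : (1 + r) * Q ≤ x + 1 := by
        rw [← hρ₁]
        exact hacc
      have h3 : ((1 + r) * a) * Q ≤ a * (x + 1) := by
        have h4 := mul_le_mul_of_nonneg_left h2 ha0.le
        calc ((1 + r) * a) * Q = a * ((1 + r) * Q) := by ring
          _ ≤ _ := h4
      have h5 : τ * b' * Q ≤ τ * ((8 / 3) * (r * a)) * Q := by
        apply mul_le_mul_of_nonneg_right _ hQ0.le
        exact mul_le_mul_of_nonneg_left hb'2 hτ0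
      have h6 : τ * ((8 / 3) * (r * a)) * Q = (8 / 3) * τ * a * (r * Q) := by ring
      have h7 : (8 / 3) * τ * a * (r * Q) ≤ (8 / 3) * τ * a * ℓ :=
        mul_le_mul_of_nonneg_left hrQ (by positivity)
      have h9 : (a : ℝ) * D = (8 / 3) * τ * a * ℓ := by
        rw [hDdef]
        ring
      have e1 : ((1 + r) * a + τ * b') * Q = ((1 + r) * a) * Q + τ * b' * Q := by ring
      have e2 : (a : ℝ) * (x + 1) = a * x + a := by ring
      have e3 : -(a : ℝ) * (1 + D) = -(a : ℝ) - a * D := by ring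
      rw [e3]
      linarith
    have hρlow : Real.exp (-(a : ℝ)) * Real.exp (-(a : ℝ) * D) ≤ ρ := by
      rw [hρ, ← Real.exp_add]
      apply Real.exp_le_exp.2
      linarith
    -- the power of `X`
    have hXa : x ≤ X ^ a := by
      rw [hXdef, ← Real.exp_nat_mul]
      have h1 : 1 ≤ (a : ℝ) * ((4 / 3) * (ℓ / Q)) := by
        have h2 : r ≤ ℓ / Q := by
          rw [le_div_iff₀ hQ0]
          exact hrQ
        have h3 : r * a ≤ (ℓ / Q) * a := mul_le_mul_of_nonneg_right h2 ha0.le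
        have h4 : (a : ℝ) * ((4 / 3) * (ℓ / Q)) = (4 / 3) * ((ℓ / Q) * a) := by ring
        rw [h4]
        linarith
      calc x = Real.exp (Real.log x) := (Real.exp_log (by linarith)).symm
        _ ≤ _ := by
            apply Real.exp_le_exp.2
            have h2 := mul_le_mul_of_nonneg_right h1 hlx
            calc Real.log x = 1 * Real.log x := (one_mul _).symm
              _ ≤ (a : ℝ) * ((4 / 3) * (ℓ / Q)) * Real.log x := h2
              _ = _ := by ring
    have hYa : Real.exp D ^ a = Real.exp ((a : ℝ) * D) := by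
      rw [← Real.exp_nat_mul]
    have hCa : (c' : ℝ) ^ (a - 1) ≤ C₀ ^ a := by
      calc (c' : ℝ) ^ (a - 1) ≤ C₀ ^ (a - 1) := pow_le_pow_left₀ hc0 hc' _
        _ ≤ C₀ ^ a := pow_le_pow_right₀ hC₀ (by omega)
    have hLa : (c' : ℝ) ^ (a - 1) * x * Real.exp ((a : ℝ) * D) ≤ L ^ m := by
      calc (c' : ℝ) ^ (a - 1) * x * Real.exp ((a : ℝ) * D)
          ≤ C₀ ^ a * X ^ a * Real.exp D ^ a := by
            rw [hYa]
            gcongr
        _ = (C₀ * X * Real.exp D) ^ a := by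
            rw [mul_pow, mul_pow]
        _ ≤ L ^ a := pow_le_pow_left₀ (by positivity) hLXY _
        _ ≤ L ^ m := pow_le_pow_right₀ hL1' hma
    have hbm : (b : ℝ) ≤ 2 ^ m := by
      have h1 : m < 2 ^ m := Nat.lt_two_pow_self
      have h2 : b ≤ 2 ^ m := by omega
      exact_mod_cast h2
    have htx : (t : ℝ) ≤ b * x := by
      refine hd.trans ?_
      rw [div_le_iff₀ (by linarith)]
      have : 0 ≤ (b : ℝ) * x := by positivity
      exact le_mul_of_one_le_right this hlB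
    have h1 : (a : ℝ) * (t * a) * c' ^ (a - 1) ≤ (a : ℝ) * ((b * x) * a) * c' ^ (a - 1) := by
      gcongr
    refine h1.trans ?_
    have hmul : (2 * L) ^ m = 2 ^ m * L ^ m := mul_pow _ _ _
    rw [hmul]
    have hexp1 : Real.exp (-(a : ℝ)) * Real.exp a = 1 := by
      rw [← Real.exp_add]
      simp
    have hexpD : Real.exp (-(a : ℝ) * D) * Real.exp ((a : ℝ) * D) = 1 := by
      rw [← Real.exp_add]
      have : -(a : ℝ) * D + (a : ℝ) * D = 0 := by ring
      rw [this, Real.exp_zero]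
    have hexpa1 : Real.exp a = Real.exp 1 ^ a := by
      rw [← Real.exp_nat_mul]
      congr 1
      ring
    have h4e : (a : ℝ) * a * Real.exp a ≤ (8 * Real.exp 2) ^ a := by
      rw [h8, hexpa1]
      have h5 : Real.exp 1 ^ a ≤ Real.exp 2 ^ a :=
        pow_le_pow_left₀ (Real.exp_pos 1).le (Real.exp_le_exp.2 (by norm_num)) a
      exact mul_le_mul (hsq.trans h4) h5 (by positivity) (by positivity)
    set E1 := Real.exp (-(a : ℝ)) with hE1def
    set E2 := Real.exp (-(a : ℝ) * D) with hE2def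
    have hE1p : 0 < E1 := Real.exp_pos _
    have hE2p : 0 < E2 := Real.exp_pos _
    calc (a : ℝ) * ((b * x) * a) * c' ^ (a - 1)
        = ((a : ℝ) * a * (E1 * Real.exp a)) * b * (E2 * Real.exp ((a : ℝ) * D)) *
            (c' ^ (a - 1) * x) := by
          rw [hexp1, hexpD]
          ring
      _ = ((a : ℝ) * a * Real.exp a) * b * ((c' ^ (a - 1) * x) * Real.exp ((a : ℝ) * D)) * (E1 * E2) := by
          ring
      _ ≤ (8 * Real.exp 2) ^ a * 2 ^ m * L ^ m * (E1 * E2) := by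
          have hz : 0 ≤ (c' : ℝ) ^ (a - 1) * x * Real.exp ((a : ℝ) * D) := by positivity
          have h5 : ((a : ℝ) * a * Real.exp a) * b ≤ (8 * Real.exp 2) ^ a * 2 ^ m :=
            mul_le_mul h4e hbm (by positivity) (by positivity)
          have h6 : ((a : ℝ) * a * Real.exp a) * b * ((c' ^ (a - 1) * x) * Real.exp ((a : ℝ) * D)) ≤
              (8 * Real.exp 2) ^ a * 2 ^ m * L ^ m :=
            mul_le_mul h5 hLa hz (by positivity)
          exact mul_le_mul_of_nonneg_right h6 (by positivity)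
      _ ≤ (8 * Real.exp 2) ^ a * 2 ^ m * L ^ m * ρ := by
          apply mul_le_mul_of_nonneg_left hρlow (by positivity)
      _ = _ := by ring
  · -- a small block: `m = a`
    push Not at hbig
    have hτb : τ * b' ≤ 1 / 4 := by
      have h1 : b' ≤ 2 := by linarith
      have h2 : τ * b' ≤ 1 / 8 * 2 := mul_le_mul hτ h1 hb'0 (by norm_num)
      linarith
    have hm' : (m : ℝ) < a + 1 := by
      have : (1 + r) * a = a + r * a := by ring
      linarith
    have hma2 : m ≤ a := by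
      have : (m : ℝ) < ((a + 1 : ℕ) : ℝ) := by
        push_cast
        exact hm'
      have h1 : m < a + 1 := by exact_mod_cast this
      omega
    have hmaeq : m = a := le_antisymm hma2 hma
    have hb1' : b = 1 := by omega
    subst hmaeq
    subst hb1'
    simp only [Nat.cast_one, one_mul] at hd
    obtain ⟨K, hKdef⟩ : ∃ K, K = Real.exp (x - Q) := ⟨_, rfl⟩
    rw [← hKdef] at hL2
    have hK1 : 1 ≤ K := by
      rw [hKdef]
      exact Real.one_le_exp (by linarith)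
    have hρK : ρ = K ^ m := by
      rw [hρ, hKdef, ← Real.exp_nat_mul]
      congr 1
      ring
    have htLK : (t : ℝ) ≤ L * K := hd.trans hL2
    have hLLK : L ≤ L * K := le_mul_of_one_le_right hL0.le hK1
    have hLK : (c' : ℝ) ≤ L * K := hLc.trans hLLK
    have hLKp : 1 ≤ L * K := hL1'.trans hLLK
    have hpow : (c' : ℝ) ^ (m - 1) ≤ (L * K) ^ (m - 1) := pow_le_pow_left₀ hc0 hLK _
    have hsplit : (L * K) ^ m = (L * K) * (L * K) ^ (m - 1) := by
      rw [← pow_succ']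
      congr 1
      omega
    have h1 : (t : ℝ) * (c' : ℝ) ^ (m - 1) ≤ (L * K) ^ m := by
      rw [hsplit]
      exact mul_le_mul htLK hpow (by positivity) (by positivity)
    have h3 : (L * K) ^ m ≤ (2 * L) ^ m * K ^ m := by
      rw [← mul_pow]
      apply pow_le_pow_left₀ (by positivity)
      exact mul_le_mul_of_nonneg_right (by linarith) (by linarith)
    have h5 : (m : ℝ) * m ≤ (8 * Real.exp 2) ^ m := by
      rw [h8]
      have : (8 : ℝ) ^ m * 1 ≤ 8 ^ m * Real.exp 2 ^ m :=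
        mul_le_mul_of_nonneg_left hexpa (by positivity)
      linarith
    rw [hρK]
    calc (m : ℝ) * (t * m) * c' ^ (m - 1) = ((m : ℝ) * m) * (t * c' ^ (m - 1)) := by ring
      _ ≤ (8 * Real.exp 2) ^ m * ((2 * L) ^ m * K ^ m) :=
          mul_le_mul h5 (h1.trans h3) (by positivity) (by positivity)
      _ = _ := by ring

end Vale.Agent.Lib.P064N
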