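import Vale.Agent.Lib.P064N.Weights
import Vale.Agent.Lib.P064N.Num

/-!
The block argument with heavy arcs: arcs are the darts carrying at least `T` of the `M` tokens of
an edge.  A strong block that is not tree-like has at least `3 / (4 r)` vertices, and the tokens lost
on its boundary cost at most `exp (8/3 τ (1 + log (n q)))` per vertex.
-/

open Finset

namespace Vale.Agent.Lib.P064N

open Vale.Agent.Lib.P064

open scoped Classical

variable {V α : Type} [Fintype V] [Fintype α] {H : SimpleGraph V} {F : SimpleGraph α} {n : ℕ}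
  {q : ℝ}

/-- The count over a block, with a parameter `B`. -/
lemma block_count_B (hG : GoodDensity n q H) (hq0 : 0 < q) (hq1 : q ≤ 1) (hn : 1 ≤ n)
    (Arc : V → V → Prop) (c : ℕ) (hc : ∀ a, (univ.filter fun b => Arc a b).card ≤ c)
    {R : Finset (α × α)} {E C : Finset α} (hb : IsBlock R E C)
    (S : Finset (α → V)) (hS : S.Nonempty) (hinj : ∀ φ ∈ S, Function.Injective φ)
    (hhom : ∀ φ ∈ S, ∀ u v, F.Adj u v → H.Adj (φ u) (φ v))
    (hSR : ∀ φ ∈ S, ∀ d ∈ R, Arc (φ d.1) (φ d.2))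
    {φ₀ : α → V} (hagree : ∀ φ ∈ S, ∀ x ∈ E, φ x = φ₀ x)
    (hm : 1 ≤ (newE F E C).card) {B : ℝ} (hB : 1 < B) :
    ∃ t : ℕ, 1 ≤ t ∧ ((t : ℝ) ≤ (core F E C).card * Real.log n / Real.log B ∨
        (t : ℝ) ≤ Real.exp 1 * B * ((n : ℝ) ^ C.card * q ^ (newE F E C).card)) ∧
      (S.image (proj (E ∪ C))).card ≤ C.card * (t * C.card) * c ^ (C.card - 1) := by
  have hn1 : (1 : ℝ) ≤ n := by exact_mod_cast hn
  have hn0 : (0 : ℝ) < n := by linarith
  obtain ⟨𝓜, hsub, hne𝓜, hdisj, hcov⟩ := exists_max_family S hS hb.ne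
  obtain ⟨φ₁, hφ₁⟩ := hne𝓜
  have hag' : ∀ φ ∈ 𝓜, ∀ x ∈ E, φ x = φ₁ x := by
    intro φ hφ x hx
    rw [hagree φ (hsub hφ) x hx, hagree φ₁ (hsub hφ₁) x hx]
  have hfac := sun_factorial hG hq0 hq1 hb.ne hb.disj 𝓜 hφ₁ (fun φ hφ => hinj φ (hsub hφ))
    (fun φ hφ => hhom φ (hsub hφ)) hag' hdisj hm
  have hρ0 : 0 < (n : ℝ) ^ C.card * q ^ (newE F E C).card := by positivity
  have ht1 : 1 ≤ 𝓜.card := Finset.card_pos.2 ⟨φ₁, hφ₁⟩
  exact ⟨𝓜.card, ht1, t_bound_B hn1 hρ0 hB ht1 hfac, cover_count Arc c hc hb S hSR hagree 𝓜 hcov⟩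

/-- One block, with heavy arcs. -/
lemma near_block (hG : GoodDensity n q H) (hq0 : 0 < q) (hq1 : q ≤ 1) (hn : 2 ≤ n)
    {w : V → V → ℕ} {M c T : ℕ} (hM : 1 ≤ M) (hT : 1 ≤ T)
    (hw : ∀ a b, H.Adj a b → w a b + w b a = M) (hs : ∀ a, ∑ b, w a b ≤ c)
    {B C₀ L : ℝ}
    (hx : 1 ≤ Real.log n) (hQ0 : 0 < - Real.log q) (hQx : - Real.log q ≤ Real.log n)
    (hτ : (T : ℝ) / M ≤ 1 / 8)
    (hacc : (c : ℝ) / M * (- Real.log q) ≤ Real.log n + 1)
    (hB : Real.exp 1 ≤ B) (hC₀ : 1 ≤ C₀) (hc' : ((c / T : ℕ) : ℝ) ≤ C₀)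
    (hL1 : C₀ * B * Real.exp ((4 / 3) * ((Real.log n + 1 - (- Real.log q)) / (- Real.log q)) *
        Real.log (Real.log n)) *
      Real.exp ((8 / 3) * ((T : ℝ) / M) * (Real.log n + 1 - (- Real.log q))) ≤ L)
    (hL2 : Real.log n / Real.log B ≤ L * Real.exp (Real.log n - (- Real.log q)))
    {R : Finset (α × α)} (hRF : ∀ u v, (u, v) ∈ R → F.Adj u v)
    {E W : Finset α} (hne : W.Nonempty) (hdisj : Disjoint W E)
    (hEW : ∀ u v, (u, v) ∈ R → u ∈ E → v ∉ W)
    (hconn : ∀ D : Finset α, D.Nonempty → D ⊆ W → D ≠ W → ∃ u ∈ D, ∃ v ∈ W \ D, (u, v) ∈ R)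
    (hm1 : 1 ≤ (newE F E W).card)
    (S : Finset (α → V)) (hinj : ∀ φ ∈ S, Function.Injective φ)
    (hhom : ∀ φ ∈ S, ∀ u v, F.Adj u v → H.Adj (φ u) (φ v))
    (hSR : ∀ φ ∈ S, ∀ d ∈ R, ArcT H w T (φ d.1) (φ d.2))
    (hSR' : ∀ φ ∈ S, ∀ u v, F.Adj u v → ArcT H w T (φ u) (φ v) → (u, v) ∈ R)
    {φ₀ : α → V} (hagree : ∀ φ ∈ S, ∀ x ∈ E, φ x = φ₀ x) :
    ((S.image (proj (E ∪ W))).card : ℝ) ≤
      (8 * Real.exp 2) ^ W.card * (2 * L) ^ (newE F E W).card *
        ((n : ℝ) ^ W.card * q ^ (newE F E W).card) := by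
  have hn2 : (2 : ℝ) ≤ n := by exact_mod_cast hn
  have hn1 : (1 : ℝ) ≤ n := by linarith
  have hn0 : (0 : ℝ) < n := by linarith
  have hn' : 1 ≤ n := by omega
  by_cases hS : S.Nonempty
  swap
  · rw [Finset.not_nonempty_iff_eq_empty] at hS
    rw [hS]
    simp only [Finset.image_empty, Finset.card_empty, Nat.cast_zero]
    have hL0 : 0 ≤ L := by
      refine le_trans ?_ hL1
      have hB0 : 0 < B := lt_of_lt_of_le (Real.exp_pos 1) hB
      positivity
    positivity
  obtain ⟨φ₁, hφ₁⟩ := hS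
  set R' : Finset (α × α) := R.filter (fun p => p.1 ∈ W ∧ p.2 ∈ W) with hR'
  have hb : IsBlock R' E W := by
    refine ⟨hne, hdisj, ?_, ?_⟩
    · intro u v huv _
      exact Finset.mem_union_right _ (Finset.mem_filter.1 huv).2.2
    · intro x hx D hxD hDW hDne
      obtain ⟨u, hu, v, hv, huv⟩ := hconn D ⟨x, hxD⟩ hDW hDne
      refine ⟨u, hu, v, hv, Finset.mem_filter.2 ⟨huv, hDW hu, (Finset.mem_sdiff.1 hv).1⟩⟩
  have hRF' : ∀ u v, (u, v) ∈ R' → F.Adj u v := fun u v h => hRF u v (Finset.mem_filter.1 h).1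
  have hab := newE_card R' hRF' hb
  have hB1 : 1 < B := lt_of_lt_of_le (by
    have := Real.add_one_lt_exp (x := 1) (by norm_num)
    linarith) hB
  obtain ⟨t, ht1, hdich, hcount⟩ := block_count_B hG hq0 hq1 hn' (ArcT H w T) (c / T)
    (arcT_out hs hT) hb S ⟨φ₁, hφ₁⟩ hinj hhom
    (fun φ hφ d hd => hSR φ hφ d (Finset.mem_filter.1 hd).1) hagree hm1 hB1
  have hcap := capacity_w (F := F) hw hs hdisj hEW (hinj φ₁ hφ₁) (hhom φ₁ hφ₁) (hSR' φ₁ hφ₁)
  have hae := card_le_eIn (F := F) hRF hne hconn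
  have hem : (eIn F W).card ≤ (newE F E W).card := Finset.card_le_card (eIn_subset_newE hdisj)
  set a := W.card with ha
  set m := (newE F E W).card with hm
  set e := (eIn F W).card with he
  have ha1 : 1 ≤ a := Finset.card_pos.2 hne
  have hMpos : (0 : ℝ) < M := by exact_mod_cast hM
  have hcast : ((S.image (proj (E ∪ W))).card : ℝ) ≤ (a : ℝ) * (t * a) * ((c / T : ℕ) : ℝ) ^ (a - 1) := by
    exact_mod_cast hcount
  refine hcast.trans ?_
  have hρdef : (n : ℝ) ^ a * q ^ m = Real.exp (a * Real.log n - m * (- Real.log q)) := by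
    have h1 : (n : ℝ) ^ a = Real.exp (a * Real.log n) := by
      rw [Real.exp_nat_mul, Real.exp_log hn0]
    have h2 : q ^ m = Real.exp (m * Real.log q) := by
      rw [Real.exp_nat_mul, Real.exp_log hq0]
    rw [h1, h2, ← Real.exp_add]
    congr 1
    ring
  have hcap' : (m : ℝ) ≤ (c : ℝ) / M * a + (T : ℝ) / M * ((m : ℝ) - e) := by
    have h1 : (M : ℝ) * m ≤ c * a + T * ((m : ℝ) - e) := by
      have h2 : ((M * m : ℕ) : ℝ) ≤ ((c * a + T * (m - e) : ℕ) : ℝ) := by exact_mod_cast hcap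
      push_cast [Nat.cast_sub hem] at h2
      exact h2
    have h3 : (c : ℝ) / M * a + (T : ℝ) / M * ((m : ℝ) - e) = (c * a + T * ((m : ℝ) - e)) / M := by
      field_simp
    rw [h3, le_div_iff₀ hMpos]
    linarith
  have hdich' : (t : ℝ) ≤ (core F E W).card * Real.log n / Real.log B ∨
      (t : ℝ) ≤ Real.exp 1 * B * Real.exp (a * Real.log n - m * (- Real.log q)) := by
    rwa [hρdef] at hdich
  have hτ0 : (0 : ℝ) ≤ (T : ℝ) / M := by positivity
  rw [hρdef]
  exact near_numeric ha1 hm1 hab hae hem hx hQ0 hQx hτ0 hτ hcap' hacc rfl hB hC₀ hc' hL1 hL2 ht1 hdich'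

/-- The main induction for heavy arcs. -/
theorem near_main (hG : GoodDensity n q H) (hq0 : 0 < q) (hq1 : q ≤ 1) (hn : 2 ≤ n)
    (hV : Fintype.card V ≤ n)
    {w : V → V → ℕ} {M c T : ℕ} (hM : 1 ≤ M) (hT : 1 ≤ T)
    (hw : ∀ a b, H.Adj a b → w a b + w b a = M) (hs : ∀ a, ∑ b, w a b ≤ c)
    {B C₀ L : ℝ}
    (hx : 1 ≤ Real.log n) (hQ0 : 0 < - Real.log q) (hQx : - Real.log q ≤ Real.log n)
    (hτ : (T : ℝ) / M ≤ 1 / 8)
    (hacc : (c : ℝ) / M * (- Real.log q) ≤ Real.log n + 1)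
    (hB : Real.exp 1 ≤ B) (hC₀ : 1 ≤ C₀) (hc' : ((c / T : ℕ) : ℝ) ≤ C₀)
    (hL1 : C₀ * B * Real.exp ((4 / 3) * ((Real.log n + 1 - (- Real.log q)) / (- Real.log q)) *
        Real.log (Real.log n)) *
      Real.exp ((8 / 3) * ((T : ℝ) / M) * (Real.log n + 1 - (- Real.log q))) ≤ L)
    (hL2 : Real.log n / Real.log B ≤ L * Real.exp (Real.log n - (- Real.log q)))
    {K : ℝ} (hKdef : K = 2 * L) (hK1 : 1 ≤ K)
    {R : Finset (α × α)} (hRF : ∀ u v, (u, v) ∈ R → F.Adj u v) (k : ℕ) :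
    ∀ (E W : Finset α) (S : Finset (α → V)) (φ₀ : α → V), W.card ≤ k → Disjoint W E →
      (∀ u v, (u, v) ∈ R → u ∈ E → v ∉ W) →
      (∀ φ ∈ S, Function.Injective φ) →
      (∀ φ ∈ S, ∀ u v, F.Adj u v → H.Adj (φ u) (φ v)) →
      (∀ φ ∈ S, ∀ d ∈ R, ArcT H w T (φ d.1) (φ d.2)) →
      (∀ φ ∈ S, ∀ u v, F.Adj u v → ArcT H w T (φ u) (φ v) → (u, v) ∈ R) →
      (∀ φ ∈ S, ∀ x ∈ E, φ x = φ₀ x) →
      ((S.image (proj (E ∪ W))).card : ℝ) ≤
        (8 * Real.exp 2) ^ W.card * K ^ (newE F E W).card *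
          ((n : ℝ) ^ W.card * q ^ (newE F E W).card) := by
  have hn2 : (2 : ℝ) ≤ n := by exact_mod_cast hn
  have hn1 : (1 : ℝ) ≤ n := by linarith
  have hn0 : (0 : ℝ) < n := by linarith
  have hn' : 1 ≤ n := by omega
  have hK0 : (0 : ℝ) < K := by linarith
  have hE2 : (1 : ℝ) ≤ Real.exp 2 := Real.one_le_exp (by norm_num)
  have hA : Real.exp 2 ≤ 8 * Real.exp 2 := by linarith
  induction k with
  | zero =>
    intro E W S φ₀ hW _ _ _ _ _ _ hagree
    have hW0 : W = ∅ := Finset.card_eq_zero.1 (Nat.le_zero.1 hW)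
    subst hW0
    have h1 : (S.image (proj (E ∪ ∅))).card ≤ 1 := by
      refine Finset.card_le_one.2 ?_
      intro a ha b hb
      obtain ⟨φ, hφ, rfl⟩ := Finset.mem_image.1 ha
      obtain ⟨φ', hφ', rfl⟩ := Finset.mem_image.1 hb
      funext x
      rw [Finset.union_empty]
      by_cases hxE : x ∈ E
      · simp [proj, hxE, hagree φ hφ x hxE, hagree φ' hφ' x hxE]
      · simp [proj, hxE]
    have h2 : (newE F E ∅).card = 0 := by
      have : newE F E ∅ = ∅ := by
        unfold newE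
        simp
      rw [this]
      rfl
    rw [h2]
    simp only [Finset.card_empty, pow_zero, mul_zero, mul_one]
    exact_mod_cast h1
  | succ k ih =>
    intro E W S φ₀ hW hdisj hEW hinj hhom hSR hSR' hagree
    by_cases hne : W.Nonempty
    swap
    · rw [Finset.not_nonempty_iff_eq_empty] at hne
      subst hne
      exact ih E ∅ S φ₀ (by simp) hdisj hEW hinj hhom hSR hSR' hagree
    by_cases hl : ∃ z ∈ W, (newE F (E ∪ W.erase z) {z}).card < 1
    · -- a vertex without new edges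
      obtain ⟨z, hzW, hzT⟩ := hl
      set W' := W.erase z with hW'
      set D := E ∪ W' with hD
      have hzE : z ∉ E := fun h => Finset.disjoint_left.1 hdisj hzW h
      have hzD : z ∉ D := by
        intro h
        rcases Finset.mem_union.1 h with h | h
        · exact hzE h
        · exact (Finset.mem_erase.1 h).1 rfl
      have hWz : W = W' ∪ {z} := by
        ext y
        simp only [hW', Finset.mem_union, Finset.mem_erase, Finset.mem_singleton]
        by_cases hy : y = z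
        · subst hy
          simp [hzW]
        · simp [hy]
      have hcardW : W.card = W'.card + 1 := by
        rw [hW', Finset.card_erase_add_one hzW]
      have hU : E ∪ W = D ∪ {z} := by
        rw [hD, Finset.union_assoc, ← hWz]
      have hsplit := newE_card_split (F := F) E W' {z}
      rw [← hWz] at hsplit
      set d := (newE F D {z}).card with hd
      have hstep := card_image_proj_step_real S (D := D) (D' := E ∪ W)
        (by rw [hU]; exact Finset.subset_union_left)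
        (B := (8 * Real.exp 2) * K ^ d * ((n : ℝ) * q ^ d)) (by positivity) (by
          intro φ₁ hφ₁
          rw [hU]
          have hsub : S.filter (fun φ => proj D φ = proj D φ₁) ⊆ S := Finset.filter_subset _ _
          have h1 := peel_light (κ := 1) hG hq0 hq1 hn' hV hA le_rfl 1
            (fun d h1 h2 => absurd h2 (by omega)) hzD hzT _
            (fun φ hφ => hinj φ (hsub hφ)) (fun φ hφ => hhom φ (hsub hφ))
            (φ₀ := φ₁) (fun φ hφ x hx => proj_eq_apply hx (Finset.mem_filter.1 hφ).2)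
          refine h1.trans ?_
          rw [one_pow, mul_one]
          have h2 : (1 : ℝ) ≤ K ^ d := one_le_pow₀ hK1
          have h3 : (0 : ℝ) ≤ (8 * Real.exp 2) * ((n : ℝ) * q ^ d) := by positivity
          calc (8 * Real.exp 2) * ((n : ℝ) * q ^ d)
              ≤ K ^ d * ((8 * Real.exp 2) * ((n : ℝ) * q ^ d)) := le_mul_of_one_le_left h3 h2
            _ = _ := by ring)
      have hih := ih E W' S φ₀ (by omega)
        (Finset.disjoint_of_subset_left (Finset.erase_subset _ _) hdisj)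
        (fun u v huv hu hv => hEW u v huv hu (Finset.mem_of_mem_erase hv)) hinj hhom hSR hSR' hagree
      have hB : (0 : ℝ) ≤ (8 * Real.exp 2) * K ^ d * ((n : ℝ) * q ^ d) := by positivity
      calc ((S.image (proj (E ∪ W))).card : ℝ)
          ≤ (8 * Real.exp 2) * K ^ d * ((n : ℝ) * q ^ d) * (S.image (proj D)).card := hstep
        _ ≤ (8 * Real.exp 2) * K ^ d * ((n : ℝ) * q ^ d) *
            ((8 * Real.exp 2) ^ W'.card * K ^ (newE F E W').card *
              ((n : ℝ) ^ W'.card * q ^ (newE F E W').card)) :=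
            mul_le_mul_of_nonneg_left hih hB
        _ = _ := by
            rw [hcardW, hsplit]
            ring
    · push Not at hl
      obtain ⟨C, hCW, hCne, hCcl, hCconn⟩ := exists_min_closed R hne
      by_cases hCeq : C = W
      · subst hCeq
        have hm1 : 1 ≤ (newE F E C).card := by
          have h1 := sum_newE_single_le (F := F) E C
          have h2 : ∑ _z ∈ C, 1 ≤ ∑ z ∈ C, (newE F (E ∪ C.erase z) {z}).card :=
            Finset.sum_le_sum hl
          simp only [Finset.sum_const, smul_eq_mul, mul_one] at h2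
          have h3 : 1 ≤ C.card := Finset.card_pos.2 hne
          omega
        rw [hKdef]
        exact near_block hG hq0 hq1 hn hM hT hw hs hx hQ0 hQx hτ hacc hB hC₀ hc' hL1 hL2 hRF hne hdisj
          hEW hCconn hm1 S hinj hhom hSR hSR' hagree
      · -- split along the closed set `C`
        set W₂ := W \ C with hW₂
        have hCcard : C.card < W.card := Finset.card_lt_card (hCW.ssubset_of_ne hCeq)
        have hWU : W = C ∪ W₂ := by
          rw [hW₂, Finset.union_sdiff_of_subset hCW]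
        have hcardW : W.card = C.card + W₂.card := by
          have : Disjoint C W₂ := Finset.disjoint_sdiff
          conv_lhs => rw [hWU]
          exact Finset.card_union_of_disjoint this
        have hCpos : 1 ≤ C.card := Finset.card_pos.2 hCne
        have hU : E ∪ W = (E ∪ C) ∪ W₂ := by
          rw [Finset.union_assoc, ← hWU]
        have hsplit := newE_card_split (F := F) E C W₂
        rw [← hWU] at hsplit
        have hih1 := ih E C S φ₀ (by omega)
          (Finset.disjoint_of_subset_left hCW hdisj)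
          (fun u v huv hu hv => hEW u v huv hu (hCW hv)) hinj hhom hSR hSR' hagree
        set B₁ : ℝ := (8 * Real.exp 2) ^ W₂.card * K ^ (newE F (E ∪ C) W₂).card *
            ((n : ℝ) ^ W₂.card * q ^ (newE F (E ∪ C) W₂).card) with hB₁
        have hB₁0 : 0 ≤ B₁ := by positivity
        have hstep := card_image_proj_step_real S (D := E ∪ C) (D' := E ∪ W)
          (Finset.union_subset_union_right hCW) hB₁0 (by
            intro φ₁ hφ₁
            rw [hU]
            have hsub : S.filter (fun φ => proj (E ∪ C) φ = proj (E ∪ C) φ₁) ⊆ S :=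
              Finset.filter_subset _ _
            refine ih (E ∪ C) W₂ _ φ₁ (by omega) ?_ ?_ (fun φ hφ => hinj φ (hsub hφ))
              (fun φ hφ => hhom φ (hsub hφ)) (fun φ hφ => hSR φ (hsub hφ))
              (fun φ hφ => hSR' φ (hsub hφ))
              (fun φ hφ x hx => proj_eq_apply hx (Finset.mem_filter.1 hφ).2)
            · rw [Finset.disjoint_left]
              intro y hy hy2
              obtain ⟨h1, h2⟩ := Finset.mem_sdiff.1 hy
              rcases Finset.mem_union.1 hy2 with h3 | h3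
              · exact Finset.disjoint_left.1 hdisj h1 h3
              · exact h2 h3
            · intro u v huv hu hv
              obtain ⟨h1, h2⟩ := Finset.mem_sdiff.1 hv
              rcases Finset.mem_union.1 hu with h3 | h3
              · exact hEW u v huv h3 h1
              · exact h2 (hCcl u v huv h3 h1))
        calc ((S.image (proj (E ∪ W))).card : ℝ)
            ≤ B₁ * (S.image (proj (E ∪ C))).card := hstep
          _ ≤ B₁ * ((8 * Real.exp 2) ^ C.card * K ^ (newE F E C).card *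
                ((n : ℝ) ^ C.card * q ^ (newE F E C).card)) :=
              mul_le_mul_of_nonneg_left hih1 hB₁0
          _ = _ := by
              rw [hcardW, hsplit, hB₁]
              ring

/-- The bound for one pattern of orientations. -/
theorem fam_bound_near (hG : GoodDensity n q H) (hq0 : 0 < q) (hq1 : q ≤ 1) (hn : 2 ≤ n)
    (hV : Fintype.card V ≤ n)
    {w : V → V → ℕ} {M c T : ℕ} (hM : 1 ≤ M) (hT : 1 ≤ T)
    (hw : ∀ a b, H.Adj a b → w a b + w b a = M) (hs : ∀ a, ∑ b, w a b ≤ c)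
    {B C₀ L : ℝ}
    (hx : 1 ≤ Real.log n) (hQ0 : 0 < - Real.log q) (hQx : - Real.log q ≤ Real.log n)
    (hτ : (T : ℝ) / M ≤ 1 / 8)
    (hacc : (c : ℝ) / M * (- Real.log q) ≤ Real.log n + 1)
    (hB : Real.exp 1 ≤ B) (hC₀ : 1 ≤ C₀) (hc' : ((c / T : ℕ) : ℝ) ≤ C₀)
    (hL1 : C₀ * B * Real.exp ((4 / 3) * ((Real.log n + 1 - (- Real.log q)) / (- Real.log q)) *
        Real.log (Real.log n)) *
      Real.exp ((8 / 3) * ((T : ℝ) / M) * (Real.log n + 1 - (- Real.log q))) ≤ L)
    (hL2 : Real.log n / Real.log B ≤ L * Real.exp (Real.log n - (- Real.log q)))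
    {K : ℝ} (hKdef : K = 2 * L) (hK1 : 1 ≤ K)
    {R : Finset (α × α)} (hRF : ∀ u v, (u, v) ∈ R → F.Adj u v)
    (S : Finset (α → V)) (hinj : ∀ φ ∈ S, Function.Injective φ)
    (hhom : ∀ φ ∈ S, ∀ u v, F.Adj u v → H.Adj (φ u) (φ v))
    (hSR : ∀ φ ∈ S, ∀ d ∈ R, ArcT H w T (φ d.1) (φ d.2))
    (hSR' : ∀ φ ∈ S, ∀ u v, F.Adj u v → ArcT H w T (φ u) (φ v) → (u, v) ∈ R) :
    (S.card : ℝ) ≤ (8 * Real.exp 2) ^ Fintype.card α * K ^ (eIn F univ).card *
      ((n : ℝ) ^ Fintype.card α * q ^ (eIn F univ).card) := by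
  have hn1 : (1 : ℝ) ≤ n := by
    have : (2 : ℝ) ≤ n := by exact_mod_cast hn
    linarith
  have hK0 : (0 : ℝ) < K := by linarith
  by_cases hS : S.Nonempty
  swap
  · rw [Finset.not_nonempty_iff_eq_empty] at hS
    rw [hS]
    simp only [Finset.card_empty, Nat.cast_zero]
    positivity
  obtain ⟨φ₀, _⟩ := hS
  have h1 := near_main hG hq0 hq1 hn hV hM hT hw hs hx hQ0 hQx hτ hacc hB hC₀ hc' hL1 hL2 hKdef hK1 hRF
    (Fintype.card α) ∅ univ S φ₀ (by simp) (by simp)
    (fun _ _ _ h => absurd h (Finset.notMem_empty _)) hinj hhom hSR hSR'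
    (fun _ _ _ h => absurd h (Finset.notMem_empty _))
  have h2 : (S.image (proj ((∅ : Finset α) ∪ univ))).card = S.card := by
    rw [Finset.empty_union]
    exact Finset.card_image_of_injective _ proj_univ_injective
  have h3 : (newE F ∅ univ).card = (eIn F univ).card := by
    unfold newE
    rw [eIn_empty, Finset.empty_union, Finset.sdiff_empty]
  rw [h2, h3, Finset.card_univ] at h1
  exact h1

/-- Sum over all patterns. -/
theorem emb_bound_near (hG : GoodDensity n q H) (hq0 : 0 < q) (hq1 : q ≤ 1) (hn : 2 ≤ n)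
    (hV : Fintype.card V ≤ n)
    {w : V → V → ℕ} {M c T : ℕ} (hM : 1 ≤ M) (hT : 1 ≤ T)
    (hw : ∀ a b, H.Adj a b → w a b + w b a = M) (hs : ∀ a, ∑ b, w a b ≤ c)
    {B C₀ L : ℝ}
    (hx : 1 ≤ Real.log n) (hQ0 : 0 < - Real.log q) (hQx : - Real.log q ≤ Real.log n)
    (hτ : (T : ℝ) / M ≤ 1 / 8)
    (hacc : (c : ℝ) / M * (- Real.log q) ≤ Real.log n + 1)
    (hB : Real.exp 1 ≤ B) (hC₀ : 1 ≤ C₀) (hc' : ((c / T : ℕ) : ℝ) ≤ C₀)
    (hL1 : C₀ * B * Real.exp ((4 / 3) * ((Real.log n + 1 - (- Real.log q)) / (- Real.log q)) *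
        Real.log (Real.log n)) *
      Real.exp ((8 / 3) * ((T : ℝ) / M) * (Real.log n + 1 - (- Real.log q))) ≤ L)
    (hL2 : Real.log n / Real.log B ≤ L * Real.exp (Real.log n - (- Real.log q)))
    {K : ℝ} (hKdef : K = 2 * L) (hK1 : 1 ≤ K) :
    ((emb F H).card : ℝ) ≤ 4 ^ (eIn F univ).card *
      ((8 * Real.exp 2) ^ Fintype.card α * K ^ (eIn F univ).card *
        ((n : ℝ) ^ Fintype.card α * q ^ (eIn F univ).card)) := by
  have hn1 : (1 : ℝ) ≤ n := by
    have : (2 : ℝ) ≤ n := by exact_mod_cast hn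
    linarith
  have hn0 : (0 : ℝ) < n := by linarith
  have hK0 : (0 : ℝ) < K := by linarith
  set Bd : ℝ := (8 * Real.exp 2) ^ Fintype.card α * K ^ (eIn F univ).card *
        ((n : ℝ) ^ Fintype.card α * q ^ (eIn F univ).card) with hBd
  have hBd0 : 0 ≤ Bd := by positivity
  let pat : (α → V) → Finset (α × α) := fun φ => (darts F).filter (fun d => ArcT H w T (φ d.1) (φ d.2))
  have h1 := Finset.card_le_mul_card_image (f := pat) (emb F H) ⌊Bd⌋₊ ?_
  · have h2 : ((emb F H).image pat).card ≤ 2 ^ (darts F).card := by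
      have : (emb F H).image pat ⊆ (darts F).powerset := by
        intro R hR
        obtain ⟨φ, _, rfl⟩ := Finset.mem_image.1 hR
        exact Finset.mem_powerset.2 (Finset.filter_subset _ _)
      exact (Finset.card_le_card this).trans (by rw [Finset.card_powerset])
    have h3 : (2 : ℕ) ^ (darts F).card ≤ 4 ^ (eIn F univ).card := by
      calc (2 : ℕ) ^ (darts F).card ≤ 2 ^ (2 * (eIn F univ).card) :=
            Nat.pow_le_pow_right (by norm_num) darts_card_le
        _ = 4 ^ (eIn F univ).card := by rw [pow_mul]; norm_num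
    have h4 : (emb F H).card ≤ ⌊Bd⌋₊ * 4 ^ (eIn F univ).card :=
      h1.trans (Nat.mul_le_mul_left _ (h2.trans h3))
    have hfloor : ((⌊Bd⌋₊ : ℕ) : ℝ) ≤ Bd := Nat.floor_le hBd0
    calc ((emb F H).card : ℝ) ≤ ((⌊Bd⌋₊ : ℕ) : ℝ) * 4 ^ (eIn F univ).card := by exact_mod_cast h4
      _ ≤ Bd * 4 ^ (eIn F univ).card := mul_le_mul_of_nonneg_right hfloor (by positivity)
      _ = _ := mul_comm _ _
  · intro R hR
    obtain ⟨φ₁, hφ₁, rfl⟩ := Finset.mem_image.1 hR
    apply Nat.le_floor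
    set S := (emb F H).filter (fun φ => pat φ = pat φ₁) with hS
    have hSe : ∀ φ ∈ S, φ ∈ emb F H := fun φ hφ => (Finset.mem_filter.1 hφ).1
    have hSp : ∀ φ ∈ S, pat φ = pat φ₁ := fun φ hφ => (Finset.mem_filter.1 hφ).2
    refine fam_bound_near hG hq0 hq1 hn hV hM hT hw hs hx hQ0 hQx hτ hacc hB hC₀ hc' hL1 hL2 hKdef hK1
      (R := pat φ₁) ?_ S ?_ ?_ ?_ ?_
    · intro u v h
      exact (Finset.mem_filter.1 (Finset.mem_filter.1 h).1).2
    · intro φ hφ
      exact (Finset.mem_filter.1 (hSe φ hφ)).2.1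
    · intro φ hφ
      exact (Finset.mem_filter.1 (hSe φ hφ)).2.2
    · intro φ hφ d hd
      rw [← hSp φ hφ] at hd
      exact (Finset.mem_filter.1 hd).2
    · intro φ hφ u v huv harc
      rw [← hSp φ hφ]
      exact Finset.mem_filter.2 ⟨Finset.mem_filter.2 ⟨mem_univ _, huv⟩, harc⟩

end Vale.Agent.Lib.P064N
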