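import Vale.Agent.Lib.P064N.Final

/-!
The near-critical thresholds: `tilde p_E ≤ C (p_E log (e + n p_E) + log n / n)` up to a factor
`(log n) ^ (11 log (e + n p_E) / log n)`, and the window where this factor is bounded.
-/

open Finset

namespace Vale.Agent.Lib.P064N

open Vale.Agent.Lib.P064

open scoped Classical

/-- The general form, for all `n ≥ 2` with `p_E ≤ 1 / (8 √n)`. -/
theorem near_thresholds :
    ∃ C : ℝ, 0 < C ∧ ∀ n : ℕ, 2 ≤ n → ∀ (V : Type) [Fintype V] (H : SimpleGraph V),
      Fintype.card V ≤ n → H ≠ ⊥ → 8 * pE n H * Real.sqrt n ≤ 1 →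
      pTilde n H ≤ C * (pE n H * Real.log (Real.exp 1 + n * pE n H) *
          (Real.log n) ^ (11 * Real.log (Real.exp 1 + n * pE n H) / Real.log n) +
          Real.log n / n) ∧
      pc n H ≤ C * Real.log n * (pE n H * Real.log (Real.exp 1 + n * pE n H) *
          (Real.log n) ^ (11 * Real.log (Real.exp 1 + n * pE n H) / Real.log n) +
          Real.log n / n) := by
  refine ⟨512 * Real.exp 60 + 8 * Real.exp 100, by positivity, ?_⟩
  intro n hn V _ H hV hH hs
  have hn2 : (2 : ℝ) ≤ n := by exact_mod_cast hn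
  have hn0 : (0 : ℝ) < n := by linarith
  have hx : 0 < Real.log n := Real.log_pos (by linarith)
  have hx12 : 1 / 2 ≤ Real.log n := by
    have h1 : Real.log 2 ≤ Real.log n := Real.log_le_log (by norm_num) hn2
    have h2 := Real.log_two_gt_d9
    linarith
  have hE0 := pE_pos hn hV hH
  obtain ⟨Λ, hΛ⟩ : ∃ Λ, Λ = Real.log (Real.exp 1 + n * pE n H) := ⟨_, rfl⟩
  rw [← hΛ]
  have hΛ0 : 0 ≤ Λ := by
    rw [hΛ]
    apply Real.log_nonneg
    have h1 : (1 : ℝ) ≤ Real.exp 1 := Real.one_le_exp (by norm_num)
    have h2 : 0 < (n : ℝ) * pE n H := by positivity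
    linarith
  obtain ⟨S, hS⟩ : ∃ S, S = pE n H * Λ * (Real.log n) ^ (11 * Λ / Real.log n) + Real.log n / n :=
    ⟨_, rfl⟩
  rw [← hS]
  have hxn : 0 < Real.log n / n := by positivity
  have hS1 : 0 ≤ pE n H * Λ * (Real.log n) ^ (11 * Λ / Real.log n) := by positivity
  have hSx : Real.log n / n ≤ S := by rw [hS]; linarith
  have hS0 : 0 < S := by linarith
  have hexp0 : 0 < Real.exp 60 := Real.exp_pos _
  have hexp1 : 0 < Real.exp 100 := Real.exp_pos _
  by_cases hc : Real.log n < 100
  · -- small `n`
    have hnlt : (n : ℝ) < Real.exp 100 := by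
      rw [← Real.exp_log hn0]
      exact Real.exp_lt_exp.2 hc
    have h1 : (1 : ℝ) ≤ 2 * Real.exp 100 * (Real.log n / n) := by
      have h2 : 2 * Real.exp 100 * (Real.log n / n) = (2 * Real.log n) * (Real.exp 100 / n) := by
        ring
      rw [h2]
      have h3 : 1 ≤ Real.exp 100 / n := by
        rw [le_div_iff₀ hn0]
        linarith
      have h4 : 1 ≤ 2 * Real.log n := by linarith
      nlinarith
    have h2 : (1 : ℝ) ≤ 2 * Real.exp 100 * S := by
      have : 2 * Real.exp 100 * (Real.log n / n) ≤ 2 * Real.exp 100 * S :=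
        mul_le_mul_of_nonneg_left hSx (by positivity)
      linarith
    constructor
    · have h3 := pTilde_le_one (n := n) (H := H) hV
      have h4 : 0 ≤ Real.exp 60 * S := by positivity
      have h5 : 0 ≤ Real.exp 100 * S := by positivity
      nlinarith
    · have h3 := pc_le_one (n := n) (H := H) hV
      have h4 : 0 ≤ Real.exp 60 * (Real.log n * S) := by positivity
      have h5 : 0 ≤ Real.exp 100 * (Real.log n * S) := by positivity
      have h6 : (1 : ℝ) ≤ 4 * Real.exp 100 * (Real.log n * S) := by
        have h7 : 1 * 1 ≤ (2 * Real.log n) * (2 * Real.exp 100 * S) :=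
          mul_le_mul (by linarith) h2 (by norm_num) (by linarith)
        nlinarith
      nlinarith
  · push Not at hc
    obtain ⟨Θ, hΘ0, hΘ, hΘle⟩ := near_core (H := H) hn hV hH hc hs
    rw [← hΛ] at hΘle
    have hrpow : Real.exp (11 * Λ * Real.log (Real.log n) / Real.log n) =
        (Real.log n) ^ (11 * Λ / Real.log n) := by
      rw [Real.rpow_def_of_pos hx]
      congr 1
      ring
    rw [hrpow, ← hS] at hΘle
    have h1 := pTilde_le_of_embBound hV hΘ0 hΘ
    have h2 := pc_le_of_embBound hn hV hH hΘ0 hΘ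
    constructor
    · have h4 : 0 ≤ Real.exp 60 * S := by positivity
      have h5 : 0 ≤ Real.exp 100 * S := by positivity
      nlinarith
    · have h3 : 512 * Real.log n * Θ ≤ 512 * Real.log n * (Real.exp 60 * S) :=
        mul_le_mul_of_nonneg_left hΘle (by positivity)
      have h4 : 0 ≤ Real.exp 100 * (Real.log n * S) := by positivity
      nlinarith

/-- The window where the extra factor is bounded. -/
theorem near_window :
    ∃ C : ℝ, 0 < C ∧ ∀ n : ℕ, 3 ≤ n → ∀ (V : Type) [Fintype V] (H : SimpleGraph V),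
      Fintype.card V ≤ n → H ≠ ⊥ →
      Real.log (Real.exp 1 + n * pE n H) * Real.log (Real.log n) ≤ Real.log n →
      pTilde n H ≤ C * (pE n H * Real.log (Real.exp 1 + n * pE n H) + Real.log n / n) ∧
      pc n H ≤ C * Real.log n * (pE n H * Real.log (Real.exp 1 + n * pE n H) + Real.log n / n) := by
  obtain ⟨C₀, hC₀, hmain⟩ := near_thresholds
  refine ⟨C₀ * Real.exp 11 + 8 * Real.exp 100, by positivity, ?_⟩
  intro n hn V _ H hV hH hw
  have hn2 : (3 : ℝ) ≤ n := by exact_mod_cast hn
  have hn0 : (0 : ℝ) < n := by linarith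
  have hx : 1 ≤ Real.log n := by
    have h1 : Real.log (Real.exp 1) ≤ Real.log n :=
      Real.log_le_log (Real.exp_pos 1) (by have := Real.exp_one_lt_d9; linarith)
    rwa [Real.log_exp] at h1
  have hE0 := pE_pos (n := n) (by omega) hV hH
  obtain ⟨Λ, hΛ⟩ : ∃ Λ, Λ = Real.log (Real.exp 1 + n * pE n H) := ⟨_, rfl⟩
  rw [← hΛ] at hw ⊢
  have hnp : 0 < (n : ℝ) * pE n H := by positivity
  have hΛ0 : 0 ≤ Λ := by
    rw [hΛ]
    apply Real.log_nonneg
    have h1 : (1 : ℝ) ≤ Real.exp 1 := Real.one_le_exp (by norm_num)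
    linarith
  obtain ⟨S, hS⟩ : ∃ S, S = pE n H * Λ + Real.log n / n := ⟨_, rfl⟩
  rw [← hS]
  have hxn : 0 < Real.log n / n := by positivity
  have hS1 : 0 ≤ pE n H * Λ := by positivity
  have hSx : Real.log n / n ≤ S := by rw [hS]; linarith
  have hS0 : 0 < S := by linarith
  have hexp1 : 0 < Real.exp 100 := Real.exp_pos _
  by_cases hc : Real.log n < 100
  · have hnlt : (n : ℝ) < Real.exp 100 := by
      rw [← Real.exp_log hn0]
      exact Real.exp_lt_exp.2 hc
    have h1 : (1 : ℝ) ≤ Real.exp 100 * (Real.log n / n) := by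
      have h2 : Real.exp 100 * (Real.log n / n) = Real.log n * (Real.exp 100 / n) := by
        ring
      rw [h2]
      have h3 : 1 ≤ Real.exp 100 / n := by
        rw [le_div_iff₀ hn0]
        linarith
      nlinarith
    have h2 : (1 : ℝ) ≤ Real.exp 100 * S := by
      have : Real.exp 100 * (Real.log n / n) ≤ Real.exp 100 * S :=
        mul_le_mul_of_nonneg_left hSx (by positivity)
      linarith
    have h4 : 0 ≤ C₀ * Real.exp 11 * S := by positivity
    constructor
    · have h3 := pTilde_le_one (n := n) (H := H) hV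
      nlinarith
    · have h3 := pc_le_one (n := n) (H := H) hV
      have h5 : 0 ≤ Real.log n * (C₀ * Real.exp 11 * S) := by positivity
      have h6 : (1 : ℝ) * 1 ≤ Real.log n * (Real.exp 100 * S) :=
        mul_le_mul hx h2 (by norm_num) (by linarith)
      nlinarith
  · push Not at hc
    -- the bound on `p_E`
    have hy : 4 ≤ Real.log (Real.log n) := by
      have h1 : Real.log (Real.exp 4) ≤ Real.log (Real.log n) := by
        apply Real.log_le_log (Real.exp_pos 4)
        have h2 : Real.exp 4 ≤ 100 := by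
          have h3 : Real.exp 1 < 2.7182818286 := Real.exp_one_lt_d9
          have h4 : Real.exp 4 = Real.exp 1 ^ 4 := by
            rw [← Real.exp_nat_mul]
            norm_num
          rw [h4]
          calc Real.exp 1 ^ 4 ≤ (2.7182818286 : ℝ) ^ 4 :=
                pow_le_pow_left₀ (Real.exp_pos 1).le h3.le 4
            _ ≤ 100 := by norm_num
        linarith
      rwa [Real.log_exp] at h1
    have hΛ4 : Λ ≤ Real.log n / 4 := by
      rw [le_div_iff₀ (by norm_num)]
      have : Λ * 4 ≤ Λ * Real.log (Real.log n) := mul_le_mul_of_nonneg_left hy hΛ0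
      linarith
    have hs : 8 * pE n H * Real.sqrt n ≤ 1 := by
      obtain ⟨x, hxdef⟩ : ∃ x, x = Real.log n := ⟨_, rfl⟩
      rw [← hxdef] at hΛ4 hc
      have hnexp : (n : ℝ) = Real.exp x := by rw [hxdef, Real.exp_log hn0]
      have hsq : Real.sqrt n = Real.exp (x / 2) := by
        rw [hnexp, Real.sqrt_eq_iff_mul_self_eq (Real.exp_pos _).le (Real.exp_pos _).le,
          ← Real.exp_add]
        congr 1
        ring
      have h1 : (n : ℝ) * pE n H ≤ Real.exp (x / 4) := by
        have h2 : Real.exp Λ = Real.exp 1 + n * pE n H := by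
          rw [hΛ, Real.exp_log (by positivity)]
        have h3 : Real.exp Λ ≤ Real.exp (x / 4) := Real.exp_le_exp.2 hΛ4
        have h4 := Real.exp_pos 1
        linarith
      have h6 : pE n H * Real.sqrt n = (n * pE n H) * Real.exp (- (x / 2)) := by
        rw [hsq]
        have h7 : Real.exp (x / 2) = (n : ℝ) * Real.exp (- (x / 2)) := by
          rw [hnexp, ← Real.exp_add]
          congr 1
          ring
        rw [h7]
        ring
      have h8 : (n * pE n H) * Real.exp (- (x / 2)) ≤ Real.exp (x / 4) * Real.exp (- (x / 2)) :=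
        mul_le_mul_of_nonneg_right h1 (Real.exp_pos _).le
      have h9 : Real.exp (x / 4) * Real.exp (- (x / 2)) = Real.exp (- (x / 4)) := by
        rw [← Real.exp_add]
        congr 1
        ring
      have h10 : 8 * Real.exp (- (x / 4)) ≤ 1 := by
        have h11 : Real.exp (- (x / 4)) * Real.exp (x / 4) = 1 := by
          rw [← Real.exp_add]
          simp
        have h12 : 8 ≤ Real.exp (x / 4) := by
          have := Real.add_one_le_exp (x / 4)
          linarith
        have h13 := Real.exp_pos (- (x / 4))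
        nlinarith
      have h14 : 8 * pE n H * Real.sqrt n = 8 * (pE n H * Real.sqrt n) := by ring
      rw [h14, h6]
      linarith
    obtain ⟨h1, h2⟩ := hmain n (by omega) V H hV hH hs
    rw [← hΛ] at h1 h2
    have hxpos : 0 < Real.log n := by linarith
    have hfac : (Real.log n) ^ (11 * Λ / Real.log n) ≤ Real.exp 11 := by
      rw [Real.rpow_def_of_pos hxpos]
      apply Real.exp_le_exp.2
      rw [mul_div_assoc', div_le_iff₀ hxpos]
      nlinarith
    have hS' : pE n H * Λ * (Real.log n) ^ (11 * Λ / Real.log n) + Real.log n / n ≤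
        Real.exp 11 * S := by
      have h3 : pE n H * Λ * (Real.log n) ^ (11 * Λ / Real.log n) ≤ pE n H * Λ * Real.exp 11 :=
        mul_le_mul_of_nonneg_left hfac hS1
      have h4 : (1 : ℝ) ≤ Real.exp 11 := Real.one_le_exp (by norm_num)
      have h5 : Real.log n / n ≤ Real.exp 11 * (Real.log n / n) := by nlinarith
      rw [hS, mul_add]
      linarith
    have h6 : 0 ≤ Real.exp 100 * S := by positivity
    constructor
    · have h3 : C₀ * (pE n H * Λ * (Real.log n) ^ (11 * Λ / Real.log n) + Real.log n / n) ≤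
          C₀ * (Real.exp 11 * S) := mul_le_mul_of_nonneg_left hS' hC₀.le
      nlinarith
    · have h3 : C₀ * Real.log n * (pE n H * Λ * (Real.log n) ^ (11 * Λ / Real.log n) + Real.log n / n) ≤
          C₀ * Real.log n * (Real.exp 11 * S) :=
        mul_le_mul_of_nonneg_left hS' (by positivity)
      have h7 : 0 ≤ Real.log n * (Real.exp 100 * S) := by positivity
      nlinarith

end Vale.Agent.Lib.P064N
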