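import Vale.Agent.Lib.P064.SharpFinal

/-!
Token weights on the edges of a graph, heavy arcs, and the capacity inequality for heavy arcs.
-/

open Finset

namespace Vale.Agent.Lib.P064N

open Vale.Agent.Lib.P064

open scoped Classical

variable {V α : Type}

/-- Hall orientation with multiplicities: each edge puts `M` tokens on its two ends, each vertex
gets at most `c` tokens. -/
theorem orient_weights [Fintype V] (H : SimpleGraph V) (M c : ℕ)
    (hall : ∀ T : Finset (Sym2 V), (∀ e ∈ T, e ∈ H.edgeSet) →
      M * T.card ≤ c * (T.biUnion fun e => e.toFinset).card) :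
    ∃ w : V → V → ℕ, (∀ a b, H.Adj a b → w a b + w b a = M) ∧ (∀ a, ∑ b, w a b ≤ c) := by
  classical
  let ι := H.edgeSet × Fin M
  let t : ι → Finset (V × Fin c) := fun x => (x.1.1.toFinset) ×ˢ univ
  have hH : ∀ s : Finset ι, s.card ≤ (s.biUnion t).card := by
    intro s
    let T : Finset (Sym2 V) := s.image fun x => x.1.1
    have hT : ∀ e ∈ T, e ∈ H.edgeSet := by
      intro e he
      obtain ⟨x, _, rfl⟩ := Finset.mem_image.1 he
      exact x.1.2
    have h1 : s.card ≤ M * T.card := by
      refine Finset.card_le_mul_card_image s M ?_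
      intro a _
      have : (s.filter fun x => x.1.1 = a).card ≤ (univ : Finset (Fin M)).card := by
        refine Finset.card_le_card_of_injOn (fun x => x.2) (fun _ _ => Finset.mem_coe.2 (mem_univ _)) ?_
        intro x hx y hy hxy
        have hx' := (Finset.mem_filter.1 (Finset.mem_coe.1 hx)).2
        have hy' := (Finset.mem_filter.1 (Finset.mem_coe.1 hy)).2
        refine Prod.ext (Subtype.ext ?_) hxy
        rw [hx', hy']
      simpa using this
    have h2 : s.biUnion t = (T.biUnion fun e => e.toFinset) ×ˢ (univ : Finset (Fin c)) := by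
      ext ⟨a, j⟩
      simp only [Finset.mem_biUnion, Finset.mem_product, Finset.mem_univ, and_true, t, T,
        Finset.mem_image]
      constructor
      · rintro ⟨x, hx, h⟩
        exact ⟨x.1.1, ⟨x, hx, rfl⟩, h⟩
      · rintro ⟨_, ⟨x, hx, rfl⟩, h⟩
        exact ⟨x, hx, h⟩
    rw [h2, Finset.card_product, Finset.card_univ, Fintype.card_fin, mul_comm (Finset.card _) c]
    exact h1.trans (hall T hT)
  obtain ⟨f, hf, hft⟩ := (Finset.all_card_le_biUnion_card_iff_exists_injective t).1 hH
  have hfm : ∀ x : ι, (f x).1 ∈ x.1.1 := by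
    intro x
    have := hft x
    simp only [t, Finset.mem_product, Sym2.mem_toFinset] at this
    exact this.1
  -- the weight
  refine ⟨fun a b => (univ.filter fun i : Fin M =>
    ∃ e : H.edgeSet, e.1 = s(a, b) ∧ (f (e, i)).1 = a).card, ?_, ?_⟩
  · intro a b hab
    let e : H.edgeSet := ⟨s(a, b), hab⟩
    have hne : a ≠ b := hab.ne
    have h1 : ∀ i : Fin M, (∃ e' : H.edgeSet, e'.1 = s(a, b) ∧ (f (e', i)).1 = a) ↔
        (f (e, i)).1 = a := by
      intro i
      constructor
      · rintro ⟨e', h2, h3⟩
        have : e' = e := Subtype.ext h2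
        rwa [this] at h3
      · intro h2
        exact ⟨e, rfl, h2⟩
    have h2 : ∀ i : Fin M, (∃ e' : H.edgeSet, e'.1 = s(b, a) ∧ (f (e', i)).1 = b) ↔
        (f (e, i)).1 = b := by
      intro i
      constructor
      · rintro ⟨e', h2, h3⟩
        have : e' = e := Subtype.ext (h2.trans Sym2.eq_swap)
        rwa [this] at h3
      · intro h2
        exact ⟨e, Sym2.eq_swap, h2⟩
    simp only [h1, h2]
    rw [← Finset.card_union_of_disjoint]
    · have : (univ.filter fun i : Fin M => (f (e, i)).1 = a) ∪
          (univ.filter fun i : Fin M => (f (e, i)).1 = b) = univ := by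
        ext i
        simp only [Finset.mem_union, Finset.mem_filter, Finset.mem_univ, true_and, iff_true]
        exact Sym2.mem_iff.1 (hfm (e, i))
      rw [this]
      simp
    · rw [Finset.disjoint_left]
      intro i hi hi'
      have h3 := (Finset.mem_filter.1 hi).2
      have h4 := (Finset.mem_filter.1 hi').2
      exact hne (h3.symm.trans h4)
  · intro a
    -- inject the tokens at `a` into `Fin c`
    rw [← Finset.card_sigma]
    set O := (univ : Finset V).sigma (fun b => univ.filter fun i : Fin M =>
        ∃ e : H.edgeSet, e.1 = s(a, b) ∧ (f (e, i)).1 = a) with hO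
    have hch : ∀ x ∈ O, ∃ j : Fin c, ∃ e : H.edgeSet,
        e.1 = s(a, x.1) ∧ f (e, x.2) = (a, j) := by
      intro x hx
      obtain ⟨e, h1, h2⟩ := (Finset.mem_filter.1 (Finset.mem_sigma.1 hx).2).2
      exact ⟨(f (e, x.2)).2, e, h1, Prod.ext h2 rfl⟩
    choose g hg using (fun x : O => hch x.1 x.2)
    have hinj : Function.Injective g := by
      intro x x' hxx
      obtain ⟨e, h1, h2⟩ := hg x
      obtain ⟨e', h1', h2'⟩ := hg x'
      rw [← hxx] at h2'
      have h3 := hf (h2.trans h2'.symm)
      have h4 : e = e' := congrArg Prod.fst h3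
      have h5 : x.1.2 = x'.1.2 := congrArg Prod.snd h3
      have h6 : x.1.1 = x'.1.1 := by
        rw [h4, h1'] at h1
        exact (Sym2.congr_right.1 h1).symm
      apply Subtype.ext
      obtain ⟨⟨b, i⟩, hx⟩ := x
      obtain ⟨⟨b', i'⟩, hx'⟩ := x'
      simp only at h5 h6
      subst h6
      subst h5
      rfl
    have := Fintype.card_le_of_injective g hinj
    rw [Fintype.card_coe, Fintype.card_fin] at this
    exact this

/-- The heavy arcs: `a` holds at least `T` tokens of the edge `ab`. -/
def ArcT (H : SimpleGraph V) (w : V → V → ℕ) (T : ℕ) (a b : V) : Prop := H.Adj a b ∧ T ≤ w a b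

lemma arcT_out [Fintype V] {H : SimpleGraph V} {w : V → V → ℕ} {c T : ℕ}
    (hs : ∀ a, ∑ b, w a b ≤ c) (hT : 1 ≤ T) (a : V) :
    (univ.filter fun b => ArcT H w T a b).card ≤ c / T := by
  rw [Nat.le_div_iff_mul_le (by omega)]
  have h1 : ∑ b ∈ univ.filter (fun b => ArcT H w T a b), T ≤
      ∑ b ∈ univ.filter (fun b => ArcT H w T a b), w a b :=
    Finset.sum_le_sum (fun b hb => (Finset.mem_filter.1 hb).2.2)
  have h2 : ∑ b ∈ univ.filter (fun b => ArcT H w T a b), w a b ≤ ∑ b, w a b :=
    Finset.sum_le_sum_of_subset (Finset.subset_univ _)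
  simp only [Finset.sum_const, smul_eq_mul] at h1
  exact h1.trans (h2.trans (hs a))

variable [Fintype V] [Fintype α] {H : SimpleGraph V} {F : SimpleGraph α}

lemma eIn_subset_newE {E C : Finset α} (hdisj : Disjoint C E) : eIn F C ⊆ newE F E C := by
  intro e he
  induction e using Sym2.ind with
  | _ u v =>
    obtain ⟨h1, h2, h3⟩ := mem_eIn_pair.1 he
    refine mem_newE_pair.2 ⟨h1, Or.inr h2, Or.inr h3, ?_⟩
    rintro ⟨h4, _⟩
    exact Finset.disjoint_left.1 hdisj h2 h4

/-- A strongly connected set spans at least `|C| - 1` edges. -/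
lemma card_le_eIn {R : Finset (α × α)} {C : Finset α} (hRF : ∀ u v, (u, v) ∈ R → F.Adj u v)
    (hne : C.Nonempty)
    (hconn : ∀ D : Finset α, D.Nonempty → D ⊆ C → D ≠ C → ∃ u ∈ D, ∃ v ∈ C \ D, (u, v) ∈ R) :
    C.card ≤ (eIn F C).card + 1 := by
  set R' : Finset (α × α) := R.filter (fun p => p.1 ∈ C ∧ p.2 ∈ C) with hR'
  have hb : IsBlock R' (∅ : Finset α) C := by
    refine ⟨hne, Finset.disjoint_empty_right _, ?_, ?_⟩
    · intro u v huv _
      exact Finset.mem_union_right _ (Finset.mem_filter.1 huv).2.2
    · intro x hx D hxD hDW hDne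
      obtain ⟨u, hu, v, hv, huv⟩ := hconn D ⟨x, hxD⟩ hDW hDne
      refine ⟨u, hu, v, hv, Finset.mem_filter.2 ⟨huv, hDW hu, (Finset.mem_sdiff.1 hv).1⟩⟩
  have hRF' : ∀ u v, (u, v) ∈ R' → F.Adj u v := fun u v h => hRF u v (Finset.mem_filter.1 h).1
  have h1 := newE_card R' hRF' hb
  have h2 : newE F ∅ C = eIn F C := by
    unfold newE
    rw [eIn_empty, Finset.empty_union, Finset.sdiff_empty]
  rw [h2] at h1
  omega

/-- The capacity inequality: the tokens of the new edges at the image of `C`. -/
lemma capacity_w {w : V → V → ℕ} {M c T : ℕ}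
    (hw : ∀ a b, H.Adj a b → w a b + w b a = M) (hs : ∀ a, ∑ b, w a b ≤ c)
    {R : Finset (α × α)} {E C : Finset α} (hdisj : Disjoint C E)
    (hE : ∀ u v, (u, v) ∈ R → u ∈ E → v ∉ C) {φ : α → V}
    (hinj : Function.Injective φ) (hhom : ∀ u v, F.Adj u v → H.Adj (φ u) (φ v))
    (hR : ∀ u v, F.Adj u v → ArcT H w T (φ u) (φ v) → (u, v) ∈ R) :
    M * (newE F E C).card ≤ c * C.card + T * ((newE F E C).card - (eIn F C).card) := by
  -- the darts out of `C` inside `E ∪ C`
  set D : Finset (α × α) := (C ×ˢ (E ∪ C)).filter (fun d => F.Adj d.1 d.2) with hD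
  set g : α × α → ℕ := fun d => w (φ d.1) (φ d.2) with hg
  -- the total weight of the darts
  have h1 : ∑ d ∈ D, g d ≤ c * C.card := by
    have h2 : ∑ d ∈ D, g d ≤ ∑ d ∈ C ×ˢ (univ : Finset α), g d := by
      apply Finset.sum_le_sum_of_ne_zero
      intro d hd _
      obtain ⟨h3, _⟩ := Finset.mem_filter.1 hd
      exact Finset.mem_product.2 ⟨(Finset.mem_product.1 h3).1, mem_univ _⟩
    refine h2.trans ?_
    rw [Finset.sum_product]
    calc ∑ x ∈ C, ∑ y, g (x, y) ≤ ∑ x ∈ C, c := by
          apply Finset.sum_le_sum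
          intro x _
          have h3 : ∑ y, g (x, y) = ∑ b ∈ (univ : Finset α).image φ, w (φ x) b := by
            rw [Finset.sum_image (fun a _ b _ h => hinj h)]
          rw [h3]
          exact (Finset.sum_le_sum_of_subset (Finset.subset_univ _)).trans (hs _)
      _ = c * C.card := by
          simp [mul_comm]
  -- each new edge carries its weight
  have hE2 : eIn F C ⊆ newE F E C := eIn_subset_newE hdisj
  have hmap : ∀ d ∈ D, s(d.1, d.2) ∈ newE F E C := by
    intro d hd
    obtain ⟨h3, h4⟩ := Finset.mem_filter.1 hd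
    obtain ⟨h5, h6⟩ := Finset.mem_product.1 h3
    refine mem_newE_pair.2 ⟨h4, Or.inr h5, ?_, ?_⟩
    · simpa [Finset.mem_union] using h6
    · rintro ⟨h7, _⟩
      exact Finset.disjoint_left.1 hdisj h5 h7
  have hfib := Finset.sum_fiberwise_of_maps_to (s := D) (t := newE F E C)
    (g := fun d => s(d.1, d.2)) hmap g
  have hlow : ∀ ε ∈ newE F E C, M ≤ (∑ d ∈ D with s(d.1, d.2) = ε, g d) +
      (if ε ∈ eIn F C then 0 else T) := by
    intro ε hε
    induction ε using Sym2.ind with
    | _ u v =>
      obtain ⟨huv, h2, h3, h4⟩ := mem_newE_pair.1 hε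
      by_cases hin : s(u, v) ∈ eIn F C
      · -- both ends in `C`
        obtain ⟨_, huC, hvC⟩ := mem_eIn_pair.1 hin
        rw [if_pos hin, add_zero]
        have hd1 : (u, v) ∈ D.filter (fun d => s(d.1, d.2) = s(u, v)) := by
          refine Finset.mem_filter.2 ⟨Finset.mem_filter.2 ⟨Finset.mem_product.2 ⟨huC, ?_⟩, huv⟩, rfl⟩
          exact Finset.mem_union_right _ hvC
        have hd2 : (v, u) ∈ D.filter (fun d => s(d.1, d.2) = s(u, v)) := by
          refine Finset.mem_filter.2 ⟨Finset.mem_filter.2 ⟨Finset.mem_product.2 ⟨hvC, ?_⟩, huv.symm⟩, Sym2.eq_swap⟩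
          exact Finset.mem_union_right _ huC
        have hsub : ({(u, v), (v, u)} : Finset (α × α)) ⊆ D.filter (fun d => s(d.1, d.2) = s(u, v)) := by
          intro x hx
          rcases Finset.mem_insert.1 hx with rfl | hx
          · exact hd1
          · rw [Finset.mem_singleton] at hx
            rw [hx]
            exact hd2
        have h5 := Finset.sum_le_sum_of_subset (f := g) hsub
        have hne : (u, v) ≠ (v, u) := by
          intro h
          exact huv.ne (congrArg Prod.fst h)
        rw [Finset.sum_pair hne] at h5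
        have h6 := hw (φ u) (φ v) (hhom u v huv)
        simp only [hg] at h5
        simp only [hg]
        omega
      · rw [if_neg hin]
        -- one end in `E`
        have hone : ∃ a b, s(u, v) = s(a, b) ∧ a ∈ C ∧ b ∈ E := by
          by_cases huC : u ∈ C
          · have hvE : v ∈ E := by
              rcases h3 with h5 | h5
              · exact h5
              · exact absurd (mem_eIn_pair.2 ⟨huv, huC, h5⟩) hin
            exact ⟨u, v, rfl, huC, hvE⟩
          · have huE : u ∈ E := h2.resolve_right huC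
            have hvC : v ∈ C := by
              rcases h3 with h5 | h5
              · exact absurd ⟨huE, h5⟩ h4
              · exact h5
            exact ⟨v, u, Sym2.eq_swap, hvC, huE⟩
        obtain ⟨a, b, hab, haC, hbE⟩ := hone
        have hadj : F.Adj a b := by
          have : s(a, b) ∈ F.edgeSet := by
            rw [← hab]
            exact huv
          exact this
        have hd1 : (a, b) ∈ D.filter (fun d => s(d.1, d.2) = s(u, v)) := by
          refine Finset.mem_filter.2 ⟨Finset.mem_filter.2 ⟨Finset.mem_product.2 ⟨haC, ?_⟩, hadj⟩, hab.symm⟩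
          exact Finset.mem_union_left _ hbE
        have h5 : g (a, b) ≤ ∑ d ∈ D with s(d.1, d.2) = s(u, v), g d :=
          Finset.single_le_sum (f := g) (fun _ _ => Nat.zero_le _) hd1
        have h6 := hw (φ a) (φ b) (hhom a b hadj)
        have h7 : ¬ ArcT H w T (φ b) (φ a) := by
          intro h8
          exact hE b a (hR b a hadj.symm h8) hbE haC
        have h8 : w (φ b) (φ a) < T := by
          by_contra h9
          exact h7 ⟨hhom b a hadj.symm, not_lt.1 h9⟩
        simp only [hg] at h5
        simp only [hg]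
        omega
  have hsum := Finset.sum_le_sum hlow
  rw [Finset.sum_const, smul_eq_mul, Finset.sum_add_distrib, hfib] at hsum
  have hT : ∑ ε ∈ newE F E C, (if ε ∈ eIn F C then 0 else T) =
      T * ((newE F E C).card - (eIn F C).card) := by
    have h5 : ∑ ε ∈ newE F E C, (if ε ∈ eIn F C then 0 else T) =
        ∑ ε ∈ newE F E C \ eIn F C, T := by
      rw [Finset.sum_ite, Finset.sum_const_zero, zero_add]
      apply Finset.sum_congr _ (fun _ _ => rfl)
      ext ε
      simp [Finset.mem_sdiff]
    rw [h5, Finset.sum_const, smul_eq_mul, Finset.card_sdiff_of_subset hE2, mul_comm]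
  rw [hT] at hsum
  rw [mul_comm M]
  omega

end Vale.Agent.Lib.P064N
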